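import Mathlib
import Crest.Prelude.Def_MultiMarginal

/-!
Abstract measure-theoretic core for S0175: weak duality for three-marginal couplings,
the six-sheet Monge construction, and the doubling argument excluding exact Monge optimizers.
-/

set_option autoImplicit false

namespace Crest.Agent.Lib.OTM

open MeasureTheory Set
open scoped ENNReal
open Crest.AnalysisR.OT

variable {E : Type*} [MeasurableSpace E]

/-- Weak duality: if `U ⊕ U ⊕ U ≤ c + M` on `S`, then `3 ∫ U dμ ≤ ∫ c dπ + M * μ univ`. -/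
theorem dual_bound {μ : Measure E} {S : Set E} (hSm : MeasurableSet S) (hS : ∀ᵐ x ∂μ, x ∈ S)
    {U : E → ℝ≥0∞} (hU : Measurable U) {M : ℝ≥0∞}
    {c : E × E × E → ℝ≥0∞} (hc : Measurable c)
    (hdual : ∀ x ∈ S, ∀ y ∈ S, ∀ z ∈ S, U x + U y + U z ≤ c (x, y, z) + M)
    {π : Measure (E × E × E)} (hπ : IsCoupling₃ μ π) :
    3 * ∫⁻ x, U x ∂μ ≤ ∫⁻ p, c p ∂π + M * μ univ := by
  obtain ⟨h1, h2, h3⟩ := hπ
  have m1 : Measurable (fun p : E × E × E => p.1) := measurable_fst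
  have m2 : Measurable (fun p : E × E × E => p.2.1) := measurable_fst.comp measurable_snd
  have m3 : Measurable (fun p : E × E × E => p.2.2) := measurable_snd.comp measurable_snd
  have i1 : ∫⁻ p, U p.1 ∂π = ∫⁻ x, U x ∂μ := by
    rw [← h1, lintegral_map hU m1]
  have i2 : ∫⁻ p, U p.2.1 ∂π = ∫⁻ x, U x ∂μ := by
    conv_rhs => rw [← h2, lintegral_map hU m2]
  have i3 : ∫⁻ p, U p.2.2 ∂π = ∫⁻ x, U x ∂μ := by
    conv_rhs => rw [← h3, lintegral_map hU m3]
  have a1 : ∀ᵐ p ∂π, p.1 ∈ S := by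
    have : ∀ᵐ x ∂(π.map (fun p : E × E × E => p.1)), x ∈ S := by rw [h1]; exact hS
    exact ae_of_ae_map m1.aemeasurable this
  have a2 : ∀ᵐ p ∂π, p.2.1 ∈ S := by
    have : ∀ᵐ x ∂(π.map (fun p : E × E × E => p.2.1)), x ∈ S := by rw [h2]; exact hS
    exact ae_of_ae_map m2.aemeasurable this
  have a3 : ∀ᵐ p ∂π, p.2.2 ∈ S := by
    have : ∀ᵐ x ∂(π.map (fun p : E × E × E => p.2.2)), x ∈ S := by rw [h3]; exact hS
    exact ae_of_ae_map m3.aemeasurable this
  have hmass : π univ = μ univ := by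
    rw [← h1, Measure.map_apply m1 MeasurableSet.univ, preimage_univ]
  calc 3 * ∫⁻ x, U x ∂μ = ∫⁻ p, (U p.1 + U p.2.1 + U p.2.2) ∂π := by
        have e1 : ∫⁻ p, (U p.1 + U p.2.1 + U p.2.2) ∂π =
            ∫⁻ p, (U p.1 + U p.2.1) ∂π + ∫⁻ p, U p.2.2 ∂π :=
          lintegral_add_right (fun p : E × E × E => U p.1 + U p.2.1) (hU.comp m3)
        have e2 : ∫⁻ p, (U p.1 + U p.2.1) ∂π = ∫⁻ p, U p.1 ∂π + ∫⁻ p, U p.2.1 ∂π :=
          lintegral_add_right (fun p : E × E × E => U p.1) (hU.comp m2)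
        rw [e1, e2, i1, i2, i3]
        ring
    _ ≤ ∫⁻ p, (c p + M) ∂π := by
        apply lintegral_mono_ae
        filter_upwards [a1, a2, a3] with p ha1 ha2 ha3
        exact hdual _ ha1 _ ha2 _ ha3
    _ = ∫⁻ p, c p ∂π + M * μ univ := by
        rw [lintegral_add_right _ measurable_const, lintegral_const, hmass]

/-- The Monge plan of measure-preserving maps is a coupling. -/
theorem isCoupling_monge {μ : Measure E} {T₂ T₃ : E → E} (h₂ : Measurable T₂) (h₃ : Measurable T₃)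
    (hT₂ : μ.map T₂ = μ) (hT₃ : μ.map T₃ = μ) :
    IsCoupling₃ μ (μ.map (fun x => (x, T₂ x, T₃ x))) := by
  have mm : Measurable (fun x => (x, T₂ x, T₃ x)) := measurable_id.prodMk (h₂.prodMk h₃)
  refine ⟨?_, ?_, ?_⟩
  · rw [Measure.map_map measurable_fst mm]; exact Measure.map_id
  · have m2 : Measurable (fun p : E × E × E => p.2.1) := measurable_fst.comp measurable_snd
    rw [Measure.map_map m2 mm]; exact hT₂
  · have m3 : Measurable (fun p : E × E × E => p.2.2) := measurable_snd.comp measurable_snd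
    rw [Measure.map_map m3 mm]; exact hT₃

/-- Pointwise a.e. equality for a Monge plan achieving the dual bound. -/
theorem ae_eq_of_monge_le {μ : Measure E} [IsFiniteMeasure μ] {S : Set E} (hSm : MeasurableSet S)
    (hS : ∀ᵐ x ∂μ, x ∈ S)
    {U : E → ℝ≥0∞} (hU : Measurable U) {M : ℝ≥0∞} (hM : M ≠ ⊤)
    {c : E × E × E → ℝ≥0∞} (hc : Measurable c)
    (hdual : ∀ x ∈ S, ∀ y ∈ S, ∀ z ∈ S, U x + U y + U z ≤ c (x, y, z) + M)
    {T₂ T₃ : E → E} (h₂ : Measurable T₂) (h₃ : Measurable T₃)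
    (hT₂ : μ.map T₂ = μ) (hT₃ : μ.map T₃ = μ)
    (hfin : 3 * ∫⁻ x, U x ∂μ ≠ ⊤)
    (hle : ∫⁻ x, c (x, T₂ x, T₃ x) ∂μ + M * μ univ ≤ 3 * ∫⁻ x, U x ∂μ) :
    ∀ᵐ x ∂μ, U x + U (T₂ x) + U (T₃ x) = c (x, T₂ x, T₃ x) + M := by
  have a2 : ∀ᵐ x ∂μ, T₂ x ∈ S := by
    have : ∀ᵐ x ∂(μ.map T₂), x ∈ S := by rw [hT₂]; exact hS
    exact ae_of_ae_map h₂.aemeasurable this
  have a3 : ∀ᵐ x ∂μ, T₃ x ∈ S := by
    have : ∀ᵐ x ∂(μ.map T₃), x ∈ S := by rw [hT₃]; exact hS
    exact ae_of_ae_map h₃.aemeasurable this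
  have i2 : ∫⁻ x, U (T₂ x) ∂μ = ∫⁻ x, U x ∂μ := by
    conv_rhs => rw [← hT₂, lintegral_map hU h₂]
  have i3 : ∫⁻ x, U (T₃ x) ∂μ = ∫⁻ x, U x ∂μ := by
    conv_rhs => rw [← hT₃, lintegral_map hU h₃]
  have hL : ∫⁻ x, (U x + U (T₂ x) + U (T₃ x)) ∂μ = 3 * ∫⁻ x, U x ∂μ := by
    have e1 : ∫⁻ x, (U x + U (T₂ x) + U (T₃ x)) ∂μ =
        ∫⁻ x, (U x + U (T₂ x)) ∂μ + ∫⁻ x, U (T₃ x) ∂μ :=
      lintegral_add_right (fun x => U x + U (T₂ x)) (hU.comp h₃)
    have e2 : ∫⁻ x, (U x + U (T₂ x)) ∂μ = ∫⁻ x, U x ∂μ + ∫⁻ x, U (T₂ x) ∂μ :=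
      lintegral_add_right (fun x => U x) (hU.comp h₂)
    rw [e1, e2, i2, i3]
    ring
  have hcm : Measurable (fun x => c (x, T₂ x, T₃ x)) :=
    hc.comp (measurable_id.prodMk (h₂.prodMk h₃))
  have hR : ∫⁻ x, (c (x, T₂ x, T₃ x) + M) ∂μ = ∫⁻ x, c (x, T₂ x, T₃ x) ∂μ + M * μ univ := by
    rw [lintegral_add_right _ measurable_const, lintegral_const]
  have hlea : (fun x => U x + U (T₂ x) + U (T₃ x)) ≤ᵐ[μ] fun x => c (x, T₂ x, T₃ x) + M := by
    filter_upwards [hS, a2, a3] with x h1 h2 h3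
    exact hdual _ h1 _ h2 _ h3
  have := ae_eq_of_ae_le_of_lintegral_le hlea (by rw [hL]; exact hfin)
    (hcm.add_const M).aemeasurable (by rw [hL, hR]; exact hle)
  filter_upwards [this] with x hx
  exact hx

/-- Measurable gluing of a family of maps along a finite disjoint measurable family of sets. -/
theorem exists_measurable_glue {K : Type*} [Countable K] (B : K → Set E)
    (hB : ∀ k, MeasurableSet (B k)) (hdisj : Pairwise (fun i j => Disjoint (B i) (B j)))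
    {F : Type*} [MeasurableSpace F] [Nonempty F]
    (g : K → E → F) (hg : ∀ k, Measurable (g k)) :
    ∃ T : E → F, Measurable T ∧ ∀ k, ∀ x ∈ B k, T x = g k x := by
  classical
  obtain ⟨f0⟩ := ‹Nonempty F›
  let t : Option K → Set E := fun o => match o with
    | some k => B k
    | none => (⋃ k, B k)ᶜ
  let G : Option K → E → F := fun o => match o with
    | some k => g k
    | none => fun _ => f0
  have ht : ∀ o, MeasurableSet (t o) := by
    intro o
    cases o with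
    | some k => exact hB k
    | none => exact (MeasurableSet.iUnion hB).compl
  have hG : ∀ o, Measurable (G o) := by
    intro o
    cases o with
    | some k => exact hg k
    | none => exact measurable_const
  have hp : Pairwise fun i j => EqOn (G i) (G j) (t i ∩ t j) := by
    intro i j hij x hx
    cases i with
    | none =>
      cases j with
      | none => exact absurd rfl hij
      | some k =>
        exact absurd (mem_iUnion.2 ⟨k, hx.2⟩) hx.1
    | some k =>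
      cases j with
      | none => exact absurd (mem_iUnion.2 ⟨k, hx.1⟩) hx.2
      | some l =>
        have hkl : k ≠ l := fun h => hij (by rw [h])
        exact absurd hx.2 (Set.disjoint_left.1 (hdisj hkl) hx.1)
  obtain ⟨f, hf, hf2⟩ := exists_measurable_piecewise t ht G hG hp
  exact ⟨f, hf, fun k x hx => hf2 (some k) hx⟩

/-- Sum of pushforwards under maps. -/
theorem map_sum_measure {K : Type*} [Fintype K] {ν : K → Measure E} {F : Type*}
    [MeasurableSpace F] {T : E → F} (hT : Measurable T) :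
    (∑ k, ν k).map T = ∑ k, (ν k).map T := by
  classical
  induction (Finset.univ : Finset K) using Finset.induction_on with
  | empty => simp
  | insert a s ha ih =>
    rw [Finset.sum_insert ha, Finset.sum_insert ha, Measure.map_add _ _ hT, ih]

/-- Six-sheet construction, general form: given measurable maps `φ k` with measurable left
inverses `ψ k` on `A` and disjoint target sets, there is for every permutation a measurable `T`
with `T (φ k u) = φ (σ k) u`. -/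
theorem exists_sheet_map {K : Type*} [Countable K] (σ : K → K)
    (A : Set E) (φ ψ : K → E → E) (hφ : ∀ k, Measurable (φ k)) (hψ : ∀ k, Measurable (ψ k))
    (B : K → Set E) (hB : ∀ k, MeasurableSet (B k))
    (hdisj : Pairwise (fun i j => Disjoint (B i) (B j)))
    (hmaps : ∀ k, ∀ u ∈ A, φ k u ∈ B k) (hleft : ∀ k, ∀ u ∈ A, ψ k (φ k u) = u)
    [Nonempty E] :
    ∃ T : E → E, Measurable T ∧ ∀ k, ∀ u ∈ A, T (φ k u) = φ (σ k) u := by
  obtain ⟨T, hT, hT2⟩ := exists_measurable_glue B hB hdisj (fun k x => φ (σ k) (ψ k x))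
    (fun k => (hφ (σ k)).comp (hψ k))
  refine ⟨T, hT, fun k u hu => ?_⟩
  rw [hT2 k _ (hmaps k u hu), hleft k u hu]

section Sheets

variable {K : Type*} [Fintype K]

/-- Pushforward of the sheet sum. -/
theorem map_sheet_sum (σ : Equiv.Perm K) {A : Set E} {ν : Measure E} (hA : ∀ᵐ u ∂ν, u ∈ A)
    {φ : K → E → E} (hφ : ∀ k, Measurable (φ k)) {T : E → E} (hT : Measurable T)
    (hTφ : ∀ k, ∀ u ∈ A, T (φ k u) = φ (σ k) u) :
    (∑ k, ν.map (φ k)).map T = ∑ k, ν.map (φ k) := by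
  rw [map_sum_measure hT]
  have : ∀ k, (ν.map (φ k)).map T = ν.map (φ (σ k)) := by
    intro k
    rw [Measure.map_map hT (hφ k)]
    apply Measure.map_congr
    filter_upwards [hA] with u hu
    exact hTφ k u hu
  simp_rw [this]
  exact Equiv.sum_comp σ (fun k => ν.map (φ k))

/-- Integral of a function of `(x, T₂ x, T₃ x)` against the sheet sum. -/
theorem lintegral_sheet_sum {A : Set E} {ν : Measure E} (hA : ∀ᵐ u ∂ν, u ∈ A)
    {φ : K → E → E} (hφ : ∀ k, Measurable (φ k)) {T₂ T₃ : E → E} (h₂ : Measurable T₂)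
    (h₃ : Measurable T₃) (σ₂ σ₃ : K → K)
    (hT₂ : ∀ k, ∀ u ∈ A, T₂ (φ k u) = φ (σ₂ k) u)
    (hT₃ : ∀ k, ∀ u ∈ A, T₃ (φ k u) = φ (σ₃ k) u)
    {c : E × E × E → ℝ≥0∞} (hc : Measurable c) :
    ∫⁻ x, c (x, T₂ x, T₃ x) ∂(∑ k, ν.map (φ k)) =
      ∑ k, ∫⁻ u, c (φ k u, φ (σ₂ k) u, φ (σ₃ k) u) ∂ν := by
  have hm : Measurable (fun x => c (x, T₂ x, T₃ x)) :=
    hc.comp (measurable_id.prodMk (h₂.prodMk h₃))
  rw [lintegral_finsetSum_measure]
  apply Finset.sum_congr rfl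
  intro k _
  rw [lintegral_map hm (hφ k)]
  apply lintegral_congr_ae
  filter_upwards [hA] with u hu
  rw [hT₂ k u hu, hT₃ k u hu]

end Sheets

section Main

variable {ν : Measure E} {A : Set E} {φ ψ : Fin 4 → E → E} {B : Fin 4 → Set E}

/-- The total measure of the five bumps, written through `ν`. -/
noncomputable def totalMeasure (ν : Measure E) (φ : Fin 4 → E → E) : Measure E :=
  ν + ν + ν.map (φ 0) + ν.map (φ 1) + ν.map (φ 2) + ν.map (φ 3)

/-- The doubling argument: a measure preserving map cannot coincide with a chart `φ k` on a set of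
positive `ν`-measure. -/
theorem doubling [IsFiniteMeasure ν] (hAm : MeasurableSet A) (hA : ∀ᵐ u ∂ν, u ∈ A)
    (hφ : ∀ k, Measurable (φ k)) (hψ : ∀ k, Measurable (ψ k))
    (hB : ∀ k, MeasurableSet (B k))
    (hdisj : Pairwise (fun i j => Disjoint (B i) (B j))) (hAB : ∀ k, Disjoint A (B k))
    (hmaps : ∀ k, ∀ u ∈ A, φ k u ∈ B k) (hleft : ∀ k, ∀ u ∈ A, ψ k (φ k u) = u)
    {T : E → E} (hT : Measurable T) (hTμ : (totalMeasure ν φ).map T = totalMeasure ν φ) (k : Fin 4)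
    (hTk : ∀ᵐ u ∂ν, u ∈ A → T u ∈ B k → T u = φ k u) :
    ν {u | u ∈ A ∧ T u ∈ B k} = 0 := by
  set A₁ : Set E := {u | u ∈ A ∧ T u ∈ B k} with hA₁
  have hA₁m : MeasurableSet A₁ := hAm.inter (hT (hB k))
  set W : Set E := ψ k ⁻¹' A₁ ∩ B k with hW
  have hWm : MeasurableSet W := ((hψ k) hA₁m).inter (hB k)
  -- step 1: `ν A₁ ≤ ν (T ⁻¹' W)`
  have h1 : ν A₁ ≤ ν (T ⁻¹' W) := by
    apply measure_mono_ae
    filter_upwards [hTk, hA] with u hu huA
    intro hu1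
    have hu1' : u ∈ A ∧ T u ∈ B k := hu1
    have e := hu huA hu1'.2
    have : T u ∈ W := by
      refine ⟨?_, hu1'.2⟩
      rw [e, mem_preimage, hleft k u huA]
      exact hu1
    exact this
  -- step 2: `μ W ≤ ν A₁`
  have hνW : ν W = 0 := by
    apply measure_mono_null_ae (t := ∅)
    · filter_upwards [hA] with u huA
      intro huW
      exact (Set.disjoint_left.1 (hAB k) huA huW.2).elim
    · exact measure_empty
  have hoff : ∀ j, j ≠ k → (ν.map (φ j)) W = 0 := by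
    intro j hj
    rw [Measure.map_apply (hφ j) hWm]
    apply measure_mono_null_ae (t := ∅)
    · filter_upwards [hA] with u huA
      intro hu
      exact (Set.disjoint_left.1 (hdisj hj) (hmaps j u huA) hu.2).elim
    · exact measure_empty
  have hon : (ν.map (φ k)) W ≤ ν A₁ := by
    rw [Measure.map_apply (hφ k) hWm]
    apply measure_mono_ae
    filter_upwards [hA] with u huA
    intro hu
    have : ψ k (φ k u) ∈ A₁ := hu.1
    rw [hleft k u huA] at this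
    exact this
  have hsum : totalMeasure ν φ W = ν W + ν W + (ν.map (φ 0)) W + (ν.map (φ 1)) W + (ν.map (φ 2)) W
      + (ν.map (φ 3)) W := by
    simp [totalMeasure, Measure.add_apply]
  have h2 : totalMeasure ν φ W ≤ ν A₁ := by
    rw [hsum, hνW]
    fin_cases k
    · have h1' := hoff 1 (by decide); have h2' := hoff 2 (by decide); have h3' := hoff 3 (by decide)
      simp only [Fin.zero_eta, Fin.isValue, Fin.mk_one, Fin.reduceFinMk] at hon
      simp [h1', h2', h3']; exact hon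
    · have h1' := hoff 0 (by decide); have h2' := hoff 2 (by decide); have h3' := hoff 3 (by decide)
      simp only [Fin.zero_eta, Fin.isValue, Fin.mk_one, Fin.reduceFinMk] at hon
      simp [h1', h2', h3']; exact hon
    · have h1' := hoff 0 (by decide); have h2' := hoff 1 (by decide); have h3' := hoff 3 (by decide)
      simp only [Fin.zero_eta, Fin.isValue, Fin.mk_one, Fin.reduceFinMk] at hon
      simp [h1', h2', h3']; exact hon
    · have h1' := hoff 0 (by decide); have h2' := hoff 1 (by decide); have h3' := hoff 2 (by decide)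
      simp only [Fin.zero_eta, Fin.isValue, Fin.mk_one, Fin.reduceFinMk] at hon
      simp [h1', h2', h3']; exact hon
  -- step 3: preservation
  have h3 : totalMeasure ν φ (T ⁻¹' W) = totalMeasure ν φ W := by
    conv_rhs => rw [← hTμ, Measure.map_apply hT hWm]
  have h4 : ν (T ⁻¹' W) + ν (T ⁻¹' W) ≤ totalMeasure ν φ (T ⁻¹' W) := by
    simp only [totalMeasure, Measure.add_apply]
    calc ν (T ⁻¹' W) + ν (T ⁻¹' W)
        ≤ ν (T ⁻¹' W) + ν (T ⁻¹' W) + _ := le_self_add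
      _ ≤ _ + _ := le_self_add
      _ ≤ _ + _ := le_self_add
      _ ≤ _ + _ := le_self_add
  have h5 : ν A₁ + ν A₁ ≤ ν A₁ :=
    calc ν A₁ + ν A₁ ≤ ν (T ⁻¹' W) + ν (T ⁻¹' W) := add_le_add h1 h1
      _ ≤ totalMeasure ν φ (T ⁻¹' W) := h4
      _ = totalMeasure ν φ W := h3
      _ ≤ ν A₁ := h2
  have hfin : ν A₁ ≠ ⊤ := measure_ne_top ν A₁
  by_contra hne
  have hlt : ν A₁ < ν A₁ + ν A₁ := ENNReal.lt_add_right hfin hne
  exact absurd h5 (not_le.2 hlt)

/-- The optimal plan: cyclic symmetrisation of the two graph plans. -/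
noncomputable def planZero (ν : Measure E) (φ : Fin 4 → E → E) : Measure (E × E × E) :=
  ν.map (fun u => (u, φ 0 u, φ 1 u)) + ν.map (fun u => (φ 0 u, φ 1 u, u))
    + ν.map (fun u => (φ 1 u, u, φ 0 u))
    + (ν.map (fun u => (u, φ 2 u, φ 3 u)) + ν.map (fun u => (φ 2 u, φ 3 u, u))
      + ν.map (fun u => (φ 3 u, u, φ 2 u)))

theorem planZero_isCoupling (hφ : ∀ k, Measurable (φ k)) :
    IsCoupling₃ (totalMeasure ν φ) (planZero ν φ) := by
  have m1 : Measurable (fun p : E × E × E => p.1) := measurable_fst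
  have m2 : Measurable (fun p : E × E × E => p.2.1) := measurable_fst.comp measurable_snd
  have m3 : Measurable (fun p : E × E × E => p.2.2) := measurable_snd.comp measurable_snd
  have t : ∀ a b : E → E, Measurable a → Measurable b →
      (Measurable (fun u => (u, a u, b u)) ∧ Measurable (fun u => (a u, b u, u)) ∧
        Measurable (fun u => (b u, u, a u))) := by
    intro a b ha hb
    exact ⟨measurable_id.prodMk (ha.prodMk hb), ha.prodMk (hb.prodMk measurable_id),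
      hb.prodMk (measurable_id.prodMk ha)⟩
  obtain ⟨a1, a2, a3⟩ := t (φ 0) (φ 1) (hφ 0) (hφ 1)
  obtain ⟨b1, b2, b3⟩ := t (φ 2) (φ 3) (hφ 2) (hφ 3)
  refine ⟨?_, ?_, ?_⟩
  · simp only [planZero, totalMeasure]
    rw [Measure.map_add _ _ m1, Measure.map_add _ _ m1, Measure.map_add _ _ m1,
      Measure.map_add _ _ m1, Measure.map_add _ _ m1,
      Measure.map_map m1 a1, Measure.map_map m1 a2, Measure.map_map m1 a3,
      Measure.map_map m1 b1, Measure.map_map m1 b2, Measure.map_map m1 b3]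
    have e1 : Measure.map ((fun p : E × E × E => p.1) ∘ fun u => (u, φ 0 u, φ 1 u)) ν = ν :=
      Measure.map_id
    have e2 : Measure.map ((fun p : E × E × E => p.1) ∘ fun u => (u, φ 2 u, φ 3 u)) ν = ν :=
      Measure.map_id
    rw [e1, e2]
    have e3 : ((fun p : E × E × E => p.1) ∘ fun u => (φ 0 u, φ 1 u, u)) = φ 0 := rfl
    have e4 : ((fun p : E × E × E => p.1) ∘ fun u => (φ 1 u, u, φ 0 u)) = φ 1 := rfl
    have e5 : ((fun p : E × E × E => p.1) ∘ fun u => (φ 2 u, φ 3 u, u)) = φ 2 := rfl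
    have e6 : ((fun p : E × E × E => p.1) ∘ fun u => (φ 3 u, u, φ 2 u)) = φ 3 := rfl
    rw [e3, e4, e5, e6]
    abel
  · simp only [planZero, totalMeasure]
    rw [Measure.map_add _ _ m2, Measure.map_add _ _ m2, Measure.map_add _ _ m2,
      Measure.map_add _ _ m2, Measure.map_add _ _ m2,
      Measure.map_map m2 a1, Measure.map_map m2 a2, Measure.map_map m2 a3,
      Measure.map_map m2 b1, Measure.map_map m2 b2, Measure.map_map m2 b3]
    have e1 : Measure.map ((fun p : E × E × E => p.2.1) ∘ fun u => (φ 1 u, u, φ 0 u)) ν = ν :=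
      Measure.map_id
    have e2 : Measure.map ((fun p : E × E × E => p.2.1) ∘ fun u => (φ 3 u, u, φ 2 u)) ν = ν :=
      Measure.map_id
    rw [e1, e2]
    have e3 : ((fun p : E × E × E => p.2.1) ∘ fun u => (u, φ 0 u, φ 1 u)) = φ 0 := rfl
    have e4 : ((fun p : E × E × E => p.2.1) ∘ fun u => (φ 0 u, φ 1 u, u)) = φ 1 := rfl
    have e5 : ((fun p : E × E × E => p.2.1) ∘ fun u => (u, φ 2 u, φ 3 u)) = φ 2 := rfl
    have e6 : ((fun p : E × E × E => p.2.1) ∘ fun u => (φ 2 u, φ 3 u, u)) = φ 3 := rfl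
    rw [e3, e4, e5, e6]
    abel
  · simp only [planZero, totalMeasure]
    rw [Measure.map_add _ _ m3, Measure.map_add _ _ m3, Measure.map_add _ _ m3,
      Measure.map_add _ _ m3, Measure.map_add _ _ m3,
      Measure.map_map m3 a1, Measure.map_map m3 a2, Measure.map_map m3 a3,
      Measure.map_map m3 b1, Measure.map_map m3 b2, Measure.map_map m3 b3]
    have e1 : Measure.map ((fun p : E × E × E => p.2.2) ∘ fun u => (φ 0 u, φ 1 u, u)) ν = ν :=
      Measure.map_id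
    have e2 : Measure.map ((fun p : E × E × E => p.2.2) ∘ fun u => (φ 2 u, φ 3 u, u)) ν = ν :=
      Measure.map_id
    rw [e1, e2]
    have e3 : ((fun p : E × E × E => p.2.2) ∘ fun u => (u, φ 0 u, φ 1 u)) = φ 1 := rfl
    have e4 : ((fun p : E × E × E => p.2.2) ∘ fun u => (φ 1 u, u, φ 0 u)) = φ 0 := rfl
    have e5 : ((fun p : E × E × E => p.2.2) ∘ fun u => (u, φ 2 u, φ 3 u)) = φ 3 := rfl
    have e6 : ((fun p : E × E × E => p.2.2) ∘ fun u => (φ 3 u, u, φ 2 u)) = φ 2 := rfl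
    rw [e3, e4, e5, e6]
    abel

theorem lintegral_planZero (hφ : ∀ k, Measurable (φ k)) {c : E × E × E → ℝ≥0∞}
    (hc : Measurable c) (hcyc : ∀ x y z, c (x, y, z) = c (y, z, x)) :
    ∫⁻ p, c p ∂(planZero ν φ) =
      3 * (∫⁻ u, c (u, φ 0 u, φ 1 u) ∂ν + ∫⁻ u, c (u, φ 2 u, φ 3 u) ∂ν) := by
  have t : ∀ a b : E → E, Measurable a → Measurable b →
      (Measurable (fun u => (u, a u, b u)) ∧ Measurable (fun u => (a u, b u, u)) ∧
        Measurable (fun u => (b u, u, a u))) := by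
    intro a b ha hb
    exact ⟨measurable_id.prodMk (ha.prodMk hb), ha.prodMk (hb.prodMk measurable_id),
      hb.prodMk (measurable_id.prodMk ha)⟩
  obtain ⟨a1, a2, a3⟩ := t (φ 0) (φ 1) (hφ 0) (hφ 1)
  obtain ⟨b1, b2, b3⟩ := t (φ 2) (φ 3) (hφ 2) (hφ 3)
  simp only [planZero]
  rw [lintegral_add_measure, lintegral_add_measure, lintegral_add_measure, lintegral_add_measure,
    lintegral_add_measure, lintegral_map hc a1, lintegral_map hc a2, lintegral_map hc a3,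
    lintegral_map hc b1, lintegral_map hc b2, lintegral_map hc b3]
  have e1 : ∀ a b : E → E, ∫⁻ u, c (a u, b u, u) ∂ν = ∫⁻ u, c (u, a u, b u) ∂ν := by
    intro a b
    apply lintegral_congr
    intro u
    rw [hcyc (u) (a u) (b u)]
  have e2 : ∀ a b : E → E, ∫⁻ u, c (b u, u, a u) ∂ν = ∫⁻ u, c (u, a u, b u) ∂ν := by
    intro a b
    apply lintegral_congr
    intro u
    rw [hcyc (b u) u (a u)]
  rw [e1, e2, e1, e2]
  ring

/-- Integral of a potential against the total measure, through the sheets. -/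
theorem lintegral_totalMeasure (hφ : ∀ k, Measurable (φ k)) {U : E → ℝ≥0∞} (hU : Measurable U) :
    ∫⁻ x, U x ∂(totalMeasure ν φ) =
      ∫⁻ u, (U u + U (φ 0 u) + U (φ 1 u)) ∂ν + ∫⁻ u, (U u + U (φ 2 u) + U (φ 3 u)) ∂ν := by
  simp only [totalMeasure]
  rw [lintegral_add_measure, lintegral_add_measure, lintegral_add_measure, lintegral_add_measure,
    lintegral_add_measure, lintegral_map hU (hφ 0), lintegral_map hU (hφ 1),
    lintegral_map hU (hφ 2), lintegral_map hU (hφ 3)]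
  have e1 : ∫⁻ u, (U u + U (φ 0 u) + U (φ 1 u)) ∂ν =
      ∫⁻ u, (U u + U (φ 0 u)) ∂ν + ∫⁻ u, U (φ 1 u) ∂ν :=
    lintegral_add_right (fun u => U u + U (φ 0 u)) (hU.comp (hφ 1))
  have e2 : ∫⁻ u, (U u + U (φ 0 u)) ∂ν = ∫⁻ u, U u ∂ν + ∫⁻ u, U (φ 0 u) ∂ν :=
    lintegral_add_right (fun u => U u) (hU.comp (hφ 0))
  have e3 : ∫⁻ u, (U u + U (φ 2 u) + U (φ 3 u)) ∂ν =
      ∫⁻ u, (U u + U (φ 2 u)) ∂ν + ∫⁻ u, U (φ 3 u) ∂ν :=
    lintegral_add_right (fun u => U u + U (φ 2 u)) (hU.comp (hφ 3))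
  have e4 : ∫⁻ u, (U u + U (φ 2 u)) ∂ν = ∫⁻ u, U u ∂ν + ∫⁻ u, U (φ 2 u) ∂ν :=
    lintegral_add_right (fun u => U u) (hU.comp (hφ 2))
  rw [e1, e2, e3, e4]
  ring

theorem totalMeasure_univ (hφ : ∀ k, Measurable (φ k)) :
    totalMeasure ν φ univ = 6 * ν univ := by
  simp only [totalMeasure, Measure.add_apply]
  rw [Measure.map_apply (hφ 0) MeasurableSet.univ, Measure.map_apply (hφ 1) MeasurableSet.univ,
    Measure.map_apply (hφ 2) MeasurableSet.univ, Measure.map_apply (hφ 3) MeasurableSet.univ]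
  simp only [preimage_univ]
  ring

theorem isFiniteMeasure_totalMeasure [IsFiniteMeasure ν] (hφ : ∀ k, Measurable (φ k)) :
    IsFiniteMeasure (totalMeasure ν φ) := by
  constructor
  rw [totalMeasure_univ hφ]
  exact ENNReal.mul_lt_top (by simp) (measure_lt_top _ _)

theorem ae_totalMeasure (hφ : ∀ k, Measurable (φ k)) {S : Set E} (hSm : MeasurableSet S)
    (hA : ∀ᵐ u ∂ν, u ∈ A) (hSA : A ⊆ S) (hSφ : ∀ k, ∀ u ∈ A, φ k u ∈ S) :
    ∀ᵐ x ∂(totalMeasure ν φ), x ∈ S := by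
  have h0 : ∀ᵐ x ∂ν, x ∈ S := by
    filter_upwards [hA] with x hx using hSA hx
  have hk : ∀ k, ∀ᵐ x ∂(ν.map (φ k)), x ∈ S := by
    intro k
    refine (ae_map_iff (p := fun x => x ∈ S) (hφ k).aemeasurable hSm).2 ?_
    filter_upwards [hA] with u hu using hSφ k u hu
  simp only [totalMeasure]
  simp only [ae_add_measure_iff]
  exact ⟨⟨⟨⟨⟨h0, h0⟩, hk 0⟩, hk 1⟩, hk 2⟩, hk 3⟩

/-- The main abstract theorem. -/
theorem abstract_main [IsFiniteMeasure ν] (hν : ν univ ≠ 0) (hAm : MeasurableSet A)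
    (hA : ∀ᵐ u ∂ν, u ∈ A)
    (hφ : ∀ k, Measurable (φ k)) (hψ : ∀ k, Measurable (ψ k))
    (hB : ∀ k, MeasurableSet (B k))
    (hdisj : Pairwise (fun i j => Disjoint (B i) (B j))) (hAB : ∀ k, Disjoint A (B k))
    (hmaps : ∀ k, ∀ u ∈ A, φ k u ∈ B k) (hleft : ∀ k, ∀ u ∈ A, ψ k (φ k u) = u)
    {c : E × E × E → ℝ≥0∞} (hc : Measurable c) (hcyc : ∀ x y z, c (x, y, z) = c (y, z, x))
    {U : E → ℝ≥0∞} (hU : Measurable U) {M : ℝ≥0∞} (hM : M ≠ ⊤)
    {S : Set E} (hSm : MeasurableSet S) (hSA : A ⊆ S) (hSφ : ∀ k, ∀ u ∈ A, φ k u ∈ S)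
    (hdual : ∀ x ∈ S, ∀ y ∈ S, ∀ z ∈ S, U x + U y + U z ≤ c (x, y, z) + M)
    (heq₀ : ∀ u ∈ A, U u + U (φ 0 u) + U (φ 1 u) = c (u, φ 0 u, φ 1 u) + M)
    (heq₁ : ∀ u ∈ A, U u + U (φ 2 u) + U (φ 3 u) = c (u, φ 2 u, φ 3 u) + M)
    (hrigid : ∀ x ∈ A, ∀ y ∈ S, ∀ z ∈ S, U x + U y + U z = c (x, y, z) + M →
        y = φ 0 x ∨ y = φ 1 x ∨ y = φ 2 x ∨ y = φ 3 x)
    (hfin : ∫⁻ u, c (u, φ 0 u, φ 1 u) ∂ν + ∫⁻ u, c (u, φ 2 u, φ 3 u) ∂ν ≠ ⊤)
    (happrox : ∀ ε : ℝ≥0∞, 0 < ε → ∃ (P : Set E) (ι₀ ι₁ τ₀ τ₁ : E → E),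
      MeasurableSet P ∧ Measurable ι₀ ∧ Measurable ι₁ ∧ Measurable τ₀ ∧ Measurable τ₁ ∧
      (∀ u ∈ A, ι₀ u ∈ A ∩ P) ∧ (∀ u ∈ A, ι₁ u ∈ A \ P) ∧
      (∀ u ∈ A, τ₀ (ι₀ u) = u) ∧ (∀ u ∈ A, τ₁ (ι₁ u) = u) ∧
      ν.map ι₀ + ν.map ι₁ = ν + ν ∧
      3 * (∫⁻ u, c (ι₀ u, φ 0 u, φ 1 u) ∂ν + ∫⁻ u, c (ι₁ u, φ 2 u, φ 3 u) ∂ν) <
        3 * (∫⁻ u, c (u, φ 0 u, φ 1 u) ∂ν + ∫⁻ u, c (u, φ 2 u, φ 3 u) ∂ν) + ε) :
    ∃ π₀ : Measure (E × E × E),
      IsCoupling₃ (totalMeasure ν φ) π₀ ∧ ∫⁻ p, c p ∂π₀ < ⊤ ∧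
      (∀ π : Measure (E × E × E), IsCoupling₃ (totalMeasure ν φ) π →
        ∫⁻ p, c p ∂π₀ ≤ ∫⁻ p, c p ∂π) ∧
      (∀ T₂ T₃ : E → E, Measurable T₂ → Measurable T₃ →
        (totalMeasure ν φ).map T₂ = totalMeasure ν φ →
        (totalMeasure ν φ).map T₃ = totalMeasure ν φ →
        ∫⁻ p, c p ∂π₀ < ∫⁻ x, c (x, T₂ x, T₃ x) ∂(totalMeasure ν φ)) ∧
      (∀ ε : ℝ≥0∞, 0 < ε → ∃ T₂ T₃ : E → E, Measurable T₂ ∧ Measurable T₃ ∧
        (totalMeasure ν φ).map T₂ = totalMeasure ν φ ∧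
        (totalMeasure ν φ).map T₃ = totalMeasure ν φ ∧
        ∫⁻ x, c (x, T₂ x, T₃ x) ∂(totalMeasure ν φ) < ∫⁻ p, c p ∂π₀ + ε) := by
  classical
  have hFin := isFiniteMeasure_totalMeasure (ν := ν) hφ
  set μ := totalMeasure ν φ with hμ
  have hSae : ∀ᵐ x ∂μ, x ∈ S := ae_totalMeasure hφ hSm hA hSA hSφ
  have hcost := lintegral_planZero (ν := ν) hφ hc hcyc
  set I₀ := ∫⁻ u, c (u, φ 0 u, φ 1 u) ∂ν with hI₀
  set I₁ := ∫⁻ u, c (u, φ 2 u, φ 3 u) ∂ν with hI₁
  -- the key identity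
  have hkey : 3 * ∫⁻ x, U x ∂μ = 3 * (I₀ + I₁) + M * μ univ := by
    rw [hμ, lintegral_totalMeasure hφ hU, totalMeasure_univ hφ]
    have e0 : ∫⁻ u, (U u + U (φ 0 u) + U (φ 1 u)) ∂ν = I₀ + M * ν univ := by
      have : ∫⁻ u, (U u + U (φ 0 u) + U (φ 1 u)) ∂ν = ∫⁻ u, (c (u, φ 0 u, φ 1 u) + M) ∂ν := by
        apply lintegral_congr_ae
        filter_upwards [hA] with u hu using heq₀ u hu
      rw [this, lintegral_add_right _ measurable_const, lintegral_const]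
    have e1 : ∫⁻ u, (U u + U (φ 2 u) + U (φ 3 u)) ∂ν = I₁ + M * ν univ := by
      have : ∫⁻ u, (U u + U (φ 2 u) + U (φ 3 u)) ∂ν = ∫⁻ u, (c (u, φ 2 u, φ 3 u) + M) ∂ν := by
        apply lintegral_congr_ae
        filter_upwards [hA] with u hu using heq₁ u hu
      rw [this, lintegral_add_right _ measurable_const, lintegral_const]
    rw [e0, e1]
    ring
  have hMμ : M * μ univ ≠ ⊤ := ENNReal.mul_ne_top hM (measure_ne_top _ _)
  have hC₀fin : 3 * (I₀ + I₁) ≠ ⊤ := ENNReal.mul_ne_top (by simp) hfin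
  have h3Ufin : 3 * ∫⁻ x, U x ∂μ ≠ ⊤ := by
    rw [hkey]; exact ENNReal.add_ne_top.2 ⟨hC₀fin, hMμ⟩
  refine ⟨planZero ν φ, planZero_isCoupling hφ, ?_, ?_, ?_, ?_⟩
  · rw [hcost]; exact lt_top_iff_ne_top.2 hC₀fin
  · intro π hπ
    have := dual_bound hSm hSae hU hc hdual hπ
    rw [hkey] at this
    rw [hcost]
    exact (ENNReal.add_le_add_iff_right hMμ).1 this
  · intro T₂ T₃ h₂ h₃ hT₂ hT₃
    by_contra hnot
    have hle : ∫⁻ x, c (x, T₂ x, T₃ x) ∂μ ≤ 3 * (I₀ + I₁) := by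
      rw [hcost] at hnot
      exact not_lt.1 hnot
    have hae := ae_eq_of_monge_le hSm hSae hU hM hc hdual h₂ h₃ hT₂ hT₃ h3Ufin
      (by rw [hkey]; exact add_le_add_left hle _)
    -- transfer to ν
    have hνμ : ν ≤ μ := by
      intro s
      simp only [hμ, totalMeasure, Measure.add_apply]
      calc ν s ≤ ν s + ν s := le_self_add
        _ ≤ _ + _ := le_self_add
        _ ≤ _ + _ := le_self_add
        _ ≤ _ + _ := le_self_add
        _ ≤ _ + _ := le_self_add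
    have hac : ν ≪ μ := Measure.absolutelyContinuous_of_le hνμ
    have a2 : ∀ᵐ x ∂μ, T₂ x ∈ S := by
      have : ∀ᵐ x ∂(μ.map T₂), x ∈ S := by rw [hT₂]; exact hSae
      exact ae_of_ae_map h₂.aemeasurable this
    have a3 : ∀ᵐ x ∂μ, T₃ x ∈ S := by
      have : ∀ᵐ x ∂(μ.map T₃), x ∈ S := by rw [hT₃]; exact hSae
      exact ae_of_ae_map h₃.aemeasurable this
    have hT : ∀ᵐ u ∂ν, u ∈ A → (T₂ u = φ 0 u ∨ T₂ u = φ 1 u ∨ T₂ u = φ 2 u ∨ T₂ u = φ 3 u) := by
      filter_upwards [hac.ae_le hae, hac.ae_le a2, hac.ae_le a3] with u h1 h2 h3 hu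
      exact hrigid u hu _ h2 _ h3 h1
    have hnull : ∀ k, ν {u | u ∈ A ∧ T₂ u ∈ B k} = 0 := by
      intro k
      apply doubling (ψ := ψ) hAm hA hφ hψ hB hdisj hAB hmaps hleft h₂ hT₂ k
      filter_upwards [hT] with u hu huA huB
      have key : ∀ j, T₂ u = φ j u → T₂ u = φ k u := by
        intro j hj
        by_cases hjk : j = k
        · rw [← hjk]; exact hj
        · exact absurd huB (Set.disjoint_left.1 (hdisj hjk) (hj ▸ hmaps j u huA))
      rcases hu huA with h | h | h | h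
      · exact key 0 h
      · exact key 1 h
      · exact key 2 h
      · exact key 3 h
    have hcover : ν A = 0 := by
      have hsub : ∀ᵐ u ∂ν, u ∈ A → u ∈ ⋃ k, {u | u ∈ A ∧ T₂ u ∈ B k} := by
        filter_upwards [hT] with u hu huA
        rw [mem_iUnion]
        rcases hu huA with h | h | h | h
        · exact ⟨0, huA, h ▸ hmaps 0 u huA⟩
        · exact ⟨1, huA, h ▸ hmaps 1 u huA⟩
        · exact ⟨2, huA, h ▸ hmaps 2 u huA⟩
        · exact ⟨3, huA, h ▸ hmaps 3 u huA⟩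
      have : ν A ≤ ν (⋃ k, {u | u ∈ A ∧ T₂ u ∈ B k}) := measure_mono_ae hsub
      have h0 : ν (⋃ k, {u | u ∈ A ∧ T₂ u ∈ B k}) = 0 := measure_iUnion_null hnull
      rw [h0] at this
      exact le_antisymm this bot_le
    have hAuniv : ν univ = ν A := by
      have : ν Aᶜ = 0 := hA
      rw [← measure_add_measure_compl hAm, this, add_zero]
    exact hν (by rw [hAuniv, hcover])
  · intro ε hε
    obtain ⟨P, ι₀, ι₁, τ₀, τ₁, hP, mι₀, mι₁, mτ₀, mτ₁, hι₀, hι₁, hτ₀, hτ₁, hsplit, hcostε⟩ :=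
      happrox ε hε
    have hNE : Nonempty E := by
      by_contra h
      rw [not_nonempty_iff] at h
      exact hν (by rw [Measure.eq_zero_of_isEmpty ν]; rfl)
    let φh : Fin 6 → E → E := ![ι₀, φ 0, φ 1, ι₁, φ 2, φ 3]
    let ψh : Fin 6 → E → E := ![τ₀, ψ 0, ψ 1, τ₁, ψ 2, ψ 3]
    let Bh : Fin 6 → Set E := ![A ∩ P, B 0, B 1, A \ P, B 2, B 3]
    let s₂ : Fin 6 → Fin 6 := ![1, 2, 0, 4, 5, 3]
    let s₃ : Fin 6 → Fin 6 := ![2, 0, 1, 5, 3, 4]
    have hφh : ∀ k, Measurable (φh k) := by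
      intro k; fin_cases k
      · exact mι₀
      · exact hφ 0
      · exact hφ 1
      · exact mι₁
      · exact hφ 2
      · exact hφ 3
    have hψh : ∀ k, Measurable (ψh k) := by
      intro k; fin_cases k
      · exact mτ₀
      · exact hψ 0
      · exact hψ 1
      · exact mτ₁
      · exact hψ 2
      · exact hψ 3
    have hBh : ∀ k, MeasurableSet (Bh k) := by
      intro k; fin_cases k
      · exact hAm.inter hP
      · exact hB 0
      · exact hB 1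
      · exact hAm.diff hP
      · exact hB 2
      · exact hB 3
    have d01 : Disjoint (A ∩ P) (A \ P) := by
      rw [Set.disjoint_left]; intro x hx hx'; exact hx'.2 hx.2
    have dP : ∀ k, Disjoint (A ∩ P) (B k) := fun k => (hAB k).mono_left inter_subset_left
    have dQ : ∀ k, Disjoint (A \ P) (B k) := fun k => (hAB k).mono_left Set.sdiff_subset
    have hBdisj : Pairwise (fun i j => Disjoint (Bh i) (Bh j)) := by
      intro i j hij
      fin_cases i <;> fin_cases j <;> first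
        | exact absurd rfl hij
        | exact d01
        | exact d01.symm
        | exact dP _
        | exact (dP _).symm
        | exact dQ _
        | exact (dQ _).symm
        | exact hdisj (by decide)
    have hmapsh : ∀ k, ∀ u ∈ A, φh k u ∈ Bh k := by
      intro k u hu; fin_cases k
      · exact hι₀ u hu
      · exact hmaps 0 u hu
      · exact hmaps 1 u hu
      · exact hι₁ u hu
      · exact hmaps 2 u hu
      · exact hmaps 3 u hu
    have hlefth : ∀ k, ∀ u ∈ A, ψh k (φh k u) = u := by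
      intro k u hu; fin_cases k
      · exact hτ₀ u hu
      · exact hleft 0 u hu
      · exact hleft 1 u hu
      · exact hτ₁ u hu
      · exact hleft 2 u hu
      · exact hleft 3 u hu
    obtain ⟨T₂, h₂, hT₂⟩ := exists_sheet_map s₂ A φh ψh hφh hψh Bh hBh hBdisj hmapsh hlefth
    obtain ⟨T₃, h₃, hT₃⟩ := exists_sheet_map s₃ A φh ψh hφh hψh Bh hBh hBdisj hmapsh hlefth
    have hsum : (∑ k, ν.map (φh k)) = μ := by
      rw [hμ, Fin.sum_univ_six]
      simp only [totalMeasure]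
      rw [← hsplit]
      change ν.map ι₀ + ν.map (φ 0) + ν.map (φ 1) + ν.map ι₁ + ν.map (φ 2) + ν.map (φ 3) = _
      abel
    let σ₂ : Equiv.Perm (Fin 6) := ⟨s₂, s₃, by decide, by decide⟩
    let σ₃ : Equiv.Perm (Fin 6) := ⟨s₃, s₂, by decide, by decide⟩
    have hp₂ : μ.map T₂ = μ := by
      have := map_sheet_sum σ₂ hA hφh h₂ hT₂
      rwa [hsum] at this
    have hp₃ : μ.map T₃ = μ := by
      have := map_sheet_sum σ₃ hA hφh h₃ hT₃
      rwa [hsum] at this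
    refine ⟨T₂, T₃, h₂, h₃, hp₂, hp₃, ?_⟩
    have hint := lintegral_sheet_sum hA hφh h₂ h₃ s₂ s₃ hT₂ hT₃ hc
    rw [hsum, Fin.sum_univ_six] at hint
    rw [hint, hcost]
    have e0 : ∫⁻ u, c (φh 0 u, φh (s₂ 0) u, φh (s₃ 0) u) ∂ν = ∫⁻ u, c (ι₀ u, φ 0 u, φ 1 u) ∂ν := rfl
    have e1 : ∫⁻ u, c (φh 1 u, φh (s₂ 1) u, φh (s₃ 1) u) ∂ν = ∫⁻ u, c (ι₀ u, φ 0 u, φ 1 u) ∂ν := by
      apply lintegral_congr; intro u
      exact (hcyc (ι₀ u) (φ 0 u) (φ 1 u)).symm
    have e2 : ∫⁻ u, c (φh 2 u, φh (s₂ 2) u, φh (s₃ 2) u) ∂ν = ∫⁻ u, c (ι₀ u, φ 0 u, φ 1 u) ∂ν := by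
      apply lintegral_congr; intro u
      exact hcyc (φ 1 u) (ι₀ u) (φ 0 u)
    have e3 : ∫⁻ u, c (φh 3 u, φh (s₂ 3) u, φh (s₃ 3) u) ∂ν = ∫⁻ u, c (ι₁ u, φ 2 u, φ 3 u) ∂ν := rfl
    have e4 : ∫⁻ u, c (φh 4 u, φh (s₂ 4) u, φh (s₃ 4) u) ∂ν = ∫⁻ u, c (ι₁ u, φ 2 u, φ 3 u) ∂ν := by
      apply lintegral_congr; intro u
      exact (hcyc (ι₁ u) (φ 2 u) (φ 3 u)).symm
    have e5 : ∫⁻ u, c (φh 5 u, φh (s₂ 5) u, φh (s₃ 5) u) ∂ν = ∫⁻ u, c (ι₁ u, φ 2 u, φ 3 u) ∂ν := by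
      apply lintegral_congr; intro u
      exact hcyc (φ 3 u) (ι₁ u) (φ 2 u)
    rw [e0, e1, e2, e3, e4, e5]
    convert hcostε using 1
    ring

end Main

end Crest.Agent.Lib.OTM
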