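import Mathlib

/-!
Pushforward of a smooth density with smooth square root under a local diffeomorphism.
-/

set_option autoImplicit false
set_option linter.unusedSectionVars false
set_option linter.unusedVariables false

namespace Crest.Agent.Lib.OTM

open scoped ContDiff Topology ENNReal
open Set Filter MeasureTheory

variable {E : Type*} [NormedAddCommGroup E] [NormedSpace ℝ E] [FiniteDimensional ℝ E]

/-- The determinant is a smooth function of the operator. -/
theorem contDiff_clm_det : ContDiff ℝ ∞ (fun f : E →L[ℝ] E => f.det) := by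
  classical
  let b := Module.finBasis ℝ E
  have e : (fun f : E →L[ℝ] E => f.det) = fun f : E →L[ℝ] E =>
      (LinearMap.toMatrix b b (f : E →ₗ[ℝ] E)).det := by
    funext f
    exact (LinearMap.det_toMatrix b (f : E →ₗ[ℝ] E)).symm
  rw [e]
  simp only [Matrix.det_apply]
  apply ContDiff.sum
  intro σ _
  apply ContDiff.const_smul
  apply contDiff_prod
  intro i _
  -- each matrix entry is a linear function of the operator
  let L : (E →L[ℝ] E) →ₗ[ℝ] ℝ :=
    { toFun := fun f => LinearMap.toMatrix b b (f : E →ₗ[ℝ] E) (σ i) i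
      map_add' := by intro f g; simp [LinearMap.toMatrix_apply]
      map_smul' := by intro c f; simp [LinearMap.toMatrix_apply] }
  exact (LinearMap.toContinuousLinearMap L).contDiff

variable [MeasurableSpace E] [BorelSpace E]

/-- Measurable extension of a function continuous on an open set. -/
theorem exists_measurable_ext {g : E → E} {s : Set E} (hs : IsOpen s) (hg : ContinuousOn g s) :
    ∃ φ : E → E, Measurable φ ∧ ∀ x ∈ s, φ x = g x := by
  classical
  refine ⟨s.piecewise g (fun _ => 0), ?_, fun x hx => by simp [hx]⟩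
  exact hg.measurable_piecewise continuousOn_const hs.measurableSet

/-- The main push-forward lemma. -/
theorem exists_push_density (vol : Measure E) [vol.IsAddHaarMeasure]
    (e : OpenPartialHomeomorph E E)
    (he : ∀ x ∈ e.source, ∃ A : E ≃L[ℝ] E, HasFDerivAt e (A : E →L[ℝ] E) x)
    (hsymm : ∀ y ∈ e.target, ContDiffAt ℝ ∞ e.symm y)
    {f : E → ℝ} (hf : ContDiff ℝ ∞ f) (hf0 : ∀ x, 0 ≤ f x) (hfc : HasCompactSupport f)
    (hfs : tsupport f ⊆ e.source) {φ : E → E} (hφ : Measurable φ) (hφe : ∀ x ∈ e.source, φ x = e x) :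
    ∃ F : E → ℝ, ContDiff ℝ ∞ F ∧ (∀ y, 0 ≤ F y) ∧ HasCompactSupport F ∧
      tsupport F ⊆ e '' tsupport f ∧
      vol.withDensity (fun y => ENNReal.ofReal (F y ^ 2)) =
        (vol.withDensity (fun x => ENNReal.ofReal (f x ^ 2))).map φ := by
  classical
  set ψ := e.symm with hψ
  have hn : (∞ : WithTop ℕ∞) ≠ 0 := by simp
  set D : E → (E →L[ℝ] E) := fun y => fderiv ℝ ψ y with hD
  have hDer : ∀ y ∈ e.target, HasFDerivAt ψ (D y) y := fun y hy =>
    ((hsymm y hy).differentiableAt hn).hasFDerivAt
  have hdet : ∀ y ∈ e.target, (D y).det ≠ 0 := by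
    intro y hy
    obtain ⟨A, hA⟩ := he (ψ y) (e.map_target hy)
    have h1 : HasFDerivAt ψ (A.symm : E →L[ℝ] E) y := e.hasFDerivAt_symm hy hA
    have h2 : D y = (A.symm : E →L[ℝ] E) := h1.fderiv
    rw [h2]
    have : IsUnit (LinearMap.det ((A.symm : E ≃L[ℝ] E).toLinearEquiv : E →ₗ[ℝ] E)) :=
      LinearEquiv.isUnit_det' _
    exact this.ne_zero
  -- the density
  let F : E → ℝ := fun y => if y ∈ e.target then f (ψ y) * Real.sqrt |(D y).det| else 0
  have hK : IsCompact (e '' tsupport f) :=
    hfc.isCompact.image_of_continuousOn (e.continuousOn.mono hfs)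
  have hKclosed : IsClosed (e '' tsupport f) := hK.isClosed
  have hsupp : ∀ y, y ∉ e '' tsupport f → F y = 0 := by
    intro y hy
    by_cases hyt : y ∈ e.target
    · have h1 : ψ y ∉ tsupport f := by
        intro h
        exact hy ⟨ψ y, h, e.right_inv hyt⟩
      have h2 : f (ψ y) = 0 := image_eq_zero_of_notMem_tsupport h1
      simp [F, hyt, h2]
    · simp [F, hyt]
  have hFsmooth : ContDiff ℝ ∞ F := by
    rw [contDiff_iff_contDiffAt]
    intro y
    by_cases hy : y ∈ e.target
    · have hev : (fun y => f (ψ y) * Real.sqrt |(D y).det|) =ᶠ[𝓝 y] F := by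
        filter_upwards [e.open_target.mem_nhds hy] with z hz
        simp [F, hz]
      refine ContDiffAt.congr_of_eventuallyEq ?_ hev.symm
      have h1 : ContDiffAt ℝ ∞ (fun y => f (ψ y)) y :=
        hf.contDiffAt.comp y (hsymm y hy)
      have h2 : ContDiffAt ℝ ∞ D y := (hsymm y hy).fderiv_right (m := ∞) (by simp)
      have h3 : ContDiffAt ℝ ∞ (fun y => (D y).det) y :=
        contDiff_clm_det.contDiffAt.comp y h2
      have h4 : ContDiffAt ℝ ∞ (fun y => |(D y).det|) y :=
        ContDiffAt.comp y (contDiffAt_abs (hdet y hy)) h3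
      have h5 : ContDiffAt ℝ ∞ (fun y => Real.sqrt |(D y).det|) y :=
        h4.sqrt (abs_ne_zero.2 (hdet y hy))
      exact h1.mul h5
    · have hy' : y ∉ e '' tsupport f := by
        rintro ⟨x, hx, rfl⟩
        exact hy (e.map_source (hfs hx))
      have hev : (fun _ => (0 : ℝ)) =ᶠ[𝓝 y] F := by
        filter_upwards [hKclosed.isOpen_compl.mem_nhds hy'] with z hz
        exact (hsupp z hz).symm
      exact contDiffAt_const.congr_of_eventuallyEq hev.symm
  have hF0 : ∀ y, 0 ≤ F y := by
    intro y
    by_cases hy : y ∈ e.target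
    · simp only [F, hy, if_true]
      exact mul_nonneg (hf0 _) (Real.sqrt_nonneg _)
    · simp [F, hy]
  have hFsupp : Function.support F ⊆ e '' tsupport f := by
    intro y hy
    by_contra h
    exact hy (hsupp y h)
  have hFts : tsupport F ⊆ e '' tsupport f := closure_minimal hFsupp hKclosed
  refine ⟨F, hFsmooth, hF0, hK.of_isClosed_subset (isClosed_tsupport F) hFts, hFts, ?_⟩
  -- the measure identity
  ext W hW
  rw [Measure.map_apply hφ hW, withDensity_apply _ hW, withDensity_apply _ (hφ hW)]
  set s : Set E := W ∩ e.target with hs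
  have hsm : MeasurableSet s := hW.inter e.open_target.measurableSet
  -- left side: restrict to the target
  have hL : ∫⁻ y in W, ENNReal.ofReal (F y ^ 2) ∂vol = ∫⁻ y in s, ENNReal.ofReal (F y ^ 2) ∂vol := by
    rw [← lintegral_inter_add_sdiff _ W e.open_target.measurableSet]
    have h0 : ∫⁻ y in W \ e.target, ENNReal.ofReal (F y ^ 2) ∂vol = 0 := by
      apply setLIntegral_eq_zero (hW.diff e.open_target.measurableSet)
      intro y hy
      simp [F, hy.2]
    rw [h0, add_zero, hs]
  -- right side: restrict to the source and change variables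
  have hR : ∫⁻ x in φ ⁻¹' W, ENNReal.ofReal (f x ^ 2) ∂vol =
      ∫⁻ x in ψ '' s, ENNReal.ofReal (f x ^ 2) ∂vol := by
    have hsrc := e.open_source.measurableSet
    rw [← lintegral_inter_add_sdiff _ (φ ⁻¹' W) hsrc]
    have h0 : ∫⁻ x in φ ⁻¹' W \ e.source, ENNReal.ofReal (f x ^ 2) ∂vol = 0 := by
      apply setLIntegral_eq_zero ((hφ hW).diff hsrc)
      intro x hx
      have : x ∉ tsupport f := fun h => hx.2 (hfs h)
      have hfx : f x = 0 := image_eq_zero_of_notMem_tsupport this
      simp [hfx]
    rw [h0, add_zero]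
    have hset : φ ⁻¹' W ∩ e.source = ψ '' s := by
      ext x
      constructor
      · rintro ⟨h1, h2⟩
        refine ⟨e x, ⟨?_, e.map_source h2⟩, e.left_inv h2⟩
        rw [← hφe x h2]
        exact h1
      · rintro ⟨y, ⟨hy1, hy2⟩, rfl⟩
        have hsrc' : ψ y ∈ e.source := e.map_target hy2
        refine ⟨?_, hsrc'⟩
        rw [mem_preimage, hφe _ hsrc', e.right_inv hy2]
        exact hy1
    rw [hset]
  rw [hL, hR]
  have hinj : InjOn ψ s := fun y hy y' hy' h => e.symm.injOn hy.2 hy'.2 h
  rw [lintegral_image_eq_lintegral_abs_det_fderiv_mul vol hsm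
    (fun y hy => (hDer y hy.2).hasFDerivWithinAt) hinj]
  apply setLIntegral_congr_fun hsm
  intro y hy
  simp only [F, hy.2, if_true]
  rw [← ENNReal.ofReal_mul (abs_nonneg _)]
  congr 1
  rw [mul_pow, Real.sq_sqrt (abs_nonneg _)]
  ring

end Crest.Agent.Lib.OTM
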