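import Crest.Agent.Lib.OTM.Local
import Crest.Agent.Lib.OTM.Abstract
import Crest.Agent.Lib.OTM.Push

/-!
Assembling the potentials and the measures: application of the abstract theorem.
-/

set_option autoImplicit false
set_option linter.unusedSectionVars false
set_option linter.unusedVariables false

namespace Crest.Agent.Lib.OTM

open scoped ContDiff Topology RealInnerProductSpace ENNReal
open Set Filter MeasureTheory
open Crest.AnalysisR.OT

section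

variable {E : Type*} [NormedAddCommGroup E] [InnerProductSpace ℝ E]

namespace LocalData

variable {s K : ℝ} {b : E} {R : E ≃ₗᵢ[ℝ] E} {ρ₀ ε r₁ : ℝ} {Y Z : E → E}
  (D : LocalData s K b R ρ₀ ε r₁ Y Z)
include D

/-- The five atoms. -/
def atoms (D : LocalData s K b R ρ₀ ε r₁ Y Z) : Fin 5 → E := ![0, b, -b, R b, -R b]

/-- The five balls. -/
def BB (D : LocalData s K b R ρ₀ ε r₁ Y Z) (i : Fin 5) : Set E := Metric.ball (D.atoms i) ρ₀

theorem norm_Rb' : ‖R b‖ = 1 := D.norm_Rb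

theorem atoms_sep (i j : Fin 5) (hij : i ≠ j) : 1 ≤ ‖D.atoms i - D.atoms j‖ := by
  have hsq : (1 : ℝ) ≤ Real.sqrt 2 := by
    rw [show (1 : ℝ) = Real.sqrt 1 by simp]
    exact Real.sqrt_le_sqrt (by norm_num)
  have h1 : ‖b‖ = 1 := D.hb
  have h2 : ‖R b‖ = 1 := D.norm_Rb
  have h3 : ‖b - R b‖ = Real.sqrt 2 := D.norm_sub_Rb
  have h4 : ‖b + R b‖ = Real.sqrt 2 := D.norm_add_Rb
  have h5 : ‖b + b‖ = 2 := by
    rw [← two_smul ℝ b, norm_smul, h1]; norm_num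
  have h6 : ‖R b + R b‖ = 2 := by
    rw [← two_smul ℝ (R b), norm_smul, h2]; norm_num
  have e : ∀ (a c : E), ‖a - c‖ = ‖c - a‖ := fun a c => norm_sub_rev a c
  fin_cases i <;> fin_cases j <;> first
    | exact absurd rfl hij
    | skip
  all_goals simp only [atoms, Fin.isValue, Fin.reduceFinMk, Matrix.cons_val_zero, Matrix.cons_val_one,
      Matrix.cons_val]
  · simp [h1]
  · simp [h1]
  · simp [h2]
  · simp [h2]
  · simp [h1]
  · rw [sub_neg_eq_add, h5]; norm_num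
  · rw [h3]; exact hsq
  · rw [sub_neg_eq_add, h4]; exact hsq
  · simp [h1]
  · rw [show -b - b = -(b + b) by abel, norm_neg, h5]; norm_num
  · rw [show -b - R b = -(b + R b) by abel, norm_neg, h4]; exact hsq
  · rw [show -b - -R b = -(b - R b) by abel, norm_neg, h3]; exact hsq
  · simp [h2]
  · rw [e, h3]; exact hsq
  · rw [sub_neg_eq_add, add_comm, h4]; exact hsq
  · rw [sub_neg_eq_add, h6]; norm_num
  · simp [h2]
  · rw [show -R b - b = -(b + R b) by abel, norm_neg, h4]; exact hsq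
  · rw [show -R b - -b = (b - R b) by abel, h3]; exact hsq
  · rw [show -R b - R b = -(R b + R b) by abel, norm_neg, h6]; norm_num

theorem BB_disj : Pairwise (fun i j : Fin 5 => Disjoint (D.BB i) (D.BB j)) := by
  intro i j hij
  apply Metric.ball_disjoint_ball
  have h := D.atoms_sep i j hij
  rw [dist_eq_norm]
  have := D.hρ₀'
  linarith

theorem isOpen_BB (i : Fin 5) : IsOpen (D.BB i) := Metric.isOpen_ball

theorem ball_sub_BB {x : E} (hx : x ∈ Metric.ball (0 : E) r₁) : x ∈ D.BB 0 := by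
  have := D.norm_lt_of_mem_ball hx
  simpa [BB, atoms] using this

theorem Y_mem_BB {v : E} (hv : v ∈ Metric.ball (0 : E) r₁) : Y v ∈ D.BB 1 := by
  have := D.near_Y hv
  simpa [BB, atoms, dist_eq_norm] using this

theorem Z_mem_BB {v : E} (hv : v ∈ Metric.ball (0 : E) r₁) : Z v ∈ D.BB 2 := by
  have := D.near_Z hv
  simpa [BB, atoms, dist_eq_norm] using this

theorem RY_mem_BB {v : E} (hv : v ∈ Metric.ball (0 : E) r₁) : R (Y v) ∈ D.BB 3 := by
  have := D.near_RY hv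
  simpa [BB, atoms, dist_eq_norm] using this

theorem RZ_mem_BB {v : E} (hv : v ∈ Metric.ball (0 : E) r₁) : R (Z v) ∈ D.BB 4 := by
  have := D.near_RZ hv
  simpa [BB, atoms, dist_eq_norm] using this

theorem Y_mem_outer {v : E} (hv : v ∈ Metric.ball (0 : E) r₁) : Y v ∈ D.outer :=
  ⟨v, hv, Or.inl rfl⟩

theorem Z_mem_outer {v : E} (hv : v ∈ Metric.ball (0 : E) r₁) : Z v ∈ D.outer :=
  ⟨v, hv, Or.inr (Or.inl rfl)⟩

theorem RY_mem_outer {v : E} (hv : v ∈ Metric.ball (0 : E) r₁) : R (Y v) ∈ D.outer :=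
  ⟨v, hv, Or.inr (Or.inr (Or.inl rfl))⟩

theorem RZ_mem_outer {v : E} (hv : v ∈ Metric.ball (0 : E) r₁) : R (Z v) ∈ D.outer :=
  ⟨v, hv, Or.inr (Or.inr (Or.inr rfl))⟩

/-- Openness of the outer set. -/
theorem isOpen_outer (hY : IsOpen (Y '' Metric.ball (0 : E) r₁))
    (hZ : IsOpen (Z '' Metric.ball (0 : E) r₁)) : IsOpen D.outer := by
  have e : D.outer = Y '' Metric.ball (0 : E) r₁ ∪ Z '' Metric.ball (0 : E) r₁ ∪
      R '' (Y '' Metric.ball (0 : E) r₁) ∪ R '' (Z '' Metric.ball (0 : E) r₁) := by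
    ext y
    constructor
    · rintro ⟨v, hv, h | h | h | h⟩
      · exact Or.inl (Or.inl (Or.inl ⟨v, hv, h.symm⟩))
      · exact Or.inl (Or.inl (Or.inr ⟨v, hv, h.symm⟩))
      · exact Or.inl (Or.inr ⟨Y v, ⟨v, hv, rfl⟩, h.symm⟩)
      · exact Or.inr ⟨Z v, ⟨v, hv, rfl⟩, h.symm⟩
    · rintro (((⟨v, hv, rfl⟩ | ⟨v, hv, rfl⟩) | ⟨_, ⟨v, hv, rfl⟩, rfl⟩) | ⟨_, ⟨v, hv, rfl⟩, rfl⟩)
      · exact D.Y_mem_outer hv
      · exact D.Z_mem_outer hv
      · exact D.RY_mem_outer hv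
      · exact D.RZ_mem_outer hv
  rw [e]
  exact ((hY.union hZ).union (R.toHomeomorph.isOpenMap _ hY)).union (R.toHomeomorph.isOpenMap _ hZ)

/-- Lower bound for the norm of outer points. -/
theorem norm_outer_ge {y : E} (hy : y ∈ D.outer) : 1 - ρ₀ ≤ ‖y‖ := by
  have key : ∀ p : E, ‖p‖ = 1 → ‖y - p‖ < ρ₀ → 1 - ρ₀ ≤ ‖y‖ := by
    intro p hp h
    have : ‖p‖ ≤ ‖y‖ + ‖y - p‖ := by
      have := norm_sub_le y (y - p)
      rwa [sub_sub_cancel] at this
    rw [hp] at this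
    linarith
  obtain ⟨v, hv, h | h | h | h⟩ := hy
  · subst h; exact key _ D.hb (D.near_Y hv)
  · subst h; exact key _ (by rw [norm_neg]; exact D.hb) (D.near_Z hv)
  · subst h; exact key _ D.norm_Rb (D.near_RY hv)
  · subst h; exact key _ (by rw [norm_neg]; exact D.norm_Rb) (D.near_RZ hv)

/-- Separation between the central ball and the outer points. -/
theorem sep_ball_outer {x y : E} (hx : x ∈ Metric.ball (0 : E) r₁) (hy : y ∈ D.outer) :
    1 / 2 ≤ ‖x - y‖ ∧ ‖x - y‖ ≤ 2 := by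
  have h1 := D.norm_lt_of_mem_ball hx
  have h2 := D.norm_outer_ge hy
  have h3 := D.norm_outer hy
  have h4 := D.hρ₀'
  constructor
  · have : ‖y‖ ≤ ‖x - y‖ + ‖x‖ := by
      have := norm_sub_le (x - y) x
      rwa [sub_sub_cancel_left, norm_neg] at this
    linarith
  · have := norm_sub_le x y
    linarith

theorem ne_ball_outer {x y : E} (hx : x ∈ Metric.ball (0 : E) r₁) (hy : y ∈ D.outer) : x ≠ y := by
  intro h
  have := (D.sep_ball_outer hx hy).1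
  rw [h, sub_self, norm_zero] at this
  norm_num at this

end LocalData

/-- Perturbation of one interaction in the first slot. -/
theorem gr_perturb {s : ℝ} (hs : 0 ≤ s) {ξ u y : E} (h1 : ξ ≠ y) (h2 : u ≠ y) (hL : ‖ξ - y‖ ≤ 2)
    (hl : 1 / 2 ≤ ‖ξ - y‖) {δ : ℝ} (hδ : ‖ξ - u‖ ≤ δ) (hδ1 : δ ≤ 1) :
    gr s (ξ - y) ≤ gr s (u - y) + 3 * s * (2 : ℝ) ^ (s + 2) * δ := by
  have hw : ξ - y ≠ 0 := sub_ne_zero.2 h1
  have hw' : u - y ≠ 0 := sub_ne_zero.2 h2
  have h := gr_ge hs hw hw'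
  have e : (u - y) - (ξ - y) = -(ξ - u) := by abel
  rw [e, norm_neg] at h
  set q := (‖ξ - y‖ ^ 2) ^ (-s / 2 - 1) with hq
  set A := (2 : ℝ) ^ (s + 2) with hA
  have hq0 : 0 ≤ q := Real.rpow_nonneg (by positivity) _
  have hqA : q ≤ A := q_le hs hl
  have hδ0 : 0 ≤ δ := (norm_nonneg _).trans hδ
  have hin : |⟪Dg s (ξ - y), -(ξ - u)⟫| ≤ ‖Dg s (ξ - y)‖ * ‖-(ξ - u)‖ := abs_real_inner_le_norm _ _
  rw [norm_Dg s hs, norm_neg, ← hq] at hin
  have hin2 := (abs_le.1 hin).1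
  have b1 : s * q * ‖ξ - y‖ * ‖ξ - u‖ ≤ s * A * 2 * δ := by
    have : s * q ≤ s * A := mul_le_mul_of_nonneg_left hqA hs
    have hsq : 0 ≤ s * q := by positivity
    have : s * q * ‖ξ - y‖ ≤ s * A * 2 := mul_le_mul this hL (norm_nonneg _) (by positivity)
    exact mul_le_mul this hδ (norm_nonneg _) (by positivity)
  have b2 : s / 2 * q * ‖ξ - u‖ ^ 2 ≤ s / 2 * A * δ := by
    have h3 : ‖ξ - u‖ ^ 2 ≤ δ := by
      have h3' : ‖ξ - u‖ ≤ 1 := hδ.trans hδ1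
      have : ‖ξ - u‖ ^ 2 ≤ ‖ξ - u‖ := by
        have := norm_nonneg (ξ - u)
        nlinarith
      exact this.trans hδ
    have h4 : s / 2 * q ≤ s / 2 * A := mul_le_mul_of_nonneg_left hqA (by positivity)
    exact mul_le_mul h4 h3 (by positivity) (by positivity)
  have hA0 : 0 ≤ A := hq0.trans hqA
  have hsA : 0 ≤ s * A * δ := by positivity
  nlinarith

theorem cr_perturb {s : ℝ} (hs : 0 ≤ s) {ξ u y z : E} (h1 : ξ ≠ y) (h2 : u ≠ y) (h3 : ξ ≠ z)
    (h4 : u ≠ z) (hL : ‖ξ - y‖ ≤ 2) (hl : 1 / 2 ≤ ‖ξ - y‖) (hL' : ‖ξ - z‖ ≤ 2)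
    (hl' : 1 / 2 ≤ ‖ξ - z‖) {δ : ℝ} (hδ : ‖ξ - u‖ ≤ δ) (hδ1 : δ ≤ 1) :
    cr s ξ y z ≤ cr s u y z + 6 * s * (2 : ℝ) ^ (s + 2) * δ := by
  have a1 := gr_perturb hs h1 h2 hL hl hδ hδ1
  have a2 := gr_perturb hs h3 h4 hL' hl' hδ hδ1
  unfold cr
  linarith

/-- Sum of three shifted reals in `ℝ≥0∞`. -/
theorem ofReal_sum3 {a b c ε : ℝ} (ha : -ε ≤ a) (hb : -ε ≤ b) (hc : -ε ≤ c) :
    ENNReal.ofReal (a + ε) + ENNReal.ofReal (b + ε) + ENNReal.ofReal (c + ε) =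
      ENNReal.ofReal (a + b + c + 3 * ε) := by
  rw [← ENNReal.ofReal_add (by linarith) (by linarith),
    ← ENNReal.ofReal_add (by linarith) (by linarith)]
  congr 1
  ring

namespace PotOK

variable {s K : ℝ} {b : E} {R : E ≃ₗᵢ[ℝ] E} {ρ₀ ε r₁ : ℝ} {Y Z : E → E}
  {D : LocalData s K b R ρ₀ ε r₁ Y Z} {A : Set E} {u : E → ℝ} (P : PotOK D A u)
include P

theorem u_ge {x : E} (hx : x ∈ A ∪ D.outer) : -ε ≤ u x := by
  rcases hx with hx | hx
  · have h1 := P.u_A_ge hx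
    have h2 : 0 < (2 : ℝ) ^ (-s) := Real.rpow_pos_of_pos (by norm_num) _
    linarith
  · exact (abs_lt.1 (P.u_outer hx)).1.le

theorem mem_A {x : E} (hx : x ∈ A) : x ∈ A ∪ D.outer := Or.inl hx

/-- The dual inequality in `ℝ≥0∞`. -/
theorem dual_ennreal {x y z : E} (hx : x ∈ A ∪ D.outer) (hy : y ∈ A ∪ D.outer)
    (hz : z ∈ A ∪ D.outer) :
    ENNReal.ofReal (u x + ε) + ENNReal.ofReal (u y + ε) + ENNReal.ofReal (u z + ε) ≤
      tripleCost s (x, y, z) + ENNReal.ofReal (3 * ε) := by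
  by_cases h : x = y ∨ x = z ∨ y = z
  · rw [tripleCost_eq_top D.hs h]
    simp
  · push Not at h
    obtain ⟨hxy, hxz, hyz⟩ := h
    rw [tripleCost_eq hxy hxz hyz, ofReal_sum3 (P.u_ge hx) (P.u_ge hy) (P.u_ge hz),
      ← ENNReal.ofReal_add (cr_nonneg _ _ _ _) (by have := D.hε; positivity)]
    apply ENNReal.ofReal_le_ofReal
    have := P.dual_real hx hy hz hxy hxz hyz
    linarith

/-- Equalities in `ℝ≥0∞` for distinct points give equalities of the reals. -/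
theorem eq_of_ennreal {x y z : E} (hx : x ∈ A ∪ D.outer) (hy : y ∈ A ∪ D.outer)
    (hz : z ∈ A ∪ D.outer) (hxy : x ≠ y) (hxz : x ≠ z) (hyz : y ≠ z)
    (heq : ENNReal.ofReal (u x + ε) + ENNReal.ofReal (u y + ε) + ENNReal.ofReal (u z + ε) =
      tripleCost s (x, y, z) + ENNReal.ofReal (3 * ε)) :
    u x + u y + u z = cr s x y z := by
  have he := D.hε
  rw [tripleCost_eq hxy hxz hyz, ofReal_sum3 (P.u_ge hx) (P.u_ge hy) (P.u_ge hz),
    ← ENNReal.ofReal_add (cr_nonneg _ _ _ _) (by positivity)] at heq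
  have h1 := P.u_ge hx
  have h2 := P.u_ge hy
  have h3 := P.u_ge hz
  have h4 := cr_nonneg s x y z
  have := (ENNReal.ofReal_eq_ofReal_iff (by linarith) (by linarith)).1 heq
  linarith

/-- Conversely, real equalities give equalities in `ℝ≥0∞`. -/
theorem ennreal_of_eq {x y z : E} (hx : x ∈ A ∪ D.outer) (hy : y ∈ A ∪ D.outer)
    (hz : z ∈ A ∪ D.outer) (hxy : x ≠ y) (hxz : x ≠ z) (hyz : y ≠ z)
    (heq : u x + u y + u z = cr s x y z) :
    ENNReal.ofReal (u x + ε) + ENNReal.ofReal (u y + ε) + ENNReal.ofReal (u z + ε) =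
      tripleCost s (x, y, z) + ENNReal.ofReal (3 * ε) := by
  have he := D.hε
  rw [tripleCost_eq hxy hxz hyz, ofReal_sum3 (P.u_ge hx) (P.u_ge hy) (P.u_ge hz),
    ← ENNReal.ofReal_add (cr_nonneg _ _ _ _) (by positivity), heq]

/-- The central equality on the first sheet pair. -/
theorem sheet_eq₀ {x : E} (hx : x ∈ A) : u x + u (Y x) + u (Z x) = cr s x (Y x) (Z x) := by
  have hx' := P.hA hx
  rw [P.onA x hx, P.onY x hx', P.onZ x hx']
  unfold potZ
  ring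

/-- The central equality on the second sheet pair. -/
theorem sheet_eq₁ {x : E} (hx : x ∈ A) :
    u x + u (R (Y (R x))) + u (R (Z (R x))) = cr s x (R (Y (R x))) (R (Z (R x))) := by
  have hx' := D.R_mem_ball (P.hA hx)
  rw [P.onA x hx, P.onRY (R x) hx', P.onRZ (R x) hx']
  have e1 : cr s x (R (Y (R x))) (R (Z (R x))) = cr s (R x) (Y (R x)) (Z (R x)) := by
    conv_lhs => rw [← D.hR x]
    rw [← cr_isometry R s (R x) (Y (R x)) (Z (R x)), D.hR (R x)]
  rw [e1]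
  unfold potZ
  have e2 : wPot (2 + (2 : ℝ) ^ (-s)) K x = wPot (2 + (2 : ℝ) ^ (-s)) K (R x) := by
    unfold wPot
    rw [R.norm_map]
  rw [e2]
  ring

end PotOK

/-- The sheets: measurable maps extending the charts, with measurable left inverses. -/
structure Sheets [MeasurableSpace E] {s K : ℝ} {b : E} {R : E ≃ₗᵢ[ℝ] E} {ρ₀ ε r₁ : ℝ} {Y Z : E → E}
    (D : LocalData s K b R ρ₀ ε r₁ Y Z) (φ ψ : Fin 4 → E → E) : Prop where
  hφ : ∀ k, Measurable (φ k)
  hψ : ∀ k, Measurable (ψ k)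
  φ0 : ∀ x ∈ Metric.ball (0 : E) r₁, φ 0 x = Y x
  φ1 : ∀ x ∈ Metric.ball (0 : E) r₁, φ 1 x = Z x
  φ2 : ∀ x ∈ Metric.ball (0 : E) r₁, φ 2 x = R (Y (R x))
  φ3 : ∀ x ∈ Metric.ball (0 : E) r₁, φ 3 x = R (Z (R x))
  hleft : ∀ k, ∀ x ∈ Metric.ball (0 : E) r₁, ψ k (φ k x) = x
  hout : MeasurableSet D.outer

namespace Sheets

variable [MeasurableSpace E] {s K : ℝ} {b : E} {R : E ≃ₗᵢ[ℝ] E} {ρ₀ ε r₁ : ℝ} {Y Z : E → E}
  {D : LocalData s K b R ρ₀ ε r₁ Y Z} {φ ψ : Fin 4 → E → E} (H : Sheets D φ ψ)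
include H

theorem maps_BB (k : Fin 4) {x : E} (hx : x ∈ Metric.ball (0 : E) r₁) : φ k x ∈ D.BB k.succ := by
  fin_cases k
  · show φ 0 x ∈ D.BB 1
    rw [H.φ0 x hx]; exact D.Y_mem_BB hx
  · show φ 1 x ∈ D.BB 2
    rw [H.φ1 x hx]; exact D.Z_mem_BB hx
  · show φ 2 x ∈ D.BB 3
    rw [H.φ2 x hx]; exact D.RY_mem_BB (D.R_mem_ball hx)
  · show φ 3 x ∈ D.BB 4
    rw [H.φ3 x hx]; exact D.RZ_mem_BB (D.R_mem_ball hx)

theorem maps_outer (k : Fin 4) {x : E} (hx : x ∈ Metric.ball (0 : E) r₁) : φ k x ∈ D.outer := by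
  fin_cases k
  · show φ 0 x ∈ D.outer
    rw [H.φ0 x hx]; exact D.Y_mem_outer hx
  · show φ 1 x ∈ D.outer
    rw [H.φ1 x hx]; exact D.Z_mem_outer hx
  · show φ 2 x ∈ D.outer
    rw [H.φ2 x hx]; exact D.RY_mem_outer (D.R_mem_ball hx)
  · show φ 3 x ∈ D.outer
    rw [H.φ3 x hx]; exact D.RZ_mem_outer (D.R_mem_ball hx)

variable [BorelSpace E] [SecondCountableTopology E]

/-- The potential exists. -/
theorem exists_pot {A : Set E} (hA : A ⊆ Metric.ball (0 : E) r₁) :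
    ∃ u : E → ℝ, Measurable u ∧ PotOK D A u := by
  set α : ℝ := 2 + (2 : ℝ) ^ (-s) with hα
  set ℓ := ellVec s b with hℓ
  let Pz : E → ℝ := fun x => cr s x (φ 0 x) (φ 1 x) - wPot α K x - vPot K b ℓ (φ 0 x)
  have hw : Measurable (wPot (E := E) α K) := (continuous_wPot α K).measurable
  have hv : Measurable (vPot K b ℓ) := (continuous_vPot K b ℓ).measurable
  have hPz : Measurable Pz := by
    have h0 := H.hφ 0
    have h1 := H.hφ 1
    have hg := measurable_gr (E := E) s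
    refine Measurable.sub (Measurable.sub ?_ hw) (hv.comp h0)
    unfold cr
    exact ((hg.comp (measurable_id.sub h0)).add (hg.comp (measurable_id.sub h1))).add
      (hg.comp (h0.sub h1))
  have hRm : Measurable (fun x => R x) := R.continuous.measurable
  let g : Fin 5 → E → ℝ := ![wPot α K, vPot K b ℓ, fun y => Pz (ψ 1 y),
    fun y => vPot K b ℓ (R y), fun y => Pz (ψ 1 (R y))]
  have hg : ∀ k, Measurable (g k) := by
    intro k
    fin_cases k
    · exact hw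
    · exact hv
    · exact hPz.comp (H.hψ 1)
    · exact hv.comp hRm
    · exact hPz.comp ((H.hψ 1).comp hRm)
  obtain ⟨u, hu, hug⟩ := exists_measurable_glue D.BB (fun i => (D.isOpen_BB i).measurableSet)
    D.BB_disj g hg
  have hPzv : ∀ v ∈ Metric.ball (0 : E) r₁, Pz (ψ 1 (Z v)) = potZ s K α b ℓ Y Z v := by
    intro v hv
    have := H.hleft 1 v hv
    rw [H.φ1 v hv] at this
    rw [this]
    simp only [Pz, potZ]
    rw [H.φ0 v hv, H.φ1 v hv]
  refine ⟨u, hu, hA, ?_, ?_, ?_, ?_, ?_⟩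
  · intro x hx
    exact hug 0 x (D.ball_sub_BB (hA hx))
  · intro v hv
    exact hug 1 _ (D.Y_mem_BB hv)
  · intro v hv
    rw [hug 2 _ (D.Z_mem_BB hv)]
    exact hPzv v hv
  · intro v hv
    rw [hug 3 _ (D.RY_mem_BB hv)]
    show vPot K b ℓ (R (R (Y v))) = _
    rw [D.hR]
  · intro v hv
    rw [hug 4 _ (D.RZ_mem_BB hv)]
    show Pz (ψ 1 (R (R (Z v)))) = _
    rw [D.hR]
    exact hPzv v hv

/-- Cost stability under a small move of the first slot. -/
theorem tripleCost_perturb {ξ x y z : E} (hξ : ξ ∈ Metric.ball (0 : E) r₁)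
    (hx : x ∈ Metric.ball (0 : E) r₁) (hy : y ∈ D.outer) (hz : z ∈ D.outer) (hyz : y ≠ z) {δ : ℝ}
    (hδ : ‖ξ - x‖ ≤ δ) (hδ1 : δ ≤ 1) :
    tripleCost s (ξ, y, z) ≤
      tripleCost s (x, y, z) + ENNReal.ofReal (6 * s * (2 : ℝ) ^ (s + 2) * δ) := by
  have hs := D.hs
  have h1 := D.ne_ball_outer hξ hy
  have h2 := D.ne_ball_outer hx hy
  have h3 := D.ne_ball_outer hξ hz
  have h4 := D.ne_ball_outer hx hz
  obtain ⟨a1, a2⟩ := D.sep_ball_outer hξ hy
  obtain ⟨a3, a4⟩ := D.sep_ball_outer hξ hz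
  have hδ0 : 0 ≤ δ := (norm_nonneg _).trans hδ
  rw [tripleCost_eq h1 h3 hyz, tripleCost_eq h2 h4 hyz,
    ← ENNReal.ofReal_add (cr_nonneg _ _ _ _) (by positivity)]
  exact ENNReal.ofReal_le_ofReal (cr_perturb hs.le h1 h2 h3 h4 a2 a1 a4 a3 hδ hδ1)

/-- Application of the abstract theorem. -/
theorem apply_abstract {ν : Measure E} [IsFiniteMeasure ν] (hν : ν univ = ENNReal.ofReal (1 / 6))
    {A : Set E} (hAm : MeasurableSet A) (hA : A ⊆ Metric.ball (0 : E) r₁) (hae : ∀ᵐ u ∂ν, u ∈ A)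
    (happrox : ∀ δ : ℝ, 0 < δ → ∃ (P : Set E) (ι₀ ι₁ τ₀ τ₁ : E → E),
      MeasurableSet P ∧ Measurable ι₀ ∧ Measurable ι₁ ∧ Measurable τ₀ ∧ Measurable τ₁ ∧
      (∀ u ∈ A, ι₀ u ∈ A ∩ P) ∧ (∀ u ∈ A, ι₁ u ∈ A \ P) ∧
      (∀ u, τ₀ (ι₀ u) = u) ∧ (∀ u, τ₁ (ι₁ u) = u) ∧
      ν.map ι₀ + ν.map ι₁ = ν + ν ∧ (∀ u ∈ A, ‖ι₀ u - u‖ ≤ δ ∧ ‖ι₁ u - u‖ ≤ δ)) :
    ∃ π₀ : Measure (E × E × E),
      IsCoupling₃ (totalMeasure ν φ) π₀ ∧ ∫⁻ p, tripleCost s p ∂π₀ < ⊤ ∧
      (∀ π : Measure (E × E × E), IsCoupling₃ (totalMeasure ν φ) π →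
        ∫⁻ p, tripleCost s p ∂π₀ ≤ ∫⁻ p, tripleCost s p ∂π) ∧
      (∀ T₂ T₃ : E → E, Measurable T₂ → Measurable T₃ →
        (totalMeasure ν φ).map T₂ = totalMeasure ν φ →
        (totalMeasure ν φ).map T₃ = totalMeasure ν φ →
        ∫⁻ p, tripleCost s p ∂π₀ < ∫⁻ x, tripleCost s (x, T₂ x, T₃ x) ∂(totalMeasure ν φ)) ∧
      (∀ ε : ℝ≥0∞, 0 < ε → ∃ T₂ T₃ : E → E, Measurable T₂ ∧ Measurable T₃ ∧
        (totalMeasure ν φ).map T₂ = totalMeasure ν φ ∧
        (totalMeasure ν φ).map T₃ = totalMeasure ν φ ∧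
        ∫⁻ x, tripleCost s (x, T₂ x, T₃ x) ∂(totalMeasure ν φ) < ∫⁻ p, tripleCost s p ∂π₀ + ε) := by
  obtain ⟨u, hu, P⟩ := H.exists_pot hA
  have hs := D.hs
  have he := D.hε
  have h6ν : 6 * ν univ = 1 := by
    rw [hν, show (6 : ℝ≥0∞) = ENNReal.ofReal 6 by simp, ← ENNReal.ofReal_mul (by norm_num)]
    norm_num
  set α : ℝ := 2 + (2 : ℝ) ^ (-s) with hα
  have hSm : MeasurableSet (A ∪ D.outer) := hAm.union H.hout
  have hneq : ∀ k : Fin 4, ∀ x ∈ A, x ≠ φ k x := fun k x hx =>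
    D.ne_ball_outer (hA hx) (H.maps_outer k (hA hx))
  have hne01 : ∀ x ∈ A, φ 0 x ≠ φ 1 x := by
    intro x hx
    rw [H.φ0 x (hA hx), H.φ1 x (hA hx)]
    exact D.ne_yz (hA hx)
  have hne23 : ∀ x ∈ A, φ 2 x ≠ φ 3 x := by
    intro x hx
    rw [H.φ2 x (hA hx), H.φ3 x (hA hx)]
    intro h
    exact D.ne_yz (D.R_mem_ball (hA hx)) (R.injective h)
  have hmemk : ∀ k : Fin 4, ∀ x ∈ A, φ k x ∈ A ∪ D.outer := fun k x hx =>
    Or.inr (H.maps_outer k (hA hx))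
  have hsheet₀ : ∀ x ∈ A, u x + u (φ 0 x) + u (φ 1 x) = cr s x (φ 0 x) (φ 1 x) := by
    intro x hx
    rw [H.φ0 x (hA hx), H.φ1 x (hA hx)]
    exact P.sheet_eq₀ hx
  have hsheet₁ : ∀ x ∈ A, u x + u (φ 2 x) + u (φ 3 x) = cr s x (φ 2 x) (φ 3 x) := by
    intro x hx
    rw [H.φ2 x (hA hx), H.φ3 x (hA hx)]
    exact P.sheet_eq₁ hx
  -- cost bounds
  have hbound : ∀ k l : Fin 4, ∀ x ∈ A, φ k x ≠ φ l x →
      u x + u (φ k x) + u (φ l x) = cr s x (φ k x) (φ l x) →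
      tripleCost s (x, φ k x, φ l x) ≤ ENNReal.ofReal (α + ε + ε) := by
    intro k l x hx hkl heq
    rw [tripleCost_eq (hneq k x hx) (hneq l x hx) hkl, ← heq]
    apply ENNReal.ofReal_le_ofReal
    have h1 := P.u_A_le hx
    have h2 := (abs_lt.1 (P.u_outer (H.maps_outer k (hA hx)))).2
    have h3 := (abs_lt.1 (P.u_outer (H.maps_outer l (hA hx)))).2
    linarith
  have hint : ∀ k l : Fin 4, (∀ x ∈ A, φ k x ≠ φ l x) →
      (∀ x ∈ A, u x + u (φ k x) + u (φ l x) = cr s x (φ k x) (φ l x)) →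
      ∫⁻ x, tripleCost s (x, φ k x, φ l x) ∂ν < ⊤ := by
    intro k l h1 h2
    calc ∫⁻ x, tripleCost s (x, φ k x, φ l x) ∂ν ≤ ∫⁻ _, ENNReal.ofReal (α + ε + ε) ∂ν := by
          apply lintegral_mono_ae
          filter_upwards [hae] with x hx using hbound k l x hx (h1 x hx) (h2 x hx)
      _ = ENNReal.ofReal (α + ε + ε) * ν univ := lintegral_const _
      _ < ⊤ := ENNReal.mul_lt_top (by simp) (measure_lt_top _ _)
  have hI₀ := hint 0 1 hne01 hsheet₀
  have hI₁ := hint 2 3 hne23 hsheet₁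
  have hfin : ∫⁻ x, tripleCost s (x, φ 0 x, φ 1 x) ∂ν + ∫⁻ x, tripleCost s (x, φ 2 x, φ 3 x) ∂ν ≠ ⊤ :=
    ENNReal.add_ne_top.2 ⟨hI₀.ne, hI₁.ne⟩
  refine abstract_main (ν := ν) (A := A) (φ := φ) (ψ := ψ) (B := fun k => D.BB k.succ)
    (c := tripleCost s) (U := fun x => ENNReal.ofReal (u x + ε)) (M := ENNReal.ofReal (3 * ε))
    (S := A ∪ D.outer) ?_ hAm hae H.hφ H.hψ (fun k => (D.isOpen_BB _).measurableSet) ?_ ?_ ?_ ?_
    (measurable_tripleCost s) (tripleCost_cyc s) ?_ ENNReal.ofReal_ne_top hSm subset_union_left hmemk ?_ ?_ ?_ ?_ hfin ?_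
  · rw [hν]; simp
  · intro i j hij
    exact D.BB_disj (fun h => hij (Fin.succ_injective _ h))
  · intro k
    refine Disjoint.mono_left (fun x hx => D.ball_sub_BB (hA hx)) (D.BB_disj ?_)
    exact (Fin.succ_ne_zero k).symm
  · intro k x hx
    exact H.maps_BB k (hA hx)
  · intro k x hx
    exact H.hleft k x (hA hx)
  · exact ENNReal.measurable_ofReal.comp (hu.add measurable_const)
  · intro x hx y hy z hz
    exact P.dual_ennreal hx hy hz
  · intro x hx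
    exact P.ennreal_of_eq (Or.inl hx) (hmemk 0 x hx) (hmemk 1 x hx) (hneq 0 x hx) (hneq 1 x hx)
      (hne01 x hx) (hsheet₀ x hx)
  · intro x hx
    exact P.ennreal_of_eq (Or.inl hx) (hmemk 2 x hx) (hmemk 3 x hx) (hneq 2 x hx) (hneq 3 x hx)
      (hne23 x hx) (hsheet₁ x hx)
  · intro x hx y hy z hz heq
    have hfinite : tripleCost s (x, y, z) ≠ ⊤ := by
      intro htop
      rw [htop, top_add] at heq
      simp [ENNReal.add_eq_top] at heq
    have hdist : ¬ (x = y ∨ x = z ∨ y = z) := fun h => hfinite (tripleCost_eq_top hs h)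
    push Not at hdist
    obtain ⟨hxy, hxz, hyz⟩ := hdist
    have h1 := P.eq_of_ennreal (Or.inl hx) hy hz hxy hxz hyz heq
    have h2 := P.rigid_real hx hy hz hxy hxz hyz h1
    rw [H.φ0 x (hA hx), H.φ1 x (hA hx), H.φ2 x (hA hx), H.φ3 x (hA hx)]
    exact h2
  · intro ε' hε'
    obtain ⟨t, ht0, ht1, ht2⟩ := ENNReal.lt_iff_exists_real_btwn.1 hε'
    have htpos : 0 < t := by
      by_contra hc
      push Not at hc
      rw [ENNReal.ofReal_of_nonpos hc] at ht1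
      exact lt_irrefl _ ht1
    set Aa := (2 : ℝ) ^ (s + 2) with hAa
    have hAapos : 0 < Aa := Real.rpow_pos_of_pos (by norm_num) _
    set δ := min 1 (t / (6 * s * Aa)) with hδ
    have hδpos : 0 < δ := lt_min one_pos (by positivity)
    have hδ1 : δ ≤ 1 := min_le_left _ _
    have hδ2 : 6 * s * Aa * δ ≤ t := by
      have : δ ≤ t / (6 * s * Aa) := min_le_right _ _
      calc 6 * s * Aa * δ ≤ 6 * s * Aa * (t / (6 * s * Aa)) := by gcongr
        _ = t := by field_simp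
    obtain ⟨Pp, ι₀, ι₁, τ₀, τ₁, hP, h0, h1, h2, h3, h4, h5, h6, h7, h8, h9⟩ := happrox δ hδpos
    refine ⟨Pp, ι₀, ι₁, τ₀, τ₁, hP, h0, h1, h2, h3, h4, h5, fun u _ => h6 u, fun u _ => h7 u, h8, ?_⟩
    set C := ENNReal.ofReal (6 * s * Aa * δ) with hC
    have hCε : C < ε' := lt_of_le_of_lt (ENNReal.ofReal_le_ofReal hδ2) ht2
    have hstep : ∀ (ι : E → E) (k l : Fin 4), (∀ x ∈ A, ι x ∈ A) → (∀ x ∈ A, ‖ι x - x‖ ≤ δ) →
        (∀ x ∈ A, φ k x ≠ φ l x) →
        ∫⁻ x, tripleCost s (ι x, φ k x, φ l x) ∂ν ≤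
          ∫⁻ x, tripleCost s (x, φ k x, φ l x) ∂ν + C * ν univ := by
      intro ι k l hι hιδ hkl
      calc ∫⁻ x, tripleCost s (ι x, φ k x, φ l x) ∂ν
          ≤ ∫⁻ x, (tripleCost s (x, φ k x, φ l x) + C) ∂ν := by
            apply lintegral_mono_ae
            filter_upwards [hae] with x hx
            exact H.tripleCost_perturb (hA (hι x hx)) (hA hx) (H.maps_outer k (hA hx))
              (H.maps_outer l (hA hx)) (hkl x hx) (hιδ x hx) hδ1
        _ = _ := by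
            rw [lintegral_add_right _ measurable_const, lintegral_const]
    have s0 := hstep ι₀ 0 1 (fun x hx => (h4 x hx).1) (fun x hx => (h9 x hx).1) hne01
    have s1 := hstep ι₁ 2 3 (fun x hx => (h5 x hx).1) (fun x hx => (h9 x hx).2) hne23
    set I₀ := ∫⁻ x, tripleCost s (x, φ 0 x, φ 1 x) ∂ν with hI₀def
    set I₁ := ∫⁻ x, tripleCost s (x, φ 2 x, φ 3 x) ∂ν with hI₁def
    have hne : 3 * (I₀ + I₁) ≠ ⊤ := ENNReal.mul_ne_top (by simp) hfin
    calc 3 * (∫⁻ x, tripleCost s (ι₀ x, φ 0 x, φ 1 x) ∂ν + ∫⁻ x, tripleCost s (ι₁ x, φ 2 x, φ 3 x) ∂ν)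
        ≤ 3 * ((I₀ + C * ν univ) + (I₁ + C * ν univ)) := by gcongr
      _ = 3 * (I₀ + I₁) + (6 * ν univ) * C := by ring
      _ = 3 * (I₀ + I₁) + C := by rw [h6ν, one_mul]
      _ < 3 * (I₀ + I₁) + ε' := ENNReal.add_lt_add_left hne hCε

end Sheets

end

section Density

variable {E : Type*} [NormedAddCommGroup E] [NormedSpace ℝ E] [MeasurableSpace E] [BorelSpace E]

/-- The total density as the square of a sum of disjointly supported smooth functions. -/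
theorem density_package (vol : Measure E) {f : E → ℝ} (hf : ContDiff ℝ ∞ f) (hf0 : ∀ x, 0 ≤ f x)
    (hfc : HasCompactSupport f) {φ : Fin 4 → E → E}
    {BB : Fin 5 → Set E} (hBB : Pairwise (fun i j => Disjoint (BB i) (BB j)))
    (hfBB : ∀ x, f x ≠ 0 → x ∈ BB 0)
    (hpush : ∀ k : Fin 4, ∃ F : E → ℝ, ContDiff ℝ ∞ F ∧ (∀ y, 0 ≤ F y) ∧ HasCompactSupport F ∧
      (∀ y, F y ≠ 0 → y ∈ BB k.succ) ∧
      vol.withDensity (fun y => ENNReal.ofReal (F y ^ 2)) =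
        (vol.withDensity (fun x => ENNReal.ofReal (f x ^ 2))).map (φ k)) :
    ∃ ρ : E → ℝ, (∀ x, 0 ≤ ρ x) ∧ ContDiff ℝ ∞ ρ ∧ HasCompactSupport ρ ∧
      ContDiff ℝ ∞ (fun x => Real.sqrt (ρ x)) ∧
      vol.withDensity (fun x => ENNReal.ofReal (ρ x)) =
        totalMeasure (vol.withDensity (fun x => ENNReal.ofReal (f x ^ 2))) φ := by
  choose F hFs hF0 hFc hFB hFm using hpush
  set c : ℝ := Real.sqrt 2 with hc
  have hc0 : 0 ≤ c := Real.sqrt_nonneg _
  have hc2 : c ^ 2 = 2 := Real.sq_sqrt (by norm_num)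
  have hc1 : c ≠ 0 := by
    intro h
    rw [h] at hc2
    norm_num at hc2
  let G : E → ℝ := fun x => c * f x + F 0 x + F 1 x + F 2 x + F 3 x
  have hGs : ContDiff ℝ ∞ G :=
    ((((contDiff_const.mul hf).add (hFs 0)).add (hFs 1)).add (hFs 2)).add (hFs 3)
  have hG0 : ∀ x, 0 ≤ G x := by
    intro x
    have := hf0 x
    have a0 := hF0 0 x
    have a1 := hF0 1 x
    have a2 := hF0 2 x
    have a3 := hF0 3 x
    have : 0 ≤ c * f x := by positivity
    simp only [G]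
    linarith
  have hGc : HasCompactSupport G := by
    have h0 : HasCompactSupport (fun x => c * f x) := hfc.mul_left (f := fun _ => c)
    exact (((h0.add (hFc 0)).add (hFc 1)).add (hFc 2)).add (hFc 3)
  let g : Fin 5 → E → ℝ := ![fun x => c * f x, F 0, F 1, F 2, F 3]
  have hg : ∀ i x, g i x ≠ 0 → x ∈ BB i := by
    intro i x hx
    fin_cases i
    · apply hfBB
      intro h
      apply hx
      show c * f x = 0
      rw [h, mul_zero]
    · exact hFB 0 x hx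
    · exact hFB 1 x hx
    · exact hFB 2 x hx
    · exact hFB 3 x hx
  have hprod : ∀ i j, i ≠ j → ∀ x, g i x * g j x = 0 := by
    intro i j hij x
    by_contra h
    obtain ⟨h1, h2⟩ := mul_ne_zero_iff.1 h
    exact Set.disjoint_left.1 (hBB hij) (hg i x h1) (hg j x h2)
  have hsq : ∀ x, G x ^ 2 = f x ^ 2 + f x ^ 2 + F 0 x ^ 2 + F 1 x ^ 2 + F 2 x ^ 2 + F 3 x ^ 2 := by
    intro x
    have p01 : (c * f x) * F 0 x = 0 := hprod 0 1 (by decide) x
    have p02 : (c * f x) * F 1 x = 0 := hprod 0 2 (by decide) x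
    have p03 : (c * f x) * F 2 x = 0 := hprod 0 3 (by decide) x
    have p04 : (c * f x) * F 3 x = 0 := hprod 0 4 (by decide) x
    have p12 : F 0 x * F 1 x = 0 := hprod 1 2 (by decide) x
    have p13 : F 0 x * F 2 x = 0 := hprod 1 3 (by decide) x
    have p14 : F 0 x * F 3 x = 0 := hprod 1 4 (by decide) x
    have p23 : F 1 x * F 2 x = 0 := hprod 2 3 (by decide) x
    have p24 : F 1 x * F 3 x = 0 := hprod 2 4 (by decide) x
    have p34 : F 2 x * F 3 x = 0 := hprod 3 4 (by decide) x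
    simp only [G]
    linear_combination 2 * p01 + 2 * p02 + 2 * p03 + 2 * p04 + 2 * p12 + 2 * p13 + 2 * p14
      + 2 * p23 + 2 * p24 + 2 * p34 + f x ^ 2 * hc2
  refine ⟨fun x => G x ^ 2, fun x => by positivity, hGs.pow 2, ?_, ?_, ?_⟩
  · exact hGc.comp_left (g := fun t : ℝ => t ^ 2) (by simp)
  · have : (fun x => Real.sqrt (G x ^ 2)) = G := by
      funext x
      exact Real.sqrt_sq (hG0 x)
    rw [this]
    exact hGs
  · set ν := vol.withDensity (fun x => ENNReal.ofReal (f x ^ 2)) with hν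
    have hm : ∀ h : E → ℝ, ContDiff ℝ ∞ h → Measurable (fun x => ENNReal.ofReal (h x ^ 2)) := by
      intro h hh
      exact ENNReal.measurable_ofReal.comp (hh.continuous.measurable.pow_const 2)
    have e : (fun x => ENNReal.ofReal (G x ^ 2)) =
        (fun x => ENNReal.ofReal (f x ^ 2)) + (fun x => ENNReal.ofReal (f x ^ 2))
          + (fun x => ENNReal.ofReal (F 0 x ^ 2)) + (fun x => ENNReal.ofReal (F 1 x ^ 2))
          + (fun x => ENNReal.ofReal (F 2 x ^ 2)) + (fun x => ENNReal.ofReal (F 3 x ^ 2)) := by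
      funext x
      simp only [Pi.add_apply]
      rw [hsq x]
      rw [ENNReal.ofReal_add (by positivity) (by positivity),
        ENNReal.ofReal_add (by positivity) (by positivity),
        ENNReal.ofReal_add (by positivity) (by positivity),
        ENNReal.ofReal_add (by positivity) (by positivity),
        ENNReal.ofReal_add (by positivity) (by positivity)]
    rw [e, withDensity_add_right _ (hm _ (hFs 3)), withDensity_add_right _ (hm _ (hFs 2)),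
      withDensity_add_right _ (hm _ (hFs 1)), withDensity_add_right _ (hm _ (hFs 0)),
      withDensity_add_right _ (hm _ hf), hFm 0, hFm 1, hFm 2, hFm 3]
    rfl

end Density

end Crest.Agent.Lib.OTM
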