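import Crest.Agent.Lib.OTM.OneDim

/-!
The central bump: a product density in one coordinate against the remaining ones, with the
near-identity doubling maps acting on the distinguished coordinate.
-/

set_option autoImplicit false
set_option linter.unusedSectionVars false
set_option linter.unusedVariables false

namespace Crest.Agent.Lib.OTM

open MeasureTheory Set Filter Topology
open scoped ENNReal ContDiff

/-- Existence of a smooth one-dimensional square root density. -/
theorem exists_one_dim_density {r : ℝ} (hr : 0 < r) :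
    ∃ ψ : ℝ → ℝ, ContDiff ℝ ∞ ψ ∧ (∀ t, 0 ≤ ψ t) ∧ (∀ t ∈ Ioo (-r) r, ψ t ≠ 0) ∧
      (∀ t, t ∉ Ioo (-r) r → ψ t = 0) ∧ ∫ u in (-r)..r, ψ u ^ 2 = 1 := by
  let b : ContDiffBump (0 : ℝ) := ⟨r / 2, r, by linarith, by linarith⟩
  have hsupp : Function.support b = Ioo (-r) r := by
    rw [b.support_eq, Real.ball_eq_Ioo]
    simp [b]
  have hne : ∀ t ∈ Ioo (-r) r, b t ≠ 0 := by
    intro t ht
    rw [← hsupp] at ht
    exact ht
  have hz : ∀ t, t ∉ Ioo (-r) r → b t = 0 := by
    intro t ht
    rw [← hsupp] at ht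
    simpa using ht
  have hbc : Continuous (b : ℝ → ℝ) := b.continuous
  set I₀ := ∫ u in (-r)..r, (b u) ^ 2 with hI₀
  have hI₀pos : 0 < I₀ := by
    apply intervalIntegral.intervalIntegral_pos_of_pos_on
    · exact (hbc.pow 2).intervalIntegrable _ _
    · intro u hu
      have := hne u hu
      positivity
    · linarith
  refine ⟨fun t => (Real.sqrt I₀)⁻¹ * b t, ?_, ?_, ?_, ?_, ?_⟩
  · exact contDiff_const.mul b.contDiff
  · intro t
    have := b.nonneg (x := t)
    positivity
  · intro t ht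
    have h1 := hne t ht
    have h2 : (Real.sqrt I₀)⁻¹ ≠ 0 := inv_ne_zero (Real.sqrt_pos.2 hI₀pos).ne'
    exact mul_ne_zero h2 h1
  · intro t ht
    simp [hz t ht]
  · have : ∀ u, ((Real.sqrt I₀)⁻¹ * b u) ^ 2 = I₀⁻¹ * (b u) ^ 2 := by
      intro u
      rw [mul_pow, inv_pow, Real.sq_sqrt hI₀pos.le]
    simp_rw [this]
    rw [intervalIntegral.integral_const_mul, ← hI₀]
    exact inv_mul_cancel₀ hI₀pos.ne'

/-- Existence of the transversal factor. -/
theorem exists_transversal_density {n : ℕ} {r : ℝ} (hr : 0 < r) :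
    ∃ G : (Fin n → ℝ) → ℝ, ContDiff ℝ ∞ G ∧ (∀ w, 0 ≤ G w) ∧
      (∀ w, G w ≠ 0 → ‖w‖ < r) ∧
      (volume.withDensity (fun w => ENNReal.ofReal (G w ^ 2))) univ = ENNReal.ofReal (1 / 6) := by
  let b : ContDiffBump (0 : Fin n → ℝ) := ⟨r / 2, r, by linarith, by linarith⟩
  have hsupp : Function.support b = Metric.ball 0 r := b.support_eq
  have hcs : HasCompactSupport (b : (Fin n → ℝ) → ℝ) := b.hasCompactSupport
  have hcs2 : HasCompactSupport (fun w => (b w) ^ 2) := by
    apply hcs.comp_left (g := fun t : ℝ => t ^ 2)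
    simp
  have hb0 : b 0 ≠ 0 := by
    have : (0 : Fin n → ℝ) ∈ Function.support b := by
      rw [hsupp]; exact Metric.mem_ball_self hr
    exact this
  have hbc : Continuous (b : (Fin n → ℝ) → ℝ) := b.continuous
  set I₁ := ∫ w, (b w) ^ 2 with hI₁
  have hint : Integrable (fun w => (b w) ^ 2) := (hbc.pow 2).integrable_of_hasCompactSupport hcs2
  have hI₁pos : 0 < I₁ := by
    apply Continuous.integral_pos_of_hasCompactSupport_nonneg_nonzero (x := 0) (hbc.pow 2) hcs2
    · intro w; exact sq_nonneg _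
    · simpa using hb0
  have h6I : 0 < (6 * I₁)⁻¹ := inv_pos.2 (by linarith)
  set c := Real.sqrt ((6 * I₁)⁻¹) with hc
  have hc2 : c ^ 2 = (6 * I₁)⁻¹ := Real.sq_sqrt h6I.le
  have hcpos : 0 < c := Real.sqrt_pos.2 h6I
  refine ⟨fun w => c * b w, contDiff_const.mul b.contDiff, ?_, ?_, ?_⟩
  · intro w
    exact mul_nonneg hcpos.le b.nonneg
  · intro w hw
    have h1 : b w ≠ 0 := fun h => hw (by simp [h])
    have h2 : w ∈ Function.support b := h1
    rw [hsupp] at h2
    simpa using h2
  · rw [withDensity_apply _ MeasurableSet.univ, Measure.restrict_univ]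
    have e1 : (fun w => ((c * b w) ^ 2)) = fun w => (6 * I₁)⁻¹ * (b w) ^ 2 := by
      funext w
      rw [mul_pow, hc2]
    have hint2 : Integrable (fun w => ((c * b w) ^ 2)) := by
      rw [e1]; exact hint.const_mul _
    rw [← ofReal_integral_eq_lintegral_ofReal hint2 (Eventually.of_forall fun w => sq_nonneg _)]
    congr 1
    rw [e1, integral_const_mul, ← hI₁]
    field_simp

section Product

variable {n : ℕ}

/-- The coordinate splitting of Euclidean space. -/
noncomputable def coordSplit (i₀ : Fin (n + 1)) :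
    EuclideanSpace ℝ (Fin (n + 1)) ≃ᵐ ℝ × (Fin n → ℝ) :=
  (MeasurableEquiv.toLp 2 (Fin (n + 1) → ℝ)).symm.trans
    (MeasurableEquiv.piFinSuccAbove (fun _ : Fin (n + 1) => ℝ) i₀)

theorem coordSplit_apply (i₀ : Fin (n + 1)) (x : EuclideanSpace ℝ (Fin (n + 1))) :
    coordSplit i₀ x = (x i₀, fun j => x (i₀.succAbove j)) := rfl

theorem coordSplit_preserving (i₀ : Fin (n + 1)) :
    MeasurePreserving (coordSplit i₀) volume (volume : Measure (ℝ × (Fin n → ℝ))) :=
  (EuclideanSpace.volume_preserving_symm_measurableEquiv_toLp (Fin (n + 1))).trans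
    (volume_preserving_piFinSuccAbove (fun _ : Fin (n + 1) => ℝ) i₀)

theorem coordSplit_symm_fst (i₀ : Fin (n + 1)) (t : ℝ) (w : Fin n → ℝ) :
    ((coordSplit i₀).symm (t, w)) i₀ = t := by
  have h : coordSplit i₀ ((coordSplit i₀).symm (t, w)) = (t, w) :=
    (coordSplit i₀).apply_symm_apply _
  rw [coordSplit_apply] at h
  exact congrArg Prod.fst h

theorem coordSplit_symm_snd (i₀ : Fin (n + 1)) (t : ℝ) (w : Fin n → ℝ) (j : Fin n) :
    ((coordSplit i₀).symm (t, w)) (i₀.succAbove j) = w j := by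
  have h : coordSplit i₀ ((coordSplit i₀).symm (t, w)) = (t, w) :=
    (coordSplit i₀).apply_symm_apply _
  rw [coordSplit_apply] at h
  exact congrFun (congrArg Prod.snd h) j

/-- Push through a measurable equivalence turns `g ∘ T` into `g`. -/
theorem map_withDensity_comp {α β : Type*} [MeasurableSpace α] [MeasurableSpace β]
    {μ : Measure α} {μ' : Measure β} {T : α ≃ᵐ β} (hT : MeasurePreserving T μ μ')
    {g : β → ℝ≥0∞} (hg : Measurable g) :
    (μ.withDensity (g ∘ T)).map T = μ'.withDensity g := by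
  ext S hS
  rw [Measure.map_apply T.measurable hS, withDensity_apply _ (T.measurable hS),
    withDensity_apply _ hS]
  exact hT.setLIntegral_comp_preimage hS hg

/-- The central-bump theorem. -/
theorem exists_central_bump (hn : True) (i₀ : Fin (n + 1)) {ρ : ℝ} (hρ : 0 < ρ) :
    ∃ f : EuclideanSpace ℝ (Fin (n + 1)) → ℝ, ContDiff ℝ ∞ f ∧ (∀ x, 0 ≤ f x) ∧
      HasCompactSupport f ∧ tsupport f ⊆ Metric.ball 0 ρ ∧
      (volume.withDensity (fun x => ENNReal.ofReal (f x ^ 2))) univ = ENNReal.ofReal (1 / 6) ∧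
      ∀ δ : ℝ, 0 < δ → ∃ (P : Set (EuclideanSpace ℝ (Fin (n + 1))))
        (ι₀ ι₁ τ₀ τ₁ : EuclideanSpace ℝ (Fin (n + 1)) → EuclideanSpace ℝ (Fin (n + 1))),
        MeasurableSet P ∧ Measurable ι₀ ∧ Measurable ι₁ ∧ Measurable τ₀ ∧ Measurable τ₁ ∧
        (∀ u ∈ Function.support f, ι₀ u ∈ Function.support f ∩ P) ∧
        (∀ u ∈ Function.support f, ι₁ u ∈ Function.support f \ P) ∧
        (∀ u, τ₀ (ι₀ u) = u) ∧ (∀ u, τ₁ (ι₁ u) = u) ∧
        (volume.withDensity (fun x => ENNReal.ofReal (f x ^ 2))).map ι₀ +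
          (volume.withDensity (fun x => ENNReal.ofReal (f x ^ 2))).map ι₁ =
          volume.withDensity (fun x => ENNReal.ofReal (f x ^ 2)) +
            volume.withDensity (fun x => ENNReal.ofReal (f x ^ 2)) ∧
        (∀ u ∈ Function.support f, ‖ι₀ u - u‖ ≤ δ ∧ ‖ι₁ u - u‖ ≤ δ) := by
  set E := EuclideanSpace ℝ (Fin (n + 1)) with hE
  -- radius
  set r : ℝ := ρ / (2 * (n + 1)) with hr
  have hn1 : (0 : ℝ) < n + 1 := by positivity
  have hrpos : 0 < r := by positivity
  obtain ⟨ψ, hψs, hψ0, hψne, hψz, hψm⟩ := exists_one_dim_density hrpos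
  obtain ⟨G, hGs, hG0, hGsupp, hGm⟩ := exists_transversal_density (n := n) hrpos
  have hψc : Continuous ψ := hψs.continuous
  let T : E ≃ᵐ ℝ × (Fin n → ℝ) := coordSplit i₀
  have hTp : MeasurePreserving T volume volume := coordSplit_preserving i₀
  let rest : E → (Fin n → ℝ) := fun x j => x (i₀.succAbove j)
  have hTa : ∀ x : E, T x = (x i₀, rest x) := fun x => rfl
  let f : E → ℝ := fun x => ψ (x i₀) * G (rest x)
  have hcoord : ∀ i : Fin (n + 1), ContDiff ℝ ∞ (fun x : E => x i) := by
    intro i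
    exact (EuclideanSpace.proj (𝕜 := ℝ) i).contDiff
  have hrestS : ContDiff ℝ ∞ rest := by
    apply contDiff_pi.2
    intro j
    exact hcoord _
  have hfs : ContDiff ℝ ∞ f := (hψs.comp (hcoord i₀)).mul (hGs.comp hrestS)
  have hf0 : ∀ x, 0 ≤ f x := fun x => mul_nonneg (hψ0 _) (hG0 _)
  -- support bound
  have hcoordlt : ∀ x, f x ≠ 0 → ∀ i, |x i| < r := by
    intro x hx i
    have h1 : ψ (x i₀) ≠ 0 := left_ne_zero_of_mul hx
    have h2 : G (rest x) ≠ 0 := right_ne_zero_of_mul hx
    rcases Fin.eq_self_or_eq_succAbove i₀ i with h | ⟨j, h⟩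
    · subst h
      have h3 : x i ∈ Ioo (-r) r := by
        by_contra h4
        exact h1 (hψz _ h4)
      exact abs_lt.2 h3
    · have h3 := hGsupp _ h2
      rw [pi_norm_lt_iff hrpos] at h3
      have h4 := h3 j
      rw [Real.norm_eq_abs] at h4
      rw [h]
      exact h4
  have hnormle : ∀ x, f x ≠ 0 → ‖x‖ ≤ ρ / 2 := by
    intro x hx
    have h1 := hcoordlt x hx
    rw [EuclideanSpace.norm_eq]
    have h2 : ∑ i, ‖x i‖ ^ 2 ≤ (ρ / 2) ^ 2 := by
      have h3 : ∀ i ∈ (Finset.univ : Finset (Fin (n + 1))), ‖x i‖ ^ 2 ≤ r ^ 2 := by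
        intro i _
        rw [Real.norm_eq_abs]
        exact pow_le_pow_left₀ (abs_nonneg _) (h1 i).le 2
      have h4 := Finset.sum_le_card_nsmul _ _ _ h3
      simp only [Finset.card_univ, Fintype.card_fin, nsmul_eq_mul] at h4
      push_cast at h4
      have h5 : ((n : ℝ) + 1) * r ^ 2 ≤ (ρ / 2) ^ 2 := by
        have h6 : ρ / 2 = ((n : ℝ) + 1) * r := by
          rw [hr]; field_simp
        rw [h6]
        have h7 : (1 : ℝ) ≤ (n : ℝ) + 1 := by linarith [(Nat.cast_nonneg n : (0 : ℝ) ≤ n)]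
        have h8 : 0 ≤ r ^ 2 := by positivity
        nlinarith
      linarith
    calc Real.sqrt (∑ i, ‖x i‖ ^ 2) ≤ Real.sqrt ((ρ / 2) ^ 2) := Real.sqrt_le_sqrt h2
      _ = ρ / 2 := Real.sqrt_sq (by positivity)
  have hsuppball : Function.support f ⊆ Metric.closedBall 0 (ρ / 2) := by
    intro x hx
    rw [mem_closedBall_zero_iff]
    exact hnormle x hx
  have hts : tsupport f ⊆ Metric.closedBall 0 (ρ / 2) :=
    closure_minimal hsuppball Metric.isClosed_closedBall
  have hcs : HasCompactSupport f :=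
    (isCompact_closedBall _ _).of_isClosed_subset (isClosed_tsupport f) hts
  have htsball : tsupport f ⊆ Metric.ball 0 ρ := by
    intro x hx
    have := hts hx
    rw [mem_closedBall_zero_iff] at this
    rw [mem_ball_zero_iff]
    linarith
  -- the measure
  set m := sqMeasure ψ with hm
  set m' : Measure (Fin n → ℝ) := volume.withDensity (fun w => ENNReal.ofReal (G w ^ 2)) with hm'
  set ν : Measure E := volume.withDensity (fun x => ENNReal.ofReal (f x ^ 2)) with hν
  have hm1 : m univ = 1 := by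
    have h1 := map_cdfHomeo hψc hrpos hψne hψz hψm
    have h2 : (m.map (cdfHomeo hψc hrpos hψne)) univ = 1 := by
      rw [← hm] at h1
      rw [h1]
      simp
    rwa [Measure.map_apply (cdfHomeo hψc hrpos hψne).continuous.measurable MeasurableSet.univ,
      preimage_univ] at h2
  have : IsFiniteMeasure m := ⟨by rw [hm1]; simp⟩
  have : IsFiniteMeasure m' := ⟨by rw [hGm]; simp⟩
  have hνT : ν.map T = m.prod m' := by
    have hg1 : Measurable (fun t => ENNReal.ofReal (ψ t ^ 2)) :=
      ((hψc.pow 2).measurable).ennreal_ofReal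
    have hg2 : Measurable (fun w => ENNReal.ofReal (G w ^ 2)) :=
      ((hGs.continuous.pow 2).measurable).ennreal_ofReal
    have h1 : m.prod m' = (volume.prod volume).withDensity
        (fun z : ℝ × (Fin n → ℝ) => ENNReal.ofReal (ψ z.1 ^ 2) * ENNReal.ofReal (G z.2 ^ 2)) :=
      prod_withDensity hg1 hg2
    rw [h1, ← Measure.volume_eq_prod]
    have h2 : (fun x => ENNReal.ofReal (f x ^ 2)) =
        (fun z : ℝ × (Fin n → ℝ) => ENNReal.ofReal (ψ z.1 ^ 2) * ENNReal.ofReal (G z.2 ^ 2)) ∘ T := by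
      funext x
      simp only [Function.comp]
      rw [hTa, ← ENNReal.ofReal_mul (by positivity), mul_pow]
    rw [hν, h2]
    exact map_withDensity_comp hTp ((hg1.comp measurable_fst).mul (hg2.comp measurable_snd))
  have hνuniv : ν univ = ENNReal.ofReal (1 / 6) := by
    have h1 : (ν.map T) univ = ν univ := by
      rw [Measure.map_apply T.measurable MeasurableSet.univ, preimage_univ]
    rw [← h1, hνT, ← univ_prod_univ, Measure.prod_prod, hm1, hGm, one_mul]
  have hνback : (m.prod m').map T.symm = ν := by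
    rw [← hνT, Measure.map_map T.symm.measurable T.measurable]
    have : (T.symm ∘ T) = id := by
      funext x; exact T.symm_apply_apply x
    rw [this, Measure.map_id]
  refine ⟨f, hfs, hf0, hcs, htsball, hνuniv, ?_⟩
  intro δ hδ
  obtain ⟨ιA, ιB, τA, τB, Q, mιA, mιB, mτA, mτB, mQ, hιA, hιB, hτA, hτB, hsum, hclose⟩ :=
    oneDim_split hψc hrpos hψne hψz hψm hδ
  -- lifting a one dimensional map
  let lift : (ℝ → ℝ) → E → E := fun h x => T.symm (h (x i₀), rest x)
  have hlift_m : ∀ h : ℝ → ℝ, Measurable h → Measurable (lift h) := by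
    intro h hh
    have h1 : Measurable (fun x : E => (h (x i₀), rest x)) := by
      have h2 : Measurable (fun x : E => T x) := T.measurable
      exact (hh.comp (measurable_fst.comp h2)).prodMk (measurable_snd.comp h2)
    exact T.symm.measurable.comp h1
  have hlift_eq : ∀ h : ℝ → ℝ, lift h = T.symm ∘ (Prod.map h id) ∘ T := by
    intro h
    funext x
    rfl
  have hlift_T : ∀ (h : ℝ → ℝ) (x : E), T (lift h x) = (h (x i₀), rest x) := by
    intro h x
    exact T.apply_symm_apply _
  have hlift_fst : ∀ (h : ℝ → ℝ) (x : E), (lift h x) i₀ = h (x i₀) := by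
    intro h x
    have := hlift_T h x
    rw [hTa] at this
    exact congrArg Prod.fst this
  have hlift_rest : ∀ (h : ℝ → ℝ) (x : E), rest (lift h x) = rest x := by
    intro h x
    have := hlift_T h x
    rw [hTa] at this
    exact congrArg Prod.snd this
  have hlift_lift : ∀ (h k : ℝ → ℝ) (x : E), (∀ t, k (h t) = t) → lift k (lift h x) = x := by
    intro h k x hhk
    change T.symm (k ((lift h x) i₀), rest (lift h x)) = x
    rw [hlift_fst, hlift_rest, hhk]
    exact T.symm_apply_apply x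
  have hlift_map : ∀ h : ℝ → ℝ, Measurable h → ν.map (lift h) = ((m.map h).prod m').map T.symm := by
    intro h hh
    have hPm : Measurable (Prod.map h id : ℝ × (Fin n → ℝ) → ℝ × (Fin n → ℝ)) :=
      hh.prodMap measurable_id
    rw [hlift_eq]
    have h1 : (m.map h).prod m' = (m.prod m').map (Prod.map h id) := by
      have := Measure.map_prod_map m m' hh (measurable_id (α := Fin n → ℝ))
      rw [Measure.map_id] at this
      exact this
    rw [h1, ← hνT, Measure.map_map hPm T.measurable, Measure.map_map T.symm.measurable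
      (hPm.comp T.measurable)]
  have hlift_close : ∀ (h : ℝ → ℝ) (x : E), ‖lift h x - x‖ = |h (x i₀) - x i₀| := by
    intro h x
    have e : lift h x - x = EuclideanSpace.single i₀ (h (x i₀) - x i₀) := by
      ext i
      rcases Fin.eq_self_or_eq_succAbove i₀ i with hi | ⟨j, hi⟩
      · subst hi
        change (lift h x) i - x i = _
        rw [hlift_fst]
        simp
      · subst hi
        have h1 : (lift h x) (i₀.succAbove j) = x (i₀.succAbove j) :=
          congrFun (hlift_rest h x) j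
        change (lift h x) (i₀.succAbove j) - x (i₀.succAbove j) = _
        rw [h1, sub_self, PiLp.single_apply, if_neg (Fin.succAbove_ne i₀ j)]
    rw [e, PiLp.norm_single, Real.norm_eq_abs]
  have hsupp_mem : ∀ x, x ∈ Function.support f → x i₀ ∈ Ioo (-r) r := by
    intro x hx
    exact abs_lt.1 (hcoordlt x hx i₀)
  have hlift_supp : ∀ (h : ℝ → ℝ), (∀ t ∈ Ioo (-r) r, h t ∈ Ioo (-r) r) →
      ∀ x ∈ Function.support f, lift h x ∈ Function.support f := by
    intro h h1 x hx
    have h2 := h1 _ (hsupp_mem x hx)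
    have h3 : G (rest x) ≠ 0 := right_ne_zero_of_mul hx
    change ψ ((lift h x) i₀) * G (rest (lift h x)) ≠ 0
    rw [hlift_fst, hlift_rest]
    exact mul_ne_zero (hψne _ h2) h3
  let P : Set E := {x | x i₀ ∈ Q}
  have hPm : MeasurableSet P := by
    have h1 : Measurable (fun x : E => x i₀) := (hcoord i₀).continuous.measurable
    exact h1 mQ
  refine ⟨P, lift ιA, lift ιB, lift τA, lift τB, hPm, hlift_m _ mιA, hlift_m _ mιB, hlift_m _ mτA,
    hlift_m _ mτB, ?_, ?_, ?_, ?_, ?_, ?_⟩
  · intro u hu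
    refine ⟨hlift_supp _ (fun t ht => (hιA t ht).1) u hu, ?_⟩
    change (lift ιA u) i₀ ∈ Q
    rw [hlift_fst]
    exact (hιA _ (hsupp_mem u hu)).2
  · intro u hu
    refine ⟨hlift_supp _ (fun t ht => (hιB t ht).1) u hu, ?_⟩
    change (lift ιB u) i₀ ∉ Q
    rw [hlift_fst]
    exact (hιB _ (hsupp_mem u hu)).2
  · intro u
    exact hlift_lift _ _ u hτA
  · intro u
    exact hlift_lift _ _ u hτB
  · rw [hlift_map _ mιA, hlift_map _ mιB, ← Measure.map_add _ _ T.symm.measurable, ← Measure.add_prod,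
      hsum, Measure.prod_smul_left, Measure.map_smul, hνback, two_smul]
  · intro u hu
    rw [hlift_close, hlift_close]
    exact hclose _ (hsupp_mem u hu)

end Product

end Crest.Agent.Lib.OTM
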