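import Mathlib

/-!
A smooth local inverse lemma: if `Φ` is `C^∞` on a neighbourhood of `a` with invertible derivative
at `a`, then we get an open partial homeomorphism with `C^∞` inverse and invertible derivatives.
-/

set_option autoImplicit false
set_option linter.unusedSectionVars false
set_option linter.unusedVariables false

namespace Crest.Agent.Lib.OTM

open scoped ContDiff Topology
open Set Filter

variable {V : Type*} [NormedAddCommGroup V] [NormedSpace ℝ V] [CompleteSpace V]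

theorem exists_smooth_chart {Φ : V → V} {a : V} {Φ' : V ≃L[ℝ] V}
    (hΦ : ∀ᶠ p in 𝓝 a, ContDiffAt ℝ ∞ Φ p) (hd : HasFDerivAt Φ (Φ' : V →L[ℝ] V) a) :
    ∃ e : OpenPartialHomeomorph V V, a ∈ e.source ∧ (⇑e = Φ) ∧
      (∀ x ∈ e.source, ContDiffAt ℝ ∞ Φ x ∧ ∃ A : V ≃L[ℝ] V, HasFDerivAt Φ (A : V →L[ℝ] V) x) ∧
      (∀ y ∈ e.target, ContDiffAt ℝ ∞ e.symm y) := by
  have hn : (∞ : WithTop ℕ∞) ≠ 0 := by simp
  have hc : ContDiffAt ℝ ∞ Φ a := hΦ.self_of_nhds
  have hs : HasStrictFDerivAt Φ (Φ' : V →L[ℝ] V) a := hc.hasStrictFDerivAt' hd hn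
  let e₀ : OpenPartialHomeomorph V V := hs.toOpenPartialHomeomorph Φ
  have h0 : (0 : WithTop ℕ∞) + 1 ≤ ∞ := by simp
  have hcont : ContinuousAt (fderiv ℝ Φ) a := (hc.fderiv_right h0).continuousAt
  have hrange : range (ContinuousLinearEquiv.toContinuousLinearMap : (V ≃L[ℝ] V) → V →L[ℝ] V) ∈
      𝓝 (fderiv ℝ Φ a) := by
    rw [hd.fderiv]; exact Φ'.nhds
  have hev : ∀ᶠ x in 𝓝 a, fderiv ℝ Φ x ∈
      range (ContinuousLinearEquiv.toContinuousLinearMap : (V ≃L[ℝ] V) → V →L[ℝ] V) :=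
    hcont.eventually hrange
  have hW := hΦ.and hev
  obtain ⟨W, hWsub, hWo, haW⟩ := eventually_nhds_iff.1 hW
  refine ⟨e₀.restrOpen W hWo, ?_, rfl, ?_, ?_⟩
  · rw [OpenPartialHomeomorph.restrOpen_source]
    exact ⟨hs.mem_toOpenPartialHomeomorph_source, haW⟩
  · intro x hx
    rw [OpenPartialHomeomorph.restrOpen_source] at hx
    obtain ⟨h1, h2⟩ := hWsub x hx.2
    refine ⟨h1, ?_⟩
    obtain ⟨A, hA⟩ := h2
    refine ⟨A, ?_⟩
    have : HasFDerivAt Φ (fderiv ℝ Φ x) x := (h1.differentiableAt hn).hasFDerivAt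
    rw [← hA] at this
    exact this
  · intro y hy
    set e := e₀.restrOpen W hWo with he
    have hsrc : e.symm y ∈ e.source := e.map_target hy
    have hsrc' := hsrc
    rw [he, OpenPartialHomeomorph.restrOpen_source] at hsrc'
    obtain ⟨h1, h2⟩ := hWsub _ hsrc'.2
    obtain ⟨A, hA⟩ := h2
    have hder : HasFDerivAt Φ (fderiv ℝ Φ (e.symm y)) (e.symm y) :=
      (h1.differentiableAt hn).hasFDerivAt
    rw [← hA] at hder
    exact e.contDiffAt_symm hy hder h1

end Crest.Agent.Lib.OTM
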