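import Mathlib

/-!
The explicit "doubling" branches on the real line.
-/

set_option autoImplicit false
set_option linter.unusedSectionVars false
set_option linter.unusedVariables false

namespace Crest.Agent.Lib.OTM

open MeasureTheory Set
open scoped ENNReal

/-- First inverse branch. -/
noncomputable def brA (n : ℕ) (t : ℝ) : ℝ := t - Int.fract ((n : ℝ) * t) / (2 * n)

/-- Second inverse branch. -/
noncomputable def brB (n : ℕ) (t : ℝ) : ℝ := brA n t + 1 / (2 * n)

/-- The splitting set. -/
def halfSet (n : ℕ) : Set ℝ := {t | Int.fract ((n : ℝ) * t) < 1 / 2}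

/-- Inverse of the first branch. -/
noncomputable def invA (n : ℕ) (t : ℝ) : ℝ := t + Int.fract ((n : ℝ) * t) / n

/-- Inverse of the second branch. -/
noncomputable def invB (n : ℕ) (t : ℝ) : ℝ := t - 1 / (2 * n) + (Int.fract ((n : ℝ) * t) - 1 / 2) / n

theorem measurable_brA (n : ℕ) : Measurable (brA n) := by
  unfold brA
  exact measurable_id.sub ((measurable_fract.comp (measurable_const.mul measurable_id)).div_const _)

theorem measurable_brB (n : ℕ) : Measurable (brB n) :=
  (measurable_brA n).add_const _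

theorem measurable_invA (n : ℕ) : Measurable (invA n) := by
  unfold invA
  exact measurable_id.add ((measurable_fract.comp (measurable_const.mul measurable_id)).div_const _)

theorem measurable_invB (n : ℕ) : Measurable (invB n) := by
  unfold invB
  exact (measurable_id.sub_const _).add
    (((measurable_fract.comp (measurable_const.mul measurable_id)).sub_const _).div_const _)

theorem measurableSet_halfSet (n : ℕ) : MeasurableSet (halfSet n) := by
  unfold halfSet
  exact measurableSet_lt (measurable_fract.comp (measurable_const.mul measurable_id)) measurable_const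

section Fixed

variable {n : ℕ} (hn : 0 < n)
include hn

theorem mul_brA (t : ℝ) : (n : ℝ) * brA n t = ⌊(n : ℝ) * t⌋ + Int.fract ((n : ℝ) * t) / 2 := by
  have hn' : (n : ℝ) ≠ 0 := by positivity
  unfold brA
  have h := Int.floor_add_fract ((n : ℝ) * t)
  field_simp
  linarith

theorem mul_brB (t : ℝ) : (n : ℝ) * brB n t =
    ⌊(n : ℝ) * t⌋ + (Int.fract ((n : ℝ) * t) / 2 + 1 / 2) := by
  have hn' : (n : ℝ) ≠ 0 := by positivity
  unfold brB
  rw [mul_add, mul_brA hn]
  field_simp
  ring

theorem fract_brA (t : ℝ) :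
    Int.fract ((n : ℝ) * brA n t) = Int.fract ((n : ℝ) * t) / 2 := by
  rw [mul_brA hn, add_comm, Int.fract_add_intCast]
  rw [Int.fract_eq_iff]
  have h0 := Int.fract_nonneg ((n : ℝ) * t)
  have h1 := Int.fract_lt_one ((n : ℝ) * t)
  exact ⟨by linarith, by linarith, 0, by simp⟩

theorem fract_brB (t : ℝ) :
    Int.fract ((n : ℝ) * brB n t) = Int.fract ((n : ℝ) * t) / 2 + 1 / 2 := by
  rw [mul_brB hn, add_comm, Int.fract_add_intCast]
  rw [Int.fract_eq_iff]
  have h0 := Int.fract_nonneg ((n : ℝ) * t)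
  have h1 := Int.fract_lt_one ((n : ℝ) * t)
  exact ⟨by linarith, by linarith, 0, by simp⟩

theorem brA_mem_halfSet (t : ℝ) : brA n t ∈ halfSet n := by
  change Int.fract ((n : ℝ) * brA n t) < 1 / 2
  rw [fract_brA hn]
  have h1 := Int.fract_lt_one ((n : ℝ) * t)
  linarith

theorem brB_notMem_halfSet (t : ℝ) : brB n t ∉ halfSet n := by
  intro h
  have h' : Int.fract ((n : ℝ) * brB n t) < 1 / 2 := h
  rw [fract_brB hn] at h'
  have h0 := Int.fract_nonneg ((n : ℝ) * t)
  linarith

theorem invA_brA (t : ℝ) : invA n (brA n t) = t := by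
  have hn' : (n : ℝ) ≠ 0 := by positivity
  unfold invA
  rw [fract_brA hn]
  unfold brA
  field_simp
  ring

theorem invB_brB (t : ℝ) : invB n (brB n t) = t := by
  have hn' : (n : ℝ) ≠ 0 := by positivity
  unfold invB
  rw [fract_brB hn]
  unfold brB brA
  field_simp
  ring

theorem abs_brA_sub (t : ℝ) : |brA n t - t| ≤ 1 / (2 * n) := by
  have hn' : (0 : ℝ) < n := by positivity
  have h0 := Int.fract_nonneg ((n : ℝ) * t)
  have h1 := Int.fract_lt_one ((n : ℝ) * t)
  have e : brA n t - t = - (Int.fract ((n : ℝ) * t) / (2 * n)) := by unfold brA; ring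
  rw [e, abs_neg, abs_of_nonneg (by positivity)]
  apply div_le_div_of_nonneg_right h1.le (by positivity)

theorem abs_brB_sub (t : ℝ) : |brB n t - t| ≤ 1 / (2 * n) := by
  have hn' : (0 : ℝ) < n := by positivity
  have h0 := Int.fract_nonneg ((n : ℝ) * t)
  have h1 := Int.fract_lt_one ((n : ℝ) * t)
  have e : brB n t - t = (1 - Int.fract ((n : ℝ) * t)) / (2 * n) := by
    unfold brB brA; field_simp; ring
  rw [e, abs_of_nonneg (div_nonneg (by linarith) (by positivity))]
  apply div_le_div_of_nonneg_right (by linarith) (by positivity)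

/-- Values on the open unit interval stay in the open unit interval. -/
theorem brA_mem_Ioo {t : ℝ} (ht : t ∈ Ioo (0 : ℝ) 1) : brA n t ∈ Ioo (0 : ℝ) 1 := by
  have hn' : (0 : ℝ) < n := by positivity
  have h0 := Int.fract_nonneg ((n : ℝ) * t)
  have h1 := Int.fract_lt_one ((n : ℝ) * t)
  have hm := mul_brA hn t
  have hpos : 0 < (n : ℝ) * t := mul_pos hn' ht.1
  have hfl : (0 : ℝ) ≤ ⌊(n : ℝ) * t⌋ := by
    have : 0 ≤ ⌊(n : ℝ) * t⌋ := Int.floor_nonneg.2 hpos.le
    exact_mod_cast this
  constructor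
  · have : 0 < (n : ℝ) * brA n t := by
      rw [hm]
      have h2 := Int.floor_add_fract ((n : ℝ) * t)
      nlinarith
    exact (mul_pos_iff_of_pos_left hn').1 this
  · have : brA n t ≤ t := by
      unfold brA
      have : 0 ≤ Int.fract ((n : ℝ) * t) / (2 * n) := by positivity
      linarith
    linarith [ht.2]

theorem brB_mem_Ioo {t : ℝ} (ht : t ∈ Ioo (0 : ℝ) 1) : brB n t ∈ Ioo (0 : ℝ) 1 := by
  have hn' : (0 : ℝ) < n := by positivity
  have h0 := Int.fract_nonneg ((n : ℝ) * t)
  have h1 := Int.fract_lt_one ((n : ℝ) * t)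
  have hm := mul_brB hn t
  have hpos : 0 < (n : ℝ) * t := mul_pos hn' ht.1
  have hfl : (0 : ℝ) ≤ ⌊(n : ℝ) * t⌋ := by
    have : 0 ≤ ⌊(n : ℝ) * t⌋ := Int.floor_nonneg.2 hpos.le
    exact_mod_cast this
  have hlt : (n : ℝ) * t < n := by nlinarith [ht.2]
  have hfl2 : (⌊(n : ℝ) * t⌋ : ℝ) ≤ n - 1 := by
    have : ⌊(n : ℝ) * t⌋ < (n : ℤ) := by
      rw [Int.floor_lt]; exact_mod_cast hlt
    have : ⌊(n : ℝ) * t⌋ ≤ (n : ℤ) - 1 := by omega
    exact_mod_cast this
  constructor
  · have : 0 < (n : ℝ) * brB n t := by rw [hm]; linarith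
    exact (mul_pos_iff_of_pos_left hn').1 this
  · have : (n : ℝ) * brB n t < n * 1 := by rw [hm]; linarith
    exact lt_of_mul_lt_mul_left this hn'.le

end Fixed

/-- Affine pushforward on an interval. -/
theorem map_restrict_affine (c p q : ℝ) :
    (volume.restrict (Ico p q)).map (fun t : ℝ => t / 2 + c) =
      (2 : ℝ≥0∞) • volume.restrict (Ico (p / 2 + c) (q / 2 + c)) := by
  have hm : Measurable (fun t : ℝ => t / 2 + c) := (measurable_id.div_const 2).add_const c
  ext S hS
  rw [Measure.map_apply hm hS, Measure.restrict_apply (hm hS), Measure.smul_apply,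
    Measure.restrict_apply hS]
  have hset : (fun t : ℝ => t / 2 + c) ⁻¹' S ∩ Ico p q =
      (fun t : ℝ => t / 2 + c) ⁻¹' (S ∩ Ico (p / 2 + c) (q / 2 + c)) := by
    ext t
    simp only [mem_inter_iff, mem_preimage, mem_Ico]
    constructor
    · rintro ⟨h1, h2, h3⟩
      exact ⟨h1, by linarith, by linarith⟩
    · rintro ⟨h1, h2, h3⟩
      exact ⟨h1, by linarith, by linarith⟩
  rw [hset]
  set T := S ∩ Ico (p / 2 + c) (q / 2 + c) with hT
  have e1 : (fun t : ℝ => t / 2 + c) ⁻¹' T =
      (fun t : ℝ => (2 : ℝ)⁻¹ * t) ⁻¹' ((fun t : ℝ => t + c) ⁻¹' T) := by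
    ext t
    simp only [mem_preimage]
    rw [div_eq_inv_mul]
  rw [e1, Real.volume_preimage_mul_left (by norm_num : (2 : ℝ)⁻¹ ≠ 0),
    measure_preimage_add_right]
  simp

/-- Single cell identity for the two branches. -/
theorem cell_identity {n : ℕ} (hn : 0 < n) (k : ℕ) :
    (volume.restrict (Ico ((k : ℝ) / n) (((k : ℝ) + 1) / n))).map (brA n) +
      (volume.restrict (Ico ((k : ℝ) / n) (((k : ℝ) + 1) / n))).map (brB n) =
    (2 : ℝ≥0∞) • volume.restrict (Ico ((k : ℝ) / n) (((k : ℝ) + 1) / n)) := by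
  have hn' : (0 : ℝ) < n := by positivity
  set a := (k : ℝ) / n with ha
  set b := ((k : ℝ) + 1) / n with hb
  have hfloor : ∀ t ∈ Ico a b, ⌊(n : ℝ) * t⌋ = (k : ℤ) := by
    intro t ht
    rw [Int.floor_eq_iff]
    constructor
    · have := ht.1
      rw [ha, div_le_iff₀ hn'] at this
      push_cast
      linarith
    · have := ht.2
      rw [hb, lt_div_iff₀ hn'] at this
      push_cast
      linarith
  have hfract : ∀ t ∈ Ico a b, Int.fract ((n : ℝ) * t) = (n : ℝ) * t - k := by
    intro t ht
    rw [Int.fract, hfloor t ht]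
    push_cast
    ring
  have hA : ∀ t ∈ Ico a b, brA n t = t / 2 + a / 2 := by
    intro t ht
    unfold brA
    rw [hfract t ht, ha]
    field_simp
    ring
  have hB : ∀ t ∈ Ico a b, brB n t = t / 2 + b / 2 := by
    intro t ht
    unfold brB
    rw [hA t ht, ha, hb]
    field_simp
    ring
  have hma : (volume.restrict (Ico a b)).map (brA n) =
      (volume.restrict (Ico a b)).map (fun t : ℝ => t / 2 + a / 2) := by
    apply Measure.map_congr
    filter_upwards [ae_restrict_mem measurableSet_Ico] with t ht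
    exact hA t ht
  have hmb : (volume.restrict (Ico a b)).map (brB n) =
      (volume.restrict (Ico a b)).map (fun t : ℝ => t / 2 + b / 2) := by
    apply Measure.map_congr
    filter_upwards [ae_restrict_mem measurableSet_Ico] with t ht
    exact hB t ht
  rw [hma, hmb, map_restrict_affine, map_restrict_affine, ← smul_add]
  have hab : a ≤ b := by
    rw [ha, hb]
    apply div_le_div_of_nonneg_right (by linarith) hn'.le
  have e1 : a / 2 + a / 2 = a := by ring
  have e2 : b / 2 + b / 2 = b := by ring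
  have e3 : a / 2 + b / 2 = b / 2 + a / 2 := by ring
  rw [e1, e2, e3, ← Measure.restrict_union]
  · rw [Ico_union_Ico_eq_Ico (by linarith) (by linarith)]
  · exact Ico_disjoint_Ico_same
  · exact measurableSet_Ico

/-- The global identity on `[0, 1)`, via induction on the number of cells. -/
theorem branch_identity {n : ℕ} (hn : 0 < n) :
    (volume.restrict (Ioo (0 : ℝ) 1)).map (brA n) +
      (volume.restrict (Ioo (0 : ℝ) 1)).map (brB n) =
    (2 : ℝ≥0∞) • volume.restrict (Ioo (0 : ℝ) 1) := by
  have hn' : (0 : ℝ) < n := by positivity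
  have key : ∀ m : ℕ, (volume.restrict (Ico (0 : ℝ) ((m : ℝ) / n))).map (brA n) +
      (volume.restrict (Ico (0 : ℝ) ((m : ℝ) / n))).map (brB n) =
      (2 : ℝ≥0∞) • volume.restrict (Ico (0 : ℝ) ((m : ℝ) / n)) := by
    intro m
    induction m with
    | zero => simp
    | succ m ih =>
      have hsplit : Ico (0 : ℝ) (((m + 1 : ℕ) : ℝ) / n) =
          Ico (0 : ℝ) ((m : ℝ) / n) ∪ Ico ((m : ℝ) / n) (((m : ℝ) + 1) / n) := by
        push_cast
        rw [Ico_union_Ico_eq_Ico]
        · positivity
        · apply div_le_div_of_nonneg_right (by linarith) hn'.le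
      have hdisj : Disjoint (Ico (0 : ℝ) ((m : ℝ) / n)) (Ico ((m : ℝ) / n) (((m : ℝ) + 1) / n)) :=
        Ico_disjoint_Ico_same
      rw [hsplit, Measure.restrict_union hdisj measurableSet_Ico,
        Measure.map_add _ _ (measurable_brA n), Measure.map_add _ _ (measurable_brB n), smul_add,
        ← ih, ← cell_identity hn m]
      abel
  have h1 : ((n : ℝ) / n) = 1 := div_self hn'.ne'
  have h2 := key n
  rw [h1] at h2
  have h3 : volume.restrict (Ioo (0 : ℝ) 1) = volume.restrict (Ico (0 : ℝ) 1) :=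
    Measure.restrict_congr_set Ioo_ae_eq_Ico
  rw [h3]
  exact h2

end Crest.Agent.Lib.OTM
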