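import Crest.Agent.Lib.OTM.Implicit

/-!
The dual inequality on the five bumps.
-/

set_option autoImplicit false
set_option linter.unusedSectionVars false
set_option linter.unusedVariables false

namespace Crest.Agent.Lib.OTM

open scoped ContDiff Topology RealInnerProductSpace
open Set Filter

/-- The numerical constants. -/
theorem exists_constants {s : ℝ} (hs : 0 < s) :
    ∃ ρ₀ ε : ℝ, 0 < ρ₀ ∧ ρ₀ ≤ 1 / 8 ∧ 0 < ε ∧
      3 * (2 + (2 : ℝ) ^ (-s) + ε) + 1 ≤ (2 * ρ₀) ^ (-s) ∧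
      2 + (2 : ℝ) ^ (-s) + 3 * ε < 2 * (1 + 2 * ρ₀) ^ (-s) + (Real.sqrt 2 + 2 * ρ₀) ^ (-s) ∧
      3 * ε < 3 * (3 : ℝ) ^ (-s) := by
  have hsq : Real.sqrt 2 < 2 := by
    rw [Real.sqrt_lt' (by norm_num)]; norm_num
  have hsq0 : 0 < Real.sqrt 2 := Real.sqrt_pos.2 (by norm_num)
  have hθ : (2 : ℝ) ^ (-s) < (Real.sqrt 2) ^ (-s) :=
    Real.rpow_lt_rpow_of_neg hsq0 hsq (by linarith)
  set θ := (Real.sqrt 2) ^ (-s) - (2 : ℝ) ^ (-s) with hθdef
  have hθpos : 0 < θ := by linarith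
  have h3pos : 0 < (3 : ℝ) ^ (-s) := Real.rpow_pos_of_pos (by norm_num) _
  set ε := min (θ / 8) ((3 : ℝ) ^ (-s) / 2) with hε
  have hεpos : 0 < ε := lt_min (by linarith) (by linarith)
  have hε1 : ε ≤ θ / 8 := min_le_left _ _
  have hε2 : ε ≤ (3 : ℝ) ^ (-s) / 2 := min_le_right _ _
  -- continuity at zero
  let h : ℝ → ℝ := fun ρ => 2 * (1 + 2 * ρ) ^ (-s) + (Real.sqrt 2 + 2 * ρ) ^ (-s)
  have hc : ContinuousAt h 0 := by
    have c1 : ContinuousAt (fun ρ : ℝ => (1 + 2 * ρ) ^ (-s)) 0 := by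
      apply ContinuousAt.rpow_const (by fun_prop)
      left; simp
    have c2 : ContinuousAt (fun ρ : ℝ => (Real.sqrt 2 + 2 * ρ) ^ (-s)) 0 := by
      apply ContinuousAt.rpow_const (by fun_prop)
      left; simp
    exact (continuousAt_const.mul c1).add c2
  have h0 : h 0 = 2 + (Real.sqrt 2) ^ (-s) := by simp [h]
  have hlt : 2 + (2 : ℝ) ^ (-s) + 3 * ε < h 0 := by rw [h0]; linarith
  have hev := hc.eventually (lt_mem_nhds hlt)
  obtain ⟨ρ₁, hρ₁, hball⟩ := Metric.eventually_nhds_iff.1 hev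
  -- the large term
  set L := 3 * (2 + (2 : ℝ) ^ (-s) + ε) + 1 with hL
  have h2pos : 0 < (2 : ℝ) ^ (-s) := Real.rpow_pos_of_pos (by norm_num) _
  have hLpos : 0 < L := by rw [hL]; linarith
  set ρ₂ := L ^ (-(1 / s)) / 2 with hρ₂
  have hρ₂pos : 0 < ρ₂ := by
    have := Real.rpow_pos_of_pos hLpos (-(1 / s))
    positivity
  set ρ₀ := min (min ρ₂ (ρ₁ / 2)) (1 / 8) with hρ₀
  have hρ₀pos : 0 < ρ₀ := lt_min (lt_min hρ₂pos (by linarith)) (by norm_num)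
  have a1 : ρ₀ ≤ ρ₂ := (min_le_left _ _).trans (min_le_left _ _)
  have a2 : ρ₀ ≤ ρ₁ / 2 := (min_le_left _ _).trans (min_le_right _ _)
  have a3 : ρ₀ ≤ 1 / 8 := min_le_right _ _
  refine ⟨ρ₀, ε, hρ₀pos, a3, hεpos, ?_, ?_, ?_⟩
  · have h1 : (2 * ρ₂) ^ (-s) = L := by
      have : 2 * ρ₂ = L ^ (-(1 / s)) := by rw [hρ₂]; ring
      rw [this, ← Real.rpow_mul hLpos.le]
      have : -(1 / s) * -s = 1 := by field_simp
      rw [this, Real.rpow_one]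
    calc 3 * (2 + (2 : ℝ) ^ (-s) + ε) + 1 = L := rfl
      _ = (2 * ρ₂) ^ (-s) := h1.symm
      _ ≤ _ := Real.rpow_le_rpow_of_nonpos (by positivity) (by linarith) (by linarith)
  · have hd : dist ρ₀ 0 < ρ₁ := by
      rw [Real.dist_eq, sub_zero, abs_of_pos hρ₀pos]
      linarith
    exact hball hd
  · linarith

section

variable {E : Type*} [NormedAddCommGroup E] [InnerProductSpace ℝ E]

theorem gr_isometry (R : E ≃ₗᵢ[ℝ] E) (s : ℝ) (x y : E) : gr s (R x - R y) = gr s (x - y) := by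
  unfold gr
  rw [← map_sub, R.norm_map]

theorem cr_isometry (R : E ≃ₗᵢ[ℝ] E) (s : ℝ) (x y z : E) :
    cr s (R x) (R y) (R z) = cr s x y z := by
  unfold cr
  rw [gr_isometry, gr_isometry, gr_isometry]

/-- The potential on the `z`-bump. -/
noncomputable def potZ (s K α : ℝ) (b ℓ : E) (Y Z : E → E) (x : E) : ℝ :=
  cr s x (Y x) (Z x) - wPot α K x - vPot K b ℓ (Y x)

/-- The local data of the construction. -/
structure LocalData (s K : ℝ) (b : E) (R : E ≃ₗᵢ[ℝ] E) (ρ₀ ε r₁ : ℝ) (Y Z : E → E) : Prop where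
  hs : 0 < s
  hK : 3 * s * (2 : ℝ) ^ (s + 2) < K
  hb : ‖b‖ = 1
  hR : ∀ x, R (R x) = x
  hbR : ⟪b, R b⟫ = 0
  hρ₀ : 0 < ρ₀
  hρ₀' : ρ₀ ≤ 1 / 8
  hε : 0 < ε
  B1 : 3 * (2 + (2 : ℝ) ^ (-s) + ε) + 1 ≤ (2 * ρ₀) ^ (-s)
  B2 : 2 + (2 : ℝ) ^ (-s) + 3 * ε < 2 * (1 + 2 * ρ₀) ^ (-s) + (Real.sqrt 2 + 2 * ρ₀) ^ (-s)
  B3 : 3 * ε < 3 * (3 : ℝ) ^ (-s)
  hr₁ : 0 < r₁
  hr₁' : r₁ ≤ ρ₀
  eq1 : ∀ x ∈ Metric.ball (0 : E) r₁, eqOne s K x (Y x) (Z x) = 0
  eq2 : ∀ x ∈ Metric.ball (0 : E) r₁, eqTwo s K b (ellVec s b) x (Y x) (Z x) = 0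
  nearY : ∀ x ∈ Metric.ball (0 : E) r₁, ‖Y x - b‖ < ρ₀
  nearZ : ∀ x ∈ Metric.ball (0 : E) r₁, ‖Z x + b‖ < ρ₀
  potV : ∀ x ∈ Metric.ball (0 : E) r₁, |vPot K b (ellVec s b) (Y x)| < ε
  potW : ∀ x ∈ Metric.ball (0 : E) r₁,
    |potZ s K (2 + (2 : ℝ) ^ (-s)) b (ellVec s b) Y Z x| < ε
  potX : ∀ x ∈ Metric.ball (0 : E) r₁, K / 2 * ‖x‖ ^ 2 < ε

namespace LocalData

variable {s K : ℝ} {b : E} {R : E ≃ₗᵢ[ℝ] E} {ρ₀ ε r₁ : ℝ} {Y Z : E → E}
  (D : LocalData s K b R ρ₀ ε r₁ Y Z)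
include D

theorem hK0 : 0 < K := by
  have h1 := D.hK
  have h2 : 0 ≤ 3 * s * (2 : ℝ) ^ (s + 2) := by
    have := D.hs
    positivity
  linarith

/-- The relevant norm lower bounds. -/
theorem sep_xy {x : E} (hx : x ∈ Metric.ball (0 : E) r₁) : 1 / 2 ≤ ‖x - Y x‖ := by
  have h1 := D.nearY x hx
  have h2 : ‖x‖ < r₁ := by simpa using hx
  have h3 := D.hr₁'
  have h4 := D.hρ₀'
  have h5 : ‖b‖ ≤ ‖x - Y x‖ + ‖Y x - b‖ + ‖x‖ := by
    have : b = -(x - Y x) - (Y x - b) + x := by abel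
    calc ‖b‖ = ‖-(x - Y x) - (Y x - b) + x‖ := by rw [← this]
      _ ≤ ‖-(x - Y x) - (Y x - b)‖ + ‖x‖ := norm_add_le _ _
      _ ≤ ‖-(x - Y x)‖ + ‖Y x - b‖ + ‖x‖ := by gcongr; exact norm_sub_le _ _
      _ = _ := by rw [norm_neg]
  rw [D.hb] at h5
  linarith

theorem sep_xz {x : E} (hx : x ∈ Metric.ball (0 : E) r₁) : 1 / 2 ≤ ‖x - Z x‖ := by
  have h1 := D.nearZ x hx
  have h2 : ‖x‖ < r₁ := by simpa using hx
  have h3 := D.hr₁'
  have h4 := D.hρ₀'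
  have h5 : ‖b‖ ≤ ‖x - Z x‖ + ‖Z x + b‖ + ‖x‖ := by
    have e2 : b = (x - Z x) + (Z x + b) - x := by abel
    calc ‖b‖ = ‖(x - Z x) + (Z x + b) - x‖ := by rw [← e2]
      _ ≤ ‖(x - Z x) + (Z x + b)‖ + ‖x‖ := norm_sub_le _ _
      _ ≤ ‖x - Z x‖ + ‖Z x + b‖ + ‖x‖ := by gcongr; exact norm_add_le _ _
  rw [D.hb] at h5
  linarith

theorem sep_yz {x : E} (hx : x ∈ Metric.ball (0 : E) r₁) : 1 / 2 ≤ ‖Y x - Z x‖ := by
  have h1 := D.nearZ x hx
  have h2 := D.nearY x hx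
  have h4 := D.hρ₀'
  have h5 : ‖b + b‖ ≤ ‖Y x - Z x‖ + ‖Z x + b‖ + ‖Y x - b‖ := by
    have e2 : b + b = (Y x - Z x) + (Z x + b) - (Y x - b) := by abel
    calc ‖b + b‖ = ‖(Y x - Z x) + (Z x + b) - (Y x - b)‖ := by rw [← e2]
      _ ≤ ‖(Y x - Z x) + (Z x + b)‖ + ‖Y x - b‖ := norm_sub_le _ _
      _ ≤ ‖Y x - Z x‖ + ‖Z x + b‖ + ‖Y x - b‖ := by gcongr; exact norm_add_le _ _
  have h6 : ‖b + b‖ = 2 := by
    rw [← two_smul ℝ b, norm_smul, D.hb]; norm_num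
  rw [h6] at h5
  linarith

theorem ne_xy {x : E} (hx : x ∈ Metric.ball (0 : E) r₁) : x ≠ Y x := by
  intro h
  have := D.sep_xy hx
  rw [← h, sub_self, norm_zero] at this
  norm_num at this

theorem ne_xz {x : E} (hx : x ∈ Metric.ball (0 : E) r₁) : x ≠ Z x := by
  intro h
  have := D.sep_xz hx
  rw [← h, sub_self, norm_zero] at this
  norm_num at this

theorem ne_yz {x : E} (hx : x ∈ Metric.ball (0 : E) r₁) : Y x ≠ Z x := by
  intro h
  have := D.sep_yz hx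
  rw [← h, sub_self, norm_zero] at this
  norm_num at this

/-- The transform inequality, specialised. -/
theorem good_ineq {v x' y' : E} (hv : v ∈ Metric.ball (0 : E) r₁)
    (h1 : x' ≠ y') (h2 : x' ≠ Z v) (h3 : y' ≠ Z v) :
    wPot (2 + (2 : ℝ) ^ (-s)) K x' + vPot K b (ellVec s b) y'
        + potZ s K (2 + (2 : ℝ) ^ (-s)) b (ellVec s b) Y Z v
        + ((K - 3 * s * (2 : ℝ) ^ (s + 2)) / 2) * (‖x' - v‖ ^ 2 + ‖y' - Y v‖ ^ 2)
      ≤ cr s x' y' (Z v) := by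
  have hs0 := D.hs.le
  have := transform_ineq (s := s) (K := K) (α := 2 + (2 : ℝ) ^ (-s)) (A := (2 : ℝ) ^ (s + 2))
    (b := b) (ℓ := ellVec s b) (x := v) (y := Y v) (z := Z v) (x' := x') (y' := y') hs0
    (D.eq1 v hv) (D.eq2 v hv) (q_le hs0 (D.sep_xy hv)) (q_le hs0 (D.sep_xz hv))
    (q_le hs0 (D.sep_yz hv)) (D.ne_xy hv) (D.ne_xz hv) (D.ne_yz hv) h1 h2 h3
  unfold potZ
  linarith

/-- Membership in the ball is invariant under `R`. -/
theorem R_mem_ball {x : E} (hx : x ∈ Metric.ball (0 : E) r₁) : R x ∈ Metric.ball (0 : E) r₁ := by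
  rw [mem_ball_zero_iff, R.norm_map]
  simpa using hx

/-- Norm bound for the central ball. -/
theorem norm_lt_of_mem_ball {x : E} (hx : x ∈ Metric.ball (0 : E) r₁) : ‖x‖ < ρ₀ := by
  have h2 : ‖x‖ < r₁ := by simpa using hx
  exact lt_of_lt_of_le h2 D.hr₁'

theorem norm_Rb : ‖R b‖ = 1 := by rw [R.norm_map, D.hb]

theorem norm_sub_Rb : ‖b - R b‖ = Real.sqrt 2 := by
  have h1 : ‖b - R b‖ ^ 2 = 2 := by
    rw [norm_sub_sq_real, D.hb, D.norm_Rb, D.hbR]; norm_num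
  rw [← h1, Real.sqrt_sq (norm_nonneg _)]

theorem norm_add_Rb : ‖b + R b‖ = Real.sqrt 2 := by
  have h1 : ‖b + R b‖ ^ 2 = 2 := by
    rw [norm_add_sq_real, D.hb, D.norm_Rb, D.hbR]; norm_num
  rw [← h1, Real.sqrt_sq (norm_nonneg _)]

/-- Points of a bump at distance less than `ρ₀` from their atoms: distance estimate. -/
theorem dist_of_near {y z p q : E} {L : ℝ} (hy : ‖y - p‖ < ρ₀) (hz : ‖z - q‖ < ρ₀)
    (hpq : ‖p - q‖ ≤ L) : ‖y - z‖ ≤ L + 2 * ρ₀ := by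
  have e : y - z = (y - p) + (p - q) - (z - q) := by abel
  rw [e]
  calc ‖(y - p) + (p - q) - (z - q)‖ ≤ ‖(y - p) + (p - q)‖ + ‖z - q‖ := norm_sub_le _ _
    _ ≤ ‖y - p‖ + ‖p - q‖ + ‖z - q‖ := by gcongr; exact norm_add_le _ _
    _ ≤ L + 2 * ρ₀ := by linarith

/-- The outer part of the support. -/
def outer (D : LocalData s K b R ρ₀ ε r₁ Y Z) : Set E :=
  {y | ∃ v ∈ Metric.ball (0 : E) r₁, y = Y v ∨ y = Z v ∨ y = R (Y v) ∨ y = R (Z v)}

theorem near_Y {v : E} (hv : v ∈ Metric.ball (0 : E) r₁) : ‖Y v - b‖ < ρ₀ := D.nearY v hv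

theorem near_Z {v : E} (hv : v ∈ Metric.ball (0 : E) r₁) : ‖Z v - (-b)‖ < ρ₀ := by
  rw [sub_neg_eq_add]; exact D.nearZ v hv

theorem near_RY {v : E} (hv : v ∈ Metric.ball (0 : E) r₁) : ‖R (Y v) - R b‖ < ρ₀ := by
  rw [← map_sub, R.norm_map]; exact D.nearY v hv

theorem near_RZ {v : E} (hv : v ∈ Metric.ball (0 : E) r₁) : ‖R (Z v) - (-R b)‖ < ρ₀ := by
  rw [sub_neg_eq_add, ← map_add, R.norm_map]; exact D.nearZ v hv

/-- Outer points have norm at most `1 + ρ₀`. -/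
theorem norm_outer {y : E} (hy : y ∈ D.outer) : ‖y‖ ≤ 1 + ρ₀ := by
  obtain ⟨v, hv, h | h | h | h⟩ := hy
  · subst h
    have h1 := D.near_Y hv
    have : ‖Y v‖ ≤ ‖Y v - b‖ + ‖b‖ := by
      have := norm_add_le (Y v - b) b
      rwa [sub_add_cancel] at this
    rw [D.hb] at this; linarith
  · subst h
    have h1 := D.near_Z hv
    have : ‖Z v‖ ≤ ‖Z v - (-b)‖ + ‖-b‖ := by
      have := norm_add_le (Z v - (-b)) (-b)
      rwa [sub_add_cancel] at this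
    rw [norm_neg, D.hb] at this; linarith
  · subst h
    rw [R.norm_map]
    have h1 := D.near_Y hv
    have : ‖Y v‖ ≤ ‖Y v - b‖ + ‖b‖ := by
      have := norm_add_le (Y v - b) b
      rwa [sub_add_cancel] at this
    rw [D.hb] at this; linarith
  · subst h
    rw [R.norm_map]
    have h1 := D.near_Z hv
    have : ‖Z v‖ ≤ ‖Z v - (-b)‖ + ‖-b‖ := by
      have := norm_add_le (Z v - (-b)) (-b)
      rwa [sub_add_cancel] at this
    rw [norm_neg, D.hb] at this; linarith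

end LocalData

/-- The potential structure. -/
structure PotOK {s K : ℝ} {b : E} {R : E ≃ₗᵢ[ℝ] E} {ρ₀ ε r₁ : ℝ} {Y Z : E → E}
    (D : LocalData s K b R ρ₀ ε r₁ Y Z) (A : Set E) (u : E → ℝ) : Prop where
  hA : A ⊆ Metric.ball (0 : E) r₁
  onA : ∀ x ∈ A, u x = wPot (2 + (2 : ℝ) ^ (-s)) K x
  onY : ∀ v ∈ Metric.ball (0 : E) r₁, u (Y v) = vPot K b (ellVec s b) (Y v)
  onZ : ∀ v ∈ Metric.ball (0 : E) r₁, u (Z v) = potZ s K (2 + (2 : ℝ) ^ (-s)) b (ellVec s b) Y Z v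
  onRY : ∀ v ∈ Metric.ball (0 : E) r₁, u (R (Y v)) = vPot K b (ellVec s b) (Y v)
  onRZ : ∀ v ∈ Metric.ball (0 : E) r₁,
    u (R (Z v)) = potZ s K (2 + (2 : ℝ) ^ (-s)) b (ellVec s b) Y Z v

namespace PotOK

variable {s K : ℝ} {b : E} {R : E ≃ₗᵢ[ℝ] E} {ρ₀ ε r₁ : ℝ} {Y Z : E → E}
  {D : LocalData s K b R ρ₀ ε r₁ Y Z} {A : Set E} {u : E → ℝ} (P : PotOK D A u)
include P

theorem u_outer {y : E} (hy : y ∈ D.outer) : |u y| < ε := by
  obtain ⟨v, hv, h | h | h | h⟩ := hy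
  · subst h; rw [P.onY v hv]; exact D.potV v hv
  · subst h; rw [P.onZ v hv]; exact D.potW v hv
  · subst h; rw [P.onRY v hv]; exact D.potV v hv
  · subst h; rw [P.onRZ v hv]; exact D.potW v hv

theorem u_A_le {x : E} (hx : x ∈ A) : u x ≤ 2 + (2 : ℝ) ^ (-s) := by
  rw [P.onA x hx]
  unfold wPot
  have h1 := D.hK0
  have h2 : 0 ≤ K / 2 * ‖x‖ ^ 2 := by positivity
  linarith

theorem u_A_ge {x : E} (hx : x ∈ A) : 2 + (2 : ℝ) ^ (-s) - ε < u x := by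
  rw [P.onA x hx]
  unfold wPot
  have := D.potX x (P.hA hx)
  linarith

/-- Three outer points: strict inequality. -/
theorem L_OOO {x y z : E} (hx : x ∈ D.outer) (hy : y ∈ D.outer) (hz : z ∈ D.outer)
    (hxy : x ≠ y) (hxz : x ≠ z) (hyz : y ≠ z) : u x + u y + u z < cr s x y z := by
  have hs := D.hs.le
  have hρ := D.hρ₀'
  have b1 := D.norm_outer hx
  have b2 := D.norm_outer hy
  have b3 := D.norm_outer hz
  have d : ∀ {p q : E}, ‖p‖ ≤ 1 + ρ₀ → ‖q‖ ≤ 1 + ρ₀ → ‖p - q‖ ≤ 3 := by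
    intro p q hp hq
    have := norm_sub_le p q
    linarith
  have g1 := rpow_le_gr hs (sub_ne_zero.2 hxy) (d b1 b2)
  have g2 := rpow_le_gr hs (sub_ne_zero.2 hxz) (d b1 b3)
  have g3 := rpow_le_gr hs (sub_ne_zero.2 hyz) (d b2 b3)
  have u1 := (abs_lt.1 (P.u_outer hx)).2
  have u2 := (abs_lt.1 (P.u_outer hy)).2
  have u3 := (abs_lt.1 (P.u_outer hz)).2
  have := D.B3
  unfold cr
  linarith

/-- Upper bound for any point of `A ∪ outer`. -/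
theorem u_le {z : E} (hz : z ∈ A ∪ D.outer) : u z ≤ 2 + (2 : ℝ) ^ (-s) + ε := by
  have h2 : 0 < (2 : ℝ) ^ (-s) := Real.rpow_pos_of_pos (by norm_num) _
  have he := D.hε
  rcases hz with hz | hz
  · have := P.u_A_le hz; linarith
  · have := (abs_lt.1 (P.u_outer hz)).2; linarith

/-- Two points in `A`: strict inequality. -/
theorem L_AA {x y z : E} (hx : x ∈ A) (hy : y ∈ A) (hz : z ∈ A ∪ D.outer)
    (hxy : x ≠ y) : u x + u y + u z < cr s x y z := by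
  have hs := D.hs.le
  have h1 := D.norm_lt_of_mem_ball (P.hA hx)
  have h2 := D.norm_lt_of_mem_ball (P.hA hy)
  have hd : ‖x - y‖ ≤ 2 * ρ₀ := by
    have := norm_sub_le x y
    linarith
  have g1 := rpow_le_gr hs (sub_ne_zero.2 hxy) hd
  have g2 := gr_nonneg s (x - z)
  have g3 := gr_nonneg s (y - z)
  have u1 := P.u_A_le hx
  have u2 := P.u_A_le hy
  have u3 := P.u_le hz
  have := D.B1
  have he := D.hε
  unfold cr
  linarith

/-- One point in `A` and two outer points at distance at most `√2 + 2ρ₀`: strict inequality. -/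
theorem L_bad {x y z : E} (hx : x ∈ A) (hy : y ∈ D.outer) (hz : z ∈ D.outer)
    (hxy : x ≠ y) (hxz : x ≠ z) (hyz : y ≠ z) (hd : ‖y - z‖ ≤ Real.sqrt 2 + 2 * ρ₀) :
    u x + u y + u z < cr s x y z := by
  have hs := D.hs.le
  have h1 := D.norm_lt_of_mem_ball (P.hA hx)
  have b2 := D.norm_outer hy
  have b3 := D.norm_outer hz
  have d2 : ‖x - y‖ ≤ 1 + 2 * ρ₀ := by
    have := norm_sub_le x y
    linarith
  have d3 : ‖x - z‖ ≤ 1 + 2 * ρ₀ := by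
    have := norm_sub_le x z
    linarith
  have g1 := rpow_le_gr hs (sub_ne_zero.2 hxy) d2
  have g2 := rpow_le_gr hs (sub_ne_zero.2 hxz) d3
  have g3 := rpow_le_gr hs (sub_ne_zero.2 hyz) hd
  have u1 := P.u_A_le hx
  have u2 := (abs_lt.1 (P.u_outer hy)).2
  have u3 := (abs_lt.1 (P.u_outer hz)).2
  have := D.B2
  have he := D.hε
  unfold cr
  linarith

/-- Equality case of the transform inequality. -/
theorem good_case {x' x v₁ v₂ : E} (hxA : x ∈ A) (hv₁ : v₁ ∈ Metric.ball (0 : E) r₁)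
    (hv₂ : v₂ ∈ Metric.ball (0 : E) r₁) (hx' : ‖x'‖ = ‖x‖) (hne1 : x' ≠ Y v₁) (hne2 : x' ≠ Z v₂)
    (hne3 : Y v₁ ≠ Z v₂) :
    u x + vPot K b (ellVec s b) (Y v₁) + potZ s K (2 + (2 : ℝ) ^ (-s)) b (ellVec s b) Y Z v₂
        ≤ cr s x' (Y v₁) (Z v₂) ∧
      (u x + vPot K b (ellVec s b) (Y v₁) + potZ s K (2 + (2 : ℝ) ^ (-s)) b (ellVec s b) Y Z v₂
        = cr s x' (Y v₁) (Z v₂) → x' = v₂ ∧ Y v₁ = Y v₂) := by
  have h := D.good_ineq hv₂ hne1 hne2 hne3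
  have hκ : 0 < (K - 3 * s * (2 : ℝ) ^ (s + 2)) / 2 := by
    have := D.hK; linarith
  have hw : wPot (2 + (2 : ℝ) ^ (-s)) K x' = u x := by
    rw [P.onA x hxA]
    unfold wPot
    rw [hx']
  rw [hw] at h
  have hn : 0 ≤ ‖x' - v₂‖ ^ 2 + ‖Y v₁ - Y v₂‖ ^ 2 := by positivity
  constructor
  · nlinarith
  · intro heq
    rw [heq] at h
    have h0 : ‖x' - v₂‖ ^ 2 + ‖Y v₁ - Y v₂‖ ^ 2 ≤ 0 := by
      by_contra hc
      push Not at hc
      nlinarith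
    have h1 : ‖x' - v₂‖ ^ 2 = 0 := by
      have : 0 ≤ ‖Y v₁ - Y v₂‖ ^ 2 := by positivity
      have : 0 ≤ ‖x' - v₂‖ ^ 2 := by positivity
      linarith
    have h2 : ‖Y v₁ - Y v₂‖ ^ 2 = 0 := by
      have : 0 ≤ ‖Y v₁ - Y v₂‖ ^ 2 := by positivity
      have : 0 ≤ ‖x' - v₂‖ ^ 2 := by positivity
      linarith
    constructor
    · have := pow_eq_zero_iff (two_ne_zero) |>.1 h1
      exact sub_eq_zero.1 (norm_eq_zero.1 this)
    · have := pow_eq_zero_iff (two_ne_zero) |>.1 h2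
      exact sub_eq_zero.1 (norm_eq_zero.1 this)

/-- One point in `A` and two outer points: inequality and equality case. -/
theorem L_AOO {x y z : E} (hx : x ∈ A) (hy : y ∈ D.outer) (hz : z ∈ D.outer)
    (hxy : x ≠ y) (hxz : x ≠ z) (hyz : y ≠ z) :
    u x + u y + u z ≤ cr s x y z ∧
      (u x + u y + u z = cr s x y z →
        y = Y x ∨ y = Z x ∨ y = R (Y (R x)) ∨ y = R (Z (R x))) := by
  have hsq0 : 0 ≤ Real.sqrt 2 := Real.sqrt_nonneg _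
  have bad : ∀ {p q : E}, ‖y - p‖ < ρ₀ → ‖z - q‖ < ρ₀ → ‖p - q‖ ≤ Real.sqrt 2 →
      u x + u y + u z ≤ cr s x y z ∧ (u x + u y + u z = cr s x y z →
        y = Y x ∨ y = Z x ∨ y = R (Y (R x)) ∨ y = R (Z (R x))) := by
    intro p q hp hq hpq
    have := P.L_bad hx hy hz hxy hxz hyz (D.dist_of_near hp hq hpq)
    exact ⟨this.le, fun h => absurd h this.ne⟩
  have e1 : ‖b - b‖ ≤ Real.sqrt 2 := by simpa using hsq0
  have e2 : ‖b - R b‖ ≤ Real.sqrt 2 := D.norm_sub_Rb.le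
  have e3 : ‖b - (-R b)‖ ≤ Real.sqrt 2 := by rw [sub_neg_eq_add]; exact D.norm_add_Rb.le
  have e4 : ‖(-b) - (-b)‖ ≤ Real.sqrt 2 := by simpa using hsq0
  have e5 : ‖(-b) - R b‖ ≤ Real.sqrt 2 := by
    have : (-b) - R b = -(b + R b) := by abel
    rw [this, norm_neg]; exact D.norm_add_Rb.le
  have e6 : ‖(-b) - (-R b)‖ ≤ Real.sqrt 2 := by
    have : (-b) - (-R b) = -(b - R b) := by abel
    rw [this, norm_neg]; exact D.norm_sub_Rb.le
  have e7 : ‖R b - b‖ ≤ Real.sqrt 2 := by rw [norm_sub_rev]; exact e2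
  have e8 : ‖R b - (-b)‖ ≤ Real.sqrt 2 := by rw [norm_sub_rev]; exact e5
  have e9 : ‖R b - R b‖ ≤ Real.sqrt 2 := by simpa using hsq0
  have e10 : ‖(-R b) - b‖ ≤ Real.sqrt 2 := by rw [norm_sub_rev]; exact e3
  have e11 : ‖(-R b) - (-b)‖ ≤ Real.sqrt 2 := by rw [norm_sub_rev]; exact e6
  have e12 : ‖(-R b) - (-R b)‖ ≤ Real.sqrt 2 := by simpa using hsq0
  obtain ⟨v₁, hv₁, hy' | hy' | hy' | hy'⟩ := hy <;> obtain ⟨v₂, hv₂, hz' | hz' | hz' | hz'⟩ := hz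
  · subst hy' hz'; exact bad (D.near_Y hv₁) (D.near_Y hv₂) e1
  · -- (Y, Z): good
    subst hy' hz'
    obtain ⟨h1, h2⟩ := P.good_case (x' := x) hx hv₁ hv₂ rfl hxy hxz hyz
    rw [← P.onY v₁ hv₁, ← P.onZ v₂ hv₂] at h1 h2
    refine ⟨h1, fun heq => ?_⟩
    obtain ⟨h3, h4⟩ := h2 heq
    left
    rw [h4, h3]
  · subst hy' hz'; exact bad (D.near_Y hv₁) (D.near_RY hv₂) e2
  · subst hy' hz'; exact bad (D.near_Y hv₁) (D.near_RZ hv₂) e3
  · -- (Z, Y): good, swapped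
    subst hy' hz'
    obtain ⟨h1, h2⟩ := P.good_case (x' := x) hx hv₂ hv₁ rfl hxz hxy hyz.symm
    rw [← P.onY v₂ hv₂, ← P.onZ v₁ hv₁, ← cr_swap] at h1 h2
    refine ⟨by linarith, fun heq => ?_⟩
    obtain ⟨h3, h4⟩ := h2 (by linarith)
    right; left
    rw [h3]
  · subst hy' hz'; exact bad (D.near_Z hv₁) (D.near_Z hv₂) e4
  · subst hy' hz'; exact bad (D.near_Z hv₁) (D.near_RY hv₂) e5
  · subst hy' hz'; exact bad (D.near_Z hv₁) (D.near_RZ hv₂) e6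
  · subst hy' hz'; exact bad (D.near_RY hv₁) (D.near_Y hv₂) e7
  · subst hy' hz'; exact bad (D.near_RY hv₁) (D.near_Z hv₂) e8
  · subst hy' hz'; exact bad (D.near_RY hv₁) (D.near_RY hv₂) e9
  · -- (RY, RZ): good, rotated
    subst hy' hz'
    have hne1 : R x ≠ Y v₁ := by
      intro h; apply hxy; rw [← h, D.hR]
    have hne2 : R x ≠ Z v₂ := by
      intro h; apply hxz; rw [← h, D.hR]
    have hne3 : Y v₁ ≠ Z v₂ := by
      intro h; apply hyz; rw [h]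
    obtain ⟨h1, h2⟩ := P.good_case (x' := R x) hx hv₁ hv₂ (R.norm_map x) hne1 hne2 hne3
    have hcr : cr s (R x) (Y v₁) (Z v₂) = cr s x (R (Y v₁)) (R (Z v₂)) := by
      rw [← cr_isometry R s (R x) (Y v₁) (Z v₂), D.hR]
    rw [← P.onRY v₁ hv₁, ← P.onRZ v₂ hv₂, hcr] at h1 h2
    refine ⟨h1, fun heq => ?_⟩
    obtain ⟨h3, h4⟩ := h2 heq
    right; right; left
    rw [h4, h3]
  · subst hy' hz'; exact bad (D.near_RZ hv₁) (D.near_Y hv₂) e10
  · subst hy' hz'; exact bad (D.near_RZ hv₁) (D.near_Z hv₂) e11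
  · -- (RZ, RY): good, rotated and swapped
    subst hy' hz'
    have hne1 : R x ≠ Y v₂ := by
      intro h; apply hxz; rw [← h, D.hR]
    have hne2 : R x ≠ Z v₁ := by
      intro h; apply hxy; rw [← h, D.hR]
    have hne3 : Y v₂ ≠ Z v₁ := by
      intro h; apply hyz; rw [h]
    obtain ⟨h1, h2⟩ := P.good_case (x' := R x) hx hv₂ hv₁ (R.norm_map x) hne1 hne2 hne3
    have hcr : cr s (R x) (Y v₂) (Z v₁) = cr s x (R (Y v₂)) (R (Z v₁)) := by
      rw [← cr_isometry R s (R x) (Y v₂) (Z v₁), D.hR]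
    rw [← P.onRY v₂ hv₂, ← P.onRZ v₁ hv₁, hcr, cr_swap s x (R (Y v₂))] at h1 h2
    refine ⟨by linarith, fun heq => ?_⟩
    obtain ⟨h3, h4⟩ := h2 (by linarith)
    right; right; right
    rw [h3]
  · subst hy' hz'; exact bad (D.near_RZ hv₁) (D.near_RZ hv₂) e12

/-- The dual inequality for all distinct triples. -/
theorem dual_real {x y z : E} (hx : x ∈ A ∪ D.outer) (hy : y ∈ A ∪ D.outer)
    (hz : z ∈ A ∪ D.outer) (hxy : x ≠ y) (hxz : x ≠ z) (hyz : y ≠ z) :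
    u x + u y + u z ≤ cr s x y z := by
  rcases hx with hx | hx
  · rcases hy with hy | hy
    · exact (P.L_AA hx hy hz hxy).le
    · rcases hz with hz | hz
      · have := P.L_AA hx hz (Or.inr hy) hxz
        rw [cr_swap s x y z]
        linarith
      · exact (P.L_AOO hx hy hz hxy hxz hyz).1
  · rcases hy with hy | hy
    · rcases hz with hz | hz
      · have := P.L_AA hy hz (Or.inr hx) hyz
        rw [cr_cyc s x y z]
        linarith
      · have := (P.L_AOO hy hz hx hyz hxy.symm hxz.symm).1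
        rw [cr_cyc s x y z]
        linarith
    · rcases hz with hz | hz
      · have := (P.L_AOO hz hx hy hxz.symm hyz.symm hxy).1
        rw [← cr_cyc s z x y]
        linarith
      · exact (P.L_OOO hx hy hz hxy hxz hyz).le

/-- Equality case for triples with first point in `A`. -/
theorem rigid_real {x y z : E} (hx : x ∈ A) (hy : y ∈ A ∪ D.outer)
    (hz : z ∈ A ∪ D.outer) (hxy : x ≠ y) (hxz : x ≠ z) (hyz : y ≠ z)
    (heq : u x + u y + u z = cr s x y z) :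
    y = Y x ∨ y = Z x ∨ y = R (Y (R x)) ∨ y = R (Z (R x)) := by
  rcases hy with hy | hy
  · exact absurd heq (P.L_AA hx hy hz hxy).ne
  · rcases hz with hz | hz
    · have := P.L_AA hx hz (Or.inr hy) hxz
      rw [cr_swap s x y z] at heq
      exact absurd (by linarith) this.ne
    · exact (P.L_AOO hx hy hz hxy hxz hyz).2 heq

end PotOK

end

end Crest.Agent.Lib.OTM
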