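import Crest.Agent.Lib.OTM.Transform
import Crest.Agent.Lib.OTM.Chart

/-!
Solving the critical point equations near the base configuration `(0, b, -b)`.
-/

set_option autoImplicit false
set_option linter.unusedSectionVars false
set_option linter.unusedVariables false

namespace Crest.Agent.Lib.OTM

open scoped ContDiff Topology RealInnerProductSpace
open Set Filter

variable {E : Type*} [NormedAddCommGroup E] [InnerProductSpace ℝ E]

/-- The Hessian of `gr` (derivative of `Dg`). -/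
noncomputable def HessG (s : ℝ) (w : E) : E →L[ℝ] E :=
  (-s * (‖w‖ ^ 2) ^ (-s / 2 - 1)) • ContinuousLinearMap.id ℝ E +
    ((-s) • (((-s / 2 - 1) * (‖w‖ ^ 2) ^ (-s / 2 - 1 - 1)) • (2 • innerSL ℝ w))).smulRight w

theorem HessG_apply (s : ℝ) (w ξ : E) :
    HessG s w ξ = (-s * (‖w‖ ^ 2) ^ (-s / 2 - 1)) • ξ +
      (-s * ((-s / 2 - 1) * (‖w‖ ^ 2) ^ (-s / 2 - 1 - 1)) * (2 * ⟪w, ξ⟫)) • w := by
  simp [HessG, ContinuousLinearMap.smulRight_apply, smul_smul, mul_assoc]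

theorem hasFDerivAt_Dg (s : ℝ) {w : E} (hw : w ≠ 0) : HasFDerivAt (Dg s) (HessG s w) w := by
  have h1 : HasFDerivAt (fun x : E => ‖x‖ ^ 2) (2 • innerSL ℝ w) w :=
    (hasStrictFDerivAt_norm_sq w).hasFDerivAt
  have hne : ‖w‖ ^ 2 ≠ 0 := by positivity
  have h2 := h1.rpow_const (p := -s / 2 - 1) (Or.inl hne)
  have h3 := h2.const_mul (-s)
  have h4 := h3.smul (hasFDerivAt_id w)
  exact h4

theorem contDiffAt_Dg (s : ℝ) {w : E} (hw : w ≠ 0) : ContDiffAt ℝ ∞ (Dg s) w := by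
  unfold Dg
  have hne : ‖w‖ ^ 2 ≠ 0 := by positivity
  have h1 : ContDiffAt ℝ ∞ (fun x : E => ‖x‖ ^ 2) w := (contDiff_norm_sq ℝ).contDiffAt
  have h2 : ContDiffAt ℝ ∞ (fun x : E => (‖x‖ ^ 2) ^ (-s / 2 - 1)) w :=
    h1.rpow contDiffAt_const hne
  exact (contDiffAt_const.mul h2).smul contDiffAt_id

/-- The operator `H` at the unit vector `b`. -/
noncomputable def Hb (s : ℝ) (b : E) : E →L[ℝ] E :=
  (s * (s + 2)) • (innerSL ℝ b).smulRight b - s • ContinuousLinearMap.id ℝ E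

theorem Hb_apply (s : ℝ) (b ξ : E) : Hb s b ξ = (s * (s + 2) * ⟪b, ξ⟫) • b - s • ξ := by
  simp [Hb, ContinuousLinearMap.smulRight_apply, smul_smul]

theorem HessG_unit {s : ℝ} {b : E} (hb : ‖b‖ = 1) : HessG s b = Hb s b := by
  ext ξ
  rw [HessG_apply, Hb_apply, hb]
  simp only [one_pow, Real.one_rpow, mul_one]
  module

theorem HessG_neg {s : ℝ} (w : E) : HessG s (-w) = HessG s w := by
  ext ξ
  rw [HessG_apply, HessG_apply, norm_neg, inner_neg_left]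
  module

theorem HessG_two {s : ℝ} {b : E} (hb : ‖b‖ = 1) :
    HessG s (b + b) = ((4 : ℝ) ^ (-s / 2 - 1)) • Hb s b := by
  ext ξ
  have hn : ‖b + b‖ ^ 2 = 4 := by
    rw [← two_smul ℝ b, norm_smul, hb]; norm_num
  rw [HessG_apply, hn]
  have h4 : (4 : ℝ) ^ (-s / 2 - 1 - 1) = (4 : ℝ) ^ (-s / 2 - 1) / 4 := by
    rw [Real.rpow_sub_one (by norm_num)]
  rw [h4, inner_add_left]
  change _ = ((4 : ℝ) ^ (-s / 2 - 1)) • (Hb s b ξ)
  rw [Hb_apply]
  module

/-- The bound constant of `Hb`. -/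
noncomputable def hbConst (s : ℝ) : ℝ := s * (s + 2) + s

theorem norm_Hb_le {s : ℝ} (hs : 0 ≤ s) {b : E} (hb : ‖b‖ = 1) (ξ : E) :
    ‖Hb s b ξ‖ ≤ hbConst s * ‖ξ‖ := by
  rw [Hb_apply]
  have h1 : ‖(s * (s + 2) * ⟪b, ξ⟫) • b‖ ≤ s * (s + 2) * ‖ξ‖ := by
    rw [norm_smul, hb, mul_one, Real.norm_eq_abs, abs_mul]
    have h2 : |⟪b, ξ⟫| ≤ ‖b‖ * ‖ξ‖ := abs_real_inner_le_norm b ξ
    rw [hb, one_mul] at h2
    have h3 : |s * (s + 2)| = s * (s + 2) := abs_of_nonneg (by positivity)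
    rw [h3]
    exact mul_le_mul_of_nonneg_left h2 (by positivity)
  have h4 : ‖s • ξ‖ = s * ‖ξ‖ := by
    rw [norm_smul, Real.norm_eq_abs, abs_of_nonneg hs]
  calc _ ≤ ‖(s * (s + 2) * ⟪b, ξ⟫) • b‖ + ‖s • ξ‖ := norm_sub_le _ _
    _ ≤ s * (s + 2) * ‖ξ‖ + s * ‖ξ‖ := by rw [h4]; linarith
    _ = _ := by unfold hbConst; ring

theorem Hb_injective {s : ℝ} (hs : 0 < s) {b : E} (hb : ‖b‖ = 1) {ξ : E} (h : Hb s b ξ = 0) :
    ξ = 0 := by
  rw [Hb_apply] at h
  have h1 : ⟪b, (s * (s + 2) * ⟪b, ξ⟫) • b - s • ξ⟫ = 0 := by rw [h, inner_zero_right]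
  rw [inner_sub_right, inner_smul_right, inner_smul_right, real_inner_self_eq_norm_sq, hb] at h1
  have h2 : s * (s + 1) * ⟪b, ξ⟫ = 0 := by nlinarith
  have h3 : ⟪b, ξ⟫ = 0 := by
    have : s * (s + 1) ≠ 0 := by positivity
    exact (mul_eq_zero.1 h2).resolve_left this
  rw [h3] at h
  simp only [mul_zero, zero_smul, zero_sub, neg_eq_zero] at h
  exact (smul_eq_zero.1 h).resolve_left hs.ne'

/-- The nonlinear map whose zero set we solve for. -/
noncomputable def PhiMap (s K : ℝ) (b ℓ : E) (p : E × E × E) : E × E × E :=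
  (p.1, eqOne s K p.1 p.2.1 p.2.2, eqTwo s K b ℓ p.1 p.2.1 p.2.2)

theorem contDiffAt_PhiMap (s K : ℝ) (b ℓ : E) {p : E × E × E} (h1 : p.1 ≠ p.2.1) (h2 : p.1 ≠ p.2.2)
    (h3 : p.2.1 ≠ p.2.2) : ContDiffAt ℝ ∞ (PhiMap s K b ℓ) p := by
  unfold PhiMap eqOne eqTwo
  have c1 : ContDiffAt ℝ ∞ (fun p : E × E × E => p.1) p := contDiffAt_fst
  have c2 : ContDiffAt ℝ ∞ (fun p : E × E × E => p.2.1) p := contDiffAt_fst.comp p contDiffAt_snd
  have c3 : ContDiffAt ℝ ∞ (fun p : E × E × E => p.2.2) p := contDiffAt_snd.comp p contDiffAt_snd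
  have d1 : ContDiffAt ℝ ∞ (Dg s ∘ fun p : E × E × E => p.1 - p.2.1) p :=
    ContDiffAt.comp p (contDiffAt_Dg s (sub_ne_zero.2 h1)) (c1.sub c2)
  have d2 : ContDiffAt ℝ ∞ (Dg s ∘ fun p : E × E × E => p.1 - p.2.2) p :=
    ContDiffAt.comp p (contDiffAt_Dg s (sub_ne_zero.2 h2)) (c1.sub c3)
  have d3 : ContDiffAt ℝ ∞ (Dg s ∘ fun p : E × E × E => p.2.1 - p.2.2) p :=
    ContDiffAt.comp p (contDiffAt_Dg s (sub_ne_zero.2 h3)) (c2.sub c3)
  exact c1.prodMk ((((contDiffAt_const.smul c1).add d1).add d2).prodMk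
    ((((contDiffAt_const.smul (c2.sub contDiffAt_const)).sub contDiffAt_const).sub d1).add d3))

/-- Coordinate projections on the triple product. -/
noncomputable abbrev pr1 : (E × E × E) →L[ℝ] E := ContinuousLinearMap.fst ℝ E (E × E)
noncomputable abbrev pr2 : (E × E × E) →L[ℝ] E :=
  (ContinuousLinearMap.fst ℝ E E).comp (ContinuousLinearMap.snd ℝ E (E × E))
noncomputable abbrev pr3 : (E × E × E) →L[ℝ] E :=
  (ContinuousLinearMap.snd ℝ E E).comp (ContinuousLinearMap.snd ℝ E (E × E))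

/-- The derivative of `PhiMap` at a general point. -/
noncomputable def PhiDeriv (s K : ℝ) (p : E × E × E) : (E × E × E) →L[ℝ] (E × E × E) :=
  (pr1 (E := E)).prod
    (((K • pr1 (E := E) + (HessG s (p.1 - p.2.1)).comp (pr1 - pr2)
        + (HessG s (p.1 - p.2.2)).comp (pr1 - pr3))).prod
      (K • pr2 (E := E) - (HessG s (p.1 - p.2.1)).comp (pr1 - pr2)
        + (HessG s (p.2.1 - p.2.2)).comp (pr2 - pr3)))

theorem hasFDerivAt_PhiMap (s K : ℝ) (b ℓ : E) {p : E × E × E} (h1 : p.1 ≠ p.2.1)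
    (h2 : p.1 ≠ p.2.2) (h3 : p.2.1 ≠ p.2.2) :
    HasFDerivAt (PhiMap s K b ℓ) (PhiDeriv s K p) p := by
  have c1 : HasFDerivAt (fun p : E × E × E => p.1) (pr1 (E := E)) p := (pr1 (E := E)).hasFDerivAt
  have c2 : HasFDerivAt (fun p : E × E × E => p.2.1) (pr2 (E := E)) p := (pr2 (E := E)).hasFDerivAt
  have c3 : HasFDerivAt (fun p : E × E × E => p.2.2) (pr3 (E := E)) p := (pr3 (E := E)).hasFDerivAt
  have d1 : HasFDerivAt (Dg s ∘ fun p : E × E × E => p.1 - p.2.1)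
      ((HessG s (p.1 - p.2.1)).comp (pr1 - pr2)) p :=
    HasFDerivAt.comp p (hasFDerivAt_Dg s (sub_ne_zero.2 h1)) (c1.sub c2)
  have d2 : HasFDerivAt (Dg s ∘ fun p : E × E × E => p.1 - p.2.2)
      ((HessG s (p.1 - p.2.2)).comp (pr1 - pr3)) p :=
    HasFDerivAt.comp p (hasFDerivAt_Dg s (sub_ne_zero.2 h2)) (c1.sub c3)
  have d3 : HasFDerivAt (Dg s ∘ fun p : E × E × E => p.2.1 - p.2.2)
      ((HessG s (p.2.1 - p.2.2)).comp (pr2 - pr3)) p :=
    HasFDerivAt.comp p (hasFDerivAt_Dg s (sub_ne_zero.2 h3)) (c2.sub c3)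
  have e1 : HasFDerivAt (fun p : E × E × E => eqOne s K p.1 p.2.1 p.2.2)
      (K • pr1 (E := E) + (HessG s (p.1 - p.2.1)).comp (pr1 - pr2)
        + (HessG s (p.1 - p.2.2)).comp (pr1 - pr3)) p :=
    ((c1.const_smul K).add d1).add d2
  have e2 : HasFDerivAt (fun p : E × E × E => eqTwo s K b ℓ p.1 p.2.1 p.2.2)
      (K • pr2 (E := E) - (HessG s (p.1 - p.2.1)).comp (pr1 - pr2)
        + (HessG s (p.2.1 - p.2.2)).comp (pr2 - pr3)) p := by
    have h0 : HasFDerivAt (fun p : E × E × E => K • (p.2.1 - b) - ℓ) (K • pr2 (E := E)) p :=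
      ((c2.sub_const b).const_smul K).sub_const ℓ
    exact (h0.sub d1).add d3
  exact c1.prodMk (e1.prodMk e2)

section Linear

variable {H : E →L[ℝ] E} {h K τ : ℝ}

theorem lin_A (hH : ∀ ξ, ‖H ξ‖ ≤ h * ‖ξ‖) (hτ : 0 ≤ τ) (hK : (1 + 2 * τ) * h < τ * K)
    {ξ a c : E} (e1 : K • ξ + H (ξ - a) + H (ξ - c) = 0) (e2 : K • a - H (ξ - a) + τ • H (a - c) = 0)
    (ha : a = 0) : ξ = 0 := by
  subst ha
  simp only [sub_zero, zero_sub, smul_zero, map_neg, map_sub] at e1 e2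
  have hc : H c = K • ξ + (2 : ℝ) • H ξ := by
    linear_combination (norm := module) (-1 : ℝ) • e1
  rw [hc] at e2
  have e3 : (τ * K) • ξ = -((1 + 2 * τ) • H ξ) := by
    linear_combination (norm := module) (-1 : ℝ) • e2
  by_contra hξ
  have hn : 0 < ‖ξ‖ := norm_pos_iff.2 hξ
  have h5 : (τ * K) * ‖ξ‖ ≤ (1 + 2 * τ) * (h * ‖ξ‖) := by
    have h6 : ‖(τ * K) • ξ‖ = ‖(1 + 2 * τ) • H ξ‖ := by rw [e3, norm_neg]
    rw [norm_smul, norm_smul, Real.norm_eq_abs, Real.norm_eq_abs, abs_of_pos (by positivity : 0 < 1 + 2 * τ)] at h6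
    have h7 : τ * K ≤ |τ * K| := le_abs_self _
    calc (τ * K) * ‖ξ‖ ≤ |τ * K| * ‖ξ‖ := mul_le_mul_of_nonneg_right h7 hn.le
      _ = (1 + 2 * τ) * ‖H ξ‖ := h6
      _ ≤ _ := mul_le_mul_of_nonneg_left (hH ξ) (by positivity)
  nlinarith

theorem lin_B (hH : ∀ ξ, ‖H ξ‖ ≤ h * ‖ξ‖) (hτ : 0 ≤ τ) (hh : 0 ≤ h) (hK0 : 0 ≤ K)
    (hK : (3 + τ) * K * h + (1 + 2 * τ) * (h * h) < K * K)
    {ξ a c : E} (e1 : K • ξ + H (ξ - a) + H (ξ - c) = 0) (e2 : K • a - H (ξ - a) + τ • H (a - c) = 0)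
    (hc : c = 0) : ξ = 0 := by
  subst hc
  simp only [sub_zero, map_sub] at e1 e2
  have ha : H a = K • ξ + (2 : ℝ) • H ξ := by
    linear_combination (norm := module) (-1 : ℝ) • e1
  have e3 := congrArg H e2
  simp only [map_add, map_sub, map_smul, map_zero] at e3
  rw [ha] at e3
  simp only [map_add, map_smul] at e3
  have e4 : (K * K) • ξ = -(((3 + τ) * K) • H ξ + (1 + 2 * τ) • H (H ξ)) := by
    linear_combination (norm := module) e3
  by_contra hξ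
  have hn : 0 < ‖ξ‖ := norm_pos_iff.2 hξ
  have h5 : (K * K) * ‖ξ‖ ≤ (3 + τ) * K * (h * ‖ξ‖) + (1 + 2 * τ) * (h * (h * ‖ξ‖)) := by
    have h6 : ‖(K * K) • ξ‖ = (K * K) * ‖ξ‖ := by
      rw [norm_smul, Real.norm_eq_abs, abs_of_nonneg (by positivity)]
    rw [← h6, e4, norm_neg]
    calc _ ≤ ‖((3 + τ) * K) • H ξ‖ + ‖(1 + 2 * τ) • H (H ξ)‖ := norm_add_le _ _
      _ ≤ _ := by
        rw [norm_smul, norm_smul, Real.norm_eq_abs, Real.norm_eq_abs,
          abs_of_nonneg (by positivity), abs_of_nonneg (by positivity)]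
        have h7 := hH ξ
        have h8 := hH (H ξ)
        have h9 : h * ‖H ξ‖ ≤ h * (h * ‖ξ‖) := mul_le_mul_of_nonneg_left h7 hh
        apply add_le_add
        · exact mul_le_mul_of_nonneg_left h7 (by positivity)
        · exact mul_le_mul_of_nonneg_left (h8.trans h9) (by positivity)
  nlinarith

theorem lin_Phi (hH : ∀ ξ, ‖H ξ‖ ≤ h * ‖ξ‖) (hinj : ∀ {ξ}, H ξ = 0 → ξ = 0) (hτ : 0 ≤ τ)
    (hK : (1 + 2 * τ) * h < K) {a c : E}
    (e1 : K • (0 : E) + H (0 - a) + H (0 - c) = 0) (e2 : K • a - H (0 - a) + τ • H (a - c) = 0) :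
    a = 0 ∧ c = 0 := by
  simp only [smul_zero, zero_add, zero_sub, map_neg, map_sub] at e1 e2
  have hc : H c = -H a := by
    linear_combination (norm := module) (-1 : ℝ) • e1
  rw [hc] at e2
  have e3 : K • a = -((1 + 2 * τ) • H a) := by
    linear_combination (norm := module) e2
  have ha : a = 0 := by
    by_contra ha
    have hn : 0 < ‖a‖ := norm_pos_iff.2 ha
    have h5 : K * ‖a‖ ≤ (1 + 2 * τ) * (h * ‖a‖) := by
      have h6 : ‖K • a‖ = ‖(1 + 2 * τ) • H a‖ := by rw [e3, norm_neg]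
      rw [norm_smul, norm_smul, Real.norm_eq_abs, Real.norm_eq_abs,
        abs_of_pos (by positivity : 0 < 1 + 2 * τ)] at h6
      calc K * ‖a‖ ≤ |K| * ‖a‖ := mul_le_mul_of_nonneg_right (le_abs_self _) hn.le
        _ = (1 + 2 * τ) * ‖H a‖ := h6
        _ ≤ _ := mul_le_mul_of_nonneg_left (hH a) (by positivity)
    nlinarith
  refine ⟨ha, hinj ?_⟩
  rw [hc, ha]; simp

end Linear

theorem exists_equiv_of_injective {V : Type*} [NormedAddCommGroup V] [NormedSpace ℝ V]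
    [FiniteDimensional ℝ V] (L : V →L[ℝ] V) (h : Function.Injective L) :
    ∃ e : V ≃L[ℝ] V, (e : V →L[ℝ] V) = L := by
  let e₀ : V ≃ₗ[ℝ] V := LinearEquiv.ofInjectiveEndo (L : V →ₗ[ℝ] V) h
  refine ⟨e₀.toContinuousLinearEquiv, ?_⟩
  ext v
  rfl

/-- The constant `τ`. -/
noncomputable def tauC (s : ℝ) : ℝ := (4 : ℝ) ^ (-s / 2 - 1)

theorem tauC_pos (s : ℝ) : 0 < tauC s := Real.rpow_pos_of_pos (by norm_num) _

theorem tauC_le {s : ℝ} (hs : 0 ≤ s) : tauC s ≤ 1 / 4 := by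
  unfold tauC
  have h1 : (4 : ℝ) ^ (-s / 2 - 1) ≤ (4 : ℝ) ^ (-1 : ℝ) :=
    Real.rpow_le_rpow_of_exponent_le (by norm_num) (by linarith)
  rw [Real.rpow_neg_one] at h1
  linarith

/-- The base point. -/
def basePt (b : E) : E × E × E := (0, b, -b)

theorem PhiDeriv_base_apply {s K : ℝ} {b : E} (hb : ‖b‖ = 1) (q : E × E × E) :
    PhiDeriv s K (basePt b) q =
      (q.1, K • q.1 + Hb s b (q.1 - q.2.1) + Hb s b (q.1 - q.2.2),
        K • q.2.1 - Hb s b (q.1 - q.2.1) + tauC s • Hb s b (q.2.1 - q.2.2)) := by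
  have h1 : HessG s ((basePt b).1 - (basePt b).2.1) = Hb s b := by
    simp only [basePt, zero_sub]; rw [HessG_neg, HessG_unit hb]
  have h2 : HessG s ((basePt b).1 - (basePt b).2.2) = Hb s b := by
    simp only [basePt, zero_sub, neg_neg]; rw [HessG_unit hb]
  have h3 : HessG s ((basePt b).2.1 - (basePt b).2.2) = tauC s • Hb s b := by
    simp only [basePt, sub_neg_eq_add]; rw [HessG_two hb]; rfl
  simp only [PhiDeriv, h1, h2, h3]
  rfl

/-- The vector `ℓ`. -/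
noncomputable def ellVec (s : ℝ) (b : E) : E := Dg s b + Dg s (b + b)

theorem PhiMap_base (s K : ℝ) (b : E) :
    PhiMap s K b (ellVec s b) (basePt b) = (0, 0, 0) := by
  simp only [PhiMap, basePt, eqOne, eqTwo, ellVec, zero_sub, sub_neg_eq_add, sub_self, smul_zero,
    zero_add, Dg_neg, neg_neg, neg_add_cancel]
  congr 2
  abel

/-- The large constant. -/
noncomputable def bigK (s : ℝ) : ℝ :=
  3 * s * (2 : ℝ) ^ (s + 2) + 3 * hbConst s / tauC s + 6 * hbConst s + 1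

theorem hbConst_nonneg {s : ℝ} (hs : 0 ≤ s) : 0 ≤ hbConst s := by
  unfold hbConst; positivity

theorem bigK_gt {s : ℝ} (hs : 0 ≤ s) : 3 * s * (2 : ℝ) ^ (s + 2) < bigK s := by
  unfold bigK
  have := hbConst_nonneg hs
  have := tauC_pos s
  have : 0 ≤ 3 * hbConst s / tauC s := by positivity
  linarith

theorem bigK_C2 {s : ℝ} (hs : 0 ≤ s) : (1 + 2 * tauC s) * hbConst s < bigK s := by
  have h0 := hbConst_nonneg hs
  have h1 := tauC_pos s
  have h2 := tauC_le hs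
  have h3 : 0 ≤ 3 * hbConst s / tauC s := by positivity
  have h4 : 0 ≤ 3 * s * (2 : ℝ) ^ (s + 2) := by positivity
  unfold bigK
  nlinarith

theorem bigK_C3 {s : ℝ} (hs : 0 ≤ s) : (1 + 2 * tauC s) * hbConst s < tauC s * bigK s := by
  have h0 := hbConst_nonneg hs
  have h1 := tauC_pos s
  have h2 := tauC_le hs
  have h4 : 0 ≤ 3 * s * (2 : ℝ) ^ (s + 2) := by positivity
  have e : tauC s * bigK s = tauC s * (3 * s * (2 : ℝ) ^ (s + 2)) + 3 * hbConst s
      + tauC s * (6 * hbConst s + 1) := by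
    unfold bigK
    field_simp
    ring
  rw [e]
  have h5 : 0 ≤ tauC s * (3 * s * (2 : ℝ) ^ (s + 2)) := by positivity
  have h6 : 0 < tauC s * (6 * hbConst s + 1) := by positivity
  nlinarith

theorem bigK_C4 {s : ℝ} (hs : 0 ≤ s) :
    (3 + tauC s) * bigK s * hbConst s + (1 + 2 * tauC s) * (hbConst s * hbConst s)
      < bigK s * bigK s := by
  have h0 := hbConst_nonneg hs
  have h1 := tauC_pos s
  have h2 := tauC_le hs
  have h3 : 0 ≤ 3 * hbConst s / tauC s := by positivity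
  have h4 : 0 ≤ 3 * s * (2 : ℝ) ^ (s + 2) := by positivity
  have hK : 6 * hbConst s + 1 ≤ bigK s := by unfold bigK; linarith
  have hK0 : 0 < bigK s := by linarith
  have a1 : (3 + tauC s) * bigK s * hbConst s ≤ 4 * bigK s * hbConst s := by
    have : (3 + tauC s) ≤ 4 := by linarith
    have h5 : 0 ≤ bigK s * hbConst s := by positivity
    nlinarith
  have a2 : (1 + 2 * tauC s) * (hbConst s * hbConst s) ≤ 2 * (hbConst s * hbConst s) := by
    have : (1 + 2 * tauC s) ≤ 2 := by linarith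
    have h5 : 0 ≤ hbConst s * hbConst s := by positivity
    nlinarith
  nlinarith

/-- Existence of the local solution `Y, Z` of the critical point equations. -/
theorem exists_local_solution [FiniteDimensional ℝ E] {s : ℝ} (hs : 0 < s) {b : E} (hb : ‖b‖ = 1) :
    ∃ (Y Z : E → E) (A B : E ≃L[ℝ] E), Y 0 = b ∧ Z 0 = -b ∧
      HasFDerivAt Y (A : E →L[ℝ] E) 0 ∧ HasFDerivAt Z (B : E →L[ℝ] E) 0 ∧
      ∀ᶠ x in 𝓝 (0 : E), ContDiffAt ℝ ∞ Y x ∧ ContDiffAt ℝ ∞ Z x ∧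
        eqOne s (bigK s) x (Y x) (Z x) = 0 ∧
        eqTwo s (bigK s) b (ellVec s b) x (Y x) (Z x) = 0 := by
  have : CompleteSpace E := FiniteDimensional.complete ℝ E
  set K := bigK s with hKdef
  set τ := tauC s with hτdef
  set h := hbConst s with hhdef
  have hτ0 : 0 ≤ τ := (tauC_pos s).le
  have hH : ∀ ξ, ‖Hb s b ξ‖ ≤ h * ‖ξ‖ := norm_Hb_le hs.le hb
  have hbne : b ≠ 0 := by
    intro h0; rw [h0, norm_zero] at hb; exact zero_ne_one hb
  set ℓ := ellVec s b with hℓ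
  set Φ : E × E × E → E × E × E := PhiMap s K b ℓ with hΦdef
  set p₀ : E × E × E := basePt b with hp₀
  have h1 : p₀.1 ≠ p₀.2.1 := by simp only [hp₀, basePt]; exact hbne.symm
  have h2 : p₀.1 ≠ p₀.2.2 := by simp only [hp₀, basePt]; exact (neg_ne_zero.2 hbne).symm
  have h3 : p₀.2.1 ≠ p₀.2.2 := by
    simp only [hp₀, basePt]
    intro h'
    have : b + b = 0 := by
      have h'' : b = -b := h'
      nth_rewrite 1 [h'']
      simp
    rw [← two_smul ℝ b] at this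
    exact hbne ((smul_eq_zero.1 this).resolve_left (by norm_num))
  -- smoothness near the base point
  have hsmooth : ∀ᶠ p in 𝓝 p₀, ContDiffAt ℝ ∞ Φ p := by
    have c1 : Continuous (fun p : E × E × E => p.1) := continuous_fst
    have c2 : Continuous (fun p : E × E × E => p.2.1) := continuous_fst.comp continuous_snd
    have c3 : Continuous (fun p : E × E × E => p.2.2) := continuous_snd.comp continuous_snd
    have e1 : ∀ᶠ p in 𝓝 p₀, (p : E × E × E).1 ≠ p.2.1 := (isOpen_ne_fun c1 c2).mem_nhds h1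
    have e2 : ∀ᶠ p in 𝓝 p₀, (p : E × E × E).1 ≠ p.2.2 := (isOpen_ne_fun c1 c3).mem_nhds h2
    have e3 : ∀ᶠ p in 𝓝 p₀, (p : E × E × E).2.1 ≠ p.2.2 := (isOpen_ne_fun c2 c3).mem_nhds h3
    filter_upwards [e1, e2, e3] with p hp1 hp2 hp3
    exact contDiffAt_PhiMap s K b ℓ hp1 hp2 hp3
  -- the derivative at the base point
  have hderiv : HasFDerivAt Φ (PhiDeriv s K p₀) p₀ := hasFDerivAt_PhiMap s K b ℓ h1 h2 h3
  have hinj : Function.Injective (PhiDeriv s K p₀) := by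
    rw [injective_iff_map_eq_zero]
    rintro ⟨ξ, η, ζ⟩ hq
    rw [hp₀, PhiDeriv_base_apply hb] at hq
    simp only [Prod.mk_eq_zero] at hq
    obtain ⟨hξ, he1, he2⟩ := hq
    subst hξ
    obtain ⟨ha, hc⟩ := lin_Phi hH (fun {ξ} hξ => Hb_injective hs hb hξ) hτ0 (bigK_C2 hs.le) he1 he2
    subst ha; subst hc
    rfl
  obtain ⟨L', hL'⟩ := exists_equiv_of_injective (PhiDeriv s K p₀) hinj
  rw [← hL'] at hderiv
  obtain ⟨e, hsrc, hcoe, -, hsymm⟩ := exists_smooth_chart hsmooth hderiv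
  -- the inverse map and the section
  let J : E → E × E × E := fun x => (x, 0, 0)
  have hJ0 : J 0 = Φ p₀ := by
    rw [hΦdef, hp₀, PhiMap_base]
  have hJ0' : J 0 = e p₀ := by rw [hcoe]; exact hJ0
  have htarget : J 0 ∈ e.target := by rw [hJ0']; exact e.map_source hsrc
  have hleft : e.symm (J 0) = p₀ := by rw [hJ0']; exact e.left_inv hsrc
  let JL : E →L[ℝ] E × E × E := ContinuousLinearMap.inl ℝ E (E × E)
  have hJL : ∀ x, JL x = J x := fun x => rfl
  have hJcont : Continuous J := JL.continuous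
  have hevt : ∀ᶠ x in 𝓝 (0 : E), J x ∈ e.target :=
    hJcont.continuousAt.eventually (e.open_target.mem_nhds htarget)
  -- identities on the section
  have hid : ∀ x, J x ∈ e.target → Φ (e.symm (J x)) = J x := by
    intro x hx
    rw [← hcoe]
    exact e.right_inv hx
  let Y : E → E := fun x => (e.symm (J x)).2.1
  let Z : E → E := fun x => (e.symm (J x)).2.2
  have hder0 : HasFDerivAt e.symm (L'.symm : E × E × E →L[ℝ] E × E × E) (J 0) := by
    apply e.hasFDerivAt_symm htarget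
    rw [hleft, hcoe]
    exact hderiv
  have hderJ : HasFDerivAt J JL 0 := JL.hasFDerivAt
  have hcomp : HasFDerivAt (fun x => e.symm (J x))
      ((L'.symm : E × E × E →L[ℝ] E × E × E).comp JL) 0 :=
    HasFDerivAt.comp (0 : E) hder0 hderJ
  let A₀ : E →L[ℝ] E := (pr2 (E := E)).comp ((L'.symm : E × E × E →L[ℝ] E × E × E).comp JL)
  let B₀ : E →L[ℝ] E := (pr3 (E := E)).comp ((L'.symm : E × E × E →L[ℝ] E × E × E).comp JL)
  have hY0 : HasFDerivAt Y A₀ 0 := (pr2 (E := E)).hasFDerivAt.comp (0 : E) hcomp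
  have hZ0 : HasFDerivAt Z B₀ 0 := (pr3 (E := E)).hasFDerivAt.comp (0 : E) hcomp
  -- the linear relations
  have hrel : ∀ ξ, (L'.symm (ξ, 0, 0)).1 = ξ ∧
      K • ξ + Hb s b (ξ - A₀ ξ) + Hb s b (ξ - B₀ ξ) = 0 ∧
      K • A₀ ξ - Hb s b (ξ - A₀ ξ) + τ • Hb s b (A₀ ξ - B₀ ξ) = 0 := by
    intro ξ
    have h0 : PhiDeriv s K p₀ (L'.symm (ξ, 0, 0)) = (ξ, 0, 0) := by
      rw [← hL']; exact L'.apply_symm_apply _
    rw [hp₀, PhiDeriv_base_apply hb] at h0
    simp only [Prod.mk.injEq] at h0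
    obtain ⟨h01, h02, h03⟩ := h0
    have eA : A₀ ξ = (L'.symm (ξ, 0, 0)).2.1 := rfl
    have eB : B₀ ξ = (L'.symm (ξ, 0, 0)).2.2 := rfl
    rw [eA, eB]
    rw [h01] at h02 h03
    exact ⟨h01, h02, h03⟩
  have hAinj : Function.Injective A₀ := by
    rw [injective_iff_map_eq_zero]
    intro ξ hξ
    obtain ⟨-, r1, r2⟩ := hrel ξ
    exact lin_A hH hτ0 (bigK_C3 hs.le) r1 r2 hξ
  have hBinj : Function.Injective B₀ := by
    rw [injective_iff_map_eq_zero]
    intro ξ hξ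
    obtain ⟨-, r1, r2⟩ := hrel ξ
    have hK0 : 0 ≤ K := by
      have := bigK_gt hs.le
      have h5 : 0 ≤ 3 * s * (2 : ℝ) ^ (s + 2) := by positivity
      linarith
    exact lin_B hH hτ0 (hbConst_nonneg hs.le) hK0 (bigK_C4 hs.le) r1 r2 hξ
  obtain ⟨A, hA⟩ := exists_equiv_of_injective A₀ hAinj
  obtain ⟨B, hB⟩ := exists_equiv_of_injective B₀ hBinj
  refine ⟨Y, Z, A, B, ?_, ?_, ?_, ?_, ?_⟩
  · change (e.symm (J 0)).2.1 = b
    rw [hleft]; rfl
  · change (e.symm (J 0)).2.2 = -b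
    rw [hleft]; rfl
  · rw [hA]; exact hY0
  · rw [hB]; exact hZ0
  · filter_upwards [hevt] with x hx
    have hs1 : ContDiffAt ℝ ∞ (fun x => e.symm (J x)) x := by
      have : ContDiffAt ℝ ∞ J x := JL.contDiff.contDiffAt
      exact ContDiffAt.comp x (hsymm _ hx) this
    have hc2 : ContDiffAt ℝ ∞ Y x := ((pr2 (E := E)).contDiff.contDiffAt).comp x hs1
    have hc3 : ContDiffAt ℝ ∞ Z x := ((pr3 (E := E)).contDiff.contDiffAt).comp x hs1
    have hid' := hid x hx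
    have hfst : (e.symm (J x)).1 = x := congrArg Prod.fst hid'
    have he1 : eqOne s K (e.symm (J x)).1 (e.symm (J x)).2.1 (e.symm (J x)).2.2 = 0 :=
      congrArg (fun q : E × E × E => q.2.1) hid'
    have he2 : eqTwo s K b ℓ (e.symm (J x)).1 (e.symm (J x)).2.1 (e.symm (J x)).2.2 = 0 :=
      congrArg (fun q : E × E × E => q.2.2) hid'
    rw [hfst] at he1 he2
    exact ⟨hc2, hc3, he1, he2⟩

end Crest.Agent.Lib.OTM
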