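import Crest.Agent.Lib.OTM.Geometry
import Crest.Agent.Lib.OTM.Chart

/-!
Existence of the local data: charts and all the smallness conditions near the origin.
-/

set_option autoImplicit false
set_option linter.unusedSectionVars false
set_option linter.unusedVariables false

namespace Crest.Agent.Lib.OTM

open scoped ContDiff Topology RealInnerProductSpace
open Set Filter

section

variable {E : Type*} [NormedAddCommGroup E] [InnerProductSpace ℝ E]

theorem continuousAt_gr {s : ℝ} {w : E} (hw : w ≠ 0) : ContinuousAt (gr s) w := by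
  unfold gr
  apply ContinuousAt.rpow_const (by fun_prop)
  left
  have : ‖w‖ ≠ 0 := norm_ne_zero_iff.2 hw
  positivity

theorem ev_lt {f : E → ℝ} {a : E} (hc : ContinuousAt f a) {c : ℝ} (h : f a < c) :
    ∀ᶠ x in 𝓝 a, f x < c :=
  hc.eventually_lt continuousAt_const h

theorem continuous_vPot (K : ℝ) (b ℓ : E) : Continuous (vPot K b ℓ) := by
  unfold vPot
  fun_prop

theorem continuous_wPot (α K : ℝ) : Continuous (wPot (E := E) α K) := by
  unfold wPot
  fun_prop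

/-- The `R`-conjugate of a map smooth near the origin. -/
theorem conj_props (R : E ≃ₗᵢ[ℝ] E) {Y : E → E} {A : E ≃L[ℝ] E}
    (hev : ∀ᶠ x in 𝓝 (0 : E), ContDiffAt ℝ ∞ Y x) (hY : HasFDerivAt Y (A : E →L[ℝ] E) 0) :
    (∀ᶠ x in 𝓝 (0 : E), ContDiffAt ℝ ∞ (fun x => R (Y (R x))) x) ∧
      ∃ A' : E ≃L[ℝ] E, HasFDerivAt (fun x => R (Y (R x))) (A' : E →L[ℝ] E) 0 := by
  let RL : E ≃L[ℝ] E := R.toContinuousLinearEquiv
  have hRc : ∀ x, ContDiffAt ℝ ∞ (RL : E → E) x := fun x => RL.contDiff.contDiffAt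
  have hRe : ∀ x, RL x = R x := fun x => rfl
  constructor
  · have h0 : Tendsto (fun x => R x) (𝓝 (0 : E)) (𝓝 0) := by
      have := R.continuous.tendsto 0
      rwa [map_zero] at this
    filter_upwards [h0.eventually hev] with x hx
    exact (hRc (Y (R x))).comp x (ContDiffAt.comp x hx (hRc x))
  · refine ⟨RL.trans (A.trans RL), ?_⟩
    have h1 : HasFDerivAt (RL : E → E) (RL : E →L[ℝ] E) 0 := RL.hasFDerivAt
    have h2 : HasFDerivAt Y (A : E →L[ℝ] E) (RL 0) := by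
      rw [map_zero]; exact hY
    have h3 := h2.comp 0 h1
    have h4 : HasFDerivAt (RL : E → E) (RL : E →L[ℝ] E) ((Y ∘ (RL : E → E)) 0) := RL.hasFDerivAt
    have h5 := h4.comp 0 h3
    have e : ((RL.trans (A.trans RL) : E ≃L[ℝ] E) : E →L[ℝ] E) =
        (RL : E →L[ℝ] E).comp ((A : E →L[ℝ] E).comp (RL : E →L[ℝ] E)) := by
      ext x; rfl
    rw [e]
    exact h5

theorem fin4_forall {P : Fin 4 → Prop} (h0 : P 0) (h1 : P 1) (h2 : P 2) (h3 : P 3) : ∀ k, P k := by
  intro k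
  fin_cases k
  · exact h0
  · exact h1
  · exact h2
  · exact h3

variable [FiniteDimensional ℝ E]

/-- The local data exist. -/
theorem exists_local_data {s : ℝ} (hs : 0 < s) {b : E} (hb : ‖b‖ = 1) (R : E ≃ₗᵢ[ℝ] E)
    (hR : ∀ x, R (R x) = x) (hbR : ⟪b, R b⟫ = 0) :
    ∃ (ρ₀ ε r₁ : ℝ) (Y Z : E → E) (e : Fin 4 → OpenPartialHomeomorph E E),
      LocalData s (bigK s) b R ρ₀ ε r₁ Y Z ∧
      (⇑(e 0) = Y) ∧ (⇑(e 1) = Z) ∧ (⇑(e 2) = fun x => R (Y (R x))) ∧
      (⇑(e 3) = fun x => R (Z (R x))) ∧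
      (∀ k, Metric.ball (0 : E) r₁ ⊆ (e k).source) ∧
      (∀ k, ∀ x ∈ (e k).source, ∃ A : E ≃L[ℝ] E, HasFDerivAt (e k) (A : E →L[ℝ] E) x) ∧
      (∀ k, ∀ y ∈ (e k).target, ContDiffAt ℝ ∞ (e k).symm y) := by
  have : CompleteSpace E := FiniteDimensional.complete ℝ E
  obtain ⟨ρ₀, ε, h1, h2, h3, B1, B2, B3⟩ := exists_constants hs
  obtain ⟨Y, Z, A, B, hY0, hZ0, hYd, hZd, hev⟩ := exists_local_solution hs hb
  set K := bigK s with hK
  set ℓ := ellVec s b with hℓ
  set α : ℝ := 2 + (2 : ℝ) ^ (-s) with hα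
  have hb0 : b ≠ 0 := by
    intro h; rw [h, norm_zero] at hb; norm_num at hb
  have hbb : b + b ≠ 0 := by
    intro h
    have : (2 : ℝ) • b = 0 := by rw [two_smul]; exact h
    rcases smul_eq_zero.1 this with h | h
    · norm_num at h
    · exact hb0 h
  have hYc : ContinuousAt Y 0 := hYd.continuousAt
  have hZc : ContinuousAt Z 0 := hZd.continuousAt
  -- charts
  have hYev : ∀ᶠ x in 𝓝 (0 : E), ContDiffAt ℝ ∞ Y x := hev.mono fun x hx => hx.1
  have hZev : ∀ᶠ x in 𝓝 (0 : E), ContDiffAt ℝ ∞ Z x := hev.mono fun x hx => hx.2.1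
  obtain ⟨hY'ev, A', hY'd⟩ := conj_props R hYev hYd
  obtain ⟨hZ'ev, B', hZ'd⟩ := conj_props R hZev hZd
  obtain ⟨e₀, h00, he₀, he₀a, he₀b⟩ := exists_smooth_chart hYev hYd
  obtain ⟨e₁, h01, he₁, he₁a, he₁b⟩ := exists_smooth_chart hZev hZd
  obtain ⟨e₂, h02, he₂, he₂a, he₂b⟩ := exists_smooth_chart hY'ev hY'd
  obtain ⟨e₃, h03, he₃, he₃a, he₃b⟩ := exists_smooth_chart hZ'ev hZ'd
  -- smallness
  have n1 : ∀ᶠ x in 𝓝 (0 : E), ‖Y x - b‖ < ρ₀ := by
    apply ev_lt (f := fun x => ‖Y x - b‖) (by fun_prop)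
    simpa [hY0] using h1
  have n2 : ∀ᶠ x in 𝓝 (0 : E), ‖Z x + b‖ < ρ₀ := by
    apply ev_lt (f := fun x => ‖Z x + b‖) (by fun_prop)
    simpa [hZ0] using h1
  have n3 : ∀ᶠ x in 𝓝 (0 : E), |vPot K b ℓ (Y x)| < ε := by
    apply ev_lt (f := fun x => |vPot K b ℓ (Y x)|)
    · exact ((continuous_vPot K b ℓ).continuousAt.comp hYc).abs
    · simpa [hY0, vPot] using h3
  have n4 : ∀ᶠ x in 𝓝 (0 : E), |potZ s K α b ℓ Y Z x| < ε := by
    apply ev_lt (f := fun x => |potZ s K α b ℓ Y Z x|)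
    · apply ContinuousAt.abs
      unfold potZ cr
      refine ContinuousAt.sub (ContinuousAt.sub (ContinuousAt.add (ContinuousAt.add ?_ ?_) ?_) ?_) ?_
      · refine ContinuousAt.comp (f := fun x => x - Y x) (g := gr s) ?_ (by fun_prop)
        apply continuousAt_gr
        simpa [hY0] using hb0
      · refine ContinuousAt.comp (f := fun x => x - Z x) (g := gr s) ?_ (by fun_prop)
        apply continuousAt_gr
        simpa [hZ0] using hb0
      · refine ContinuousAt.comp (f := fun x => Y x - Z x) (g := gr s) ?_ (by fun_prop)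
        apply continuousAt_gr
        simpa [hY0, hZ0] using hbb
      · exact (continuous_wPot α K).continuousAt
      · exact (continuous_vPot K b ℓ).continuousAt.comp hYc
    · have e0 : potZ s K α b ℓ Y Z 0 = 0 := by
        unfold potZ
        rw [hY0, hZ0, cr_eval_base hb]
        simp [wPot, vPot, hα]
      simpa [e0] using h3
  have n5 : ∀ᶠ x in 𝓝 (0 : E), K / 2 * ‖x‖ ^ 2 < ε := by
    apply ev_lt (f := fun x => K / 2 * ‖x‖ ^ 2) (by fun_prop)
    simpa using h3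
  have n6 : ∀ᶠ x in 𝓝 (0 : E), x ∈ e₀.source := e₀.open_source.mem_nhds h00
  have n7 : ∀ᶠ x in 𝓝 (0 : E), x ∈ e₁.source := e₁.open_source.mem_nhds h01
  have n8 : ∀ᶠ x in 𝓝 (0 : E), x ∈ e₂.source := e₂.open_source.mem_nhds h02
  have n9 : ∀ᶠ x in 𝓝 (0 : E), x ∈ e₃.source := e₃.open_source.mem_nhds h03
  obtain ⟨r, hr, hball⟩ := Metric.eventually_nhds_iff_ball.1
    (hev.and (n1.and (n2.and (n3.and (n4.and (n5.and (n6.and (n7.and (n8.and n9)))))))))
  set r₁ := min r ρ₀ with hr₁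
  have hr₁pos : 0 < r₁ := lt_min hr h1
  have hsub : ∀ {x : E}, x ∈ Metric.ball (0 : E) r₁ → x ∈ Metric.ball (0 : E) r :=
    fun hx => Metric.ball_subset_ball (min_le_left _ _) hx
  have hRball : ∀ {x : E}, x ∈ Metric.ball (0 : E) r₁ → R x ∈ Metric.ball (0 : E) r₁ := by
    intro x hx
    rw [mem_ball_zero_iff, R.norm_map]
    simpa using hx
  refine ⟨ρ₀, ε, r₁, Y, Z, ![e₀, e₁, e₂, e₃], ?_, he₀, he₁, he₂, he₃, ?_, ?_, ?_⟩
  · refine ⟨hs, bigK_gt hs.le, hb, hR, hbR, h1, h2, h3, B1, B2, B3, hr₁pos, min_le_right _ _,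
      ?_, ?_, ?_, ?_, ?_, ?_, ?_⟩
    · exact fun x hx => (hball x (hsub hx)).1.2.2.1
    · exact fun x hx => (hball x (hsub hx)).1.2.2.2
    · exact fun x hx => (hball x (hsub hx)).2.1
    · exact fun x hx => (hball x (hsub hx)).2.2.1
    · exact fun x hx => (hball x (hsub hx)).2.2.2.1
    · exact fun x hx => (hball x (hsub hx)).2.2.2.2.1
    · exact fun x hx => (hball x (hsub hx)).2.2.2.2.2.1
  · apply fin4_forall
    · exact fun x hx => (hball x (hsub hx)).2.2.2.2.2.2.1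
    · exact fun x hx => (hball x (hsub hx)).2.2.2.2.2.2.2.1
    · exact fun x hx => (hball x (hsub hx)).2.2.2.2.2.2.2.2.1
    · exact fun x hx => (hball x (hsub hx)).2.2.2.2.2.2.2.2.2
  · apply fin4_forall
    · intro x hx
      have := (he₀a x hx).2
      rwa [← he₀] at this
    · intro x hx
      have := (he₁a x hx).2
      rwa [← he₁] at this
    · intro x hx
      have := (he₂a x hx).2
      rwa [← he₂] at this
    · intro x hx
      have := (he₃a x hx).2
      rwa [← he₃] at this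
  · apply fin4_forall
    · exact he₀b
    · exact he₁b
    · exact he₂b
    · exact he₃b

end

end Crest.Agent.Lib.OTM
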