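import Crest.Agent.Lib.OTM.Assemble
import Crest.Agent.Lib.OTM.Bump

/-!
The main theorem of the S0175 construction.
-/

set_option autoImplicit false
set_option linter.unusedSectionVars false
set_option linter.unusedVariables false

namespace Crest.Agent.Lib.OTM

open scoped ContDiff Topology RealInnerProductSpace ENNReal
open Set Filter MeasureTheory
open Crest.AnalysisR.OT

/-- The ambient Euclidean space. -/
abbrev EE (n : ℕ) := EuclideanSpace ℝ (Fin (n + 1))

theorem swapIso_involutive {n : ℕ} (i₀ i₁ : Fin (n + 1)) (x : EE n) :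
    LinearIsometryEquiv.piLpCongrLeft 2 ℝ ℝ (Equiv.swap i₀ i₁)
      (LinearIsometryEquiv.piLpCongrLeft 2 ℝ ℝ (Equiv.swap i₀ i₁) x) = x := by
  set R := LinearIsometryEquiv.piLpCongrLeft 2 ℝ ℝ (Equiv.swap i₀ i₁) with hR
  have : R.symm = R := by
    rw [hR, LinearIsometryEquiv.piLpCongrLeft_symm, Equiv.symm_swap]
  have h2 : R (R.symm x) = x := R.apply_symm_apply x
  rwa [this] at h2

theorem main_theorem (n : ℕ) (hn : 1 ≤ n) (s : ℝ) (hs : 0 < s) :
    ∃ ρ : EuclideanSpace ℝ (Fin (n + 1)) → ℝ, (∀ x, 0 ≤ ρ x) ∧ ContDiff ℝ ∞ ρ ∧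
      HasCompactSupport ρ ∧ ContDiff ℝ ∞ (fun x => Real.sqrt (ρ x)) ∧ ∫ x, ρ x = 1 ∧
      ∃ π₀ : Measure (EuclideanSpace ℝ (Fin (n + 1)) × EuclideanSpace ℝ (Fin (n + 1)) ×
          EuclideanSpace ℝ (Fin (n + 1))),
        IsCoupling₃ (measOfDensity ρ) π₀ ∧ ∫⁻ p, tripleCost s p ∂π₀ < ⊤ ∧
        (∀ π : Measure (EuclideanSpace ℝ (Fin (n + 1)) × EuclideanSpace ℝ (Fin (n + 1)) ×
            EuclideanSpace ℝ (Fin (n + 1))), IsCoupling₃ (measOfDensity ρ) π →
          ∫⁻ p, tripleCost s p ∂π₀ ≤ ∫⁻ p, tripleCost s p ∂π) ∧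
        (∀ T₂ T₃ : EuclideanSpace ℝ (Fin (n + 1)) → EuclideanSpace ℝ (Fin (n + 1)),
          Measurable T₂ → Measurable T₃ →
          (measOfDensity ρ).map T₂ = measOfDensity ρ → (measOfDensity ρ).map T₃ = measOfDensity ρ →
          ∫⁻ p, tripleCost s p ∂π₀ < ∫⁻ x, tripleCost s (x, T₂ x, T₃ x) ∂(measOfDensity ρ)) ∧
        (∀ ε : ℝ≥0∞, 0 < ε → ∃ T₂ T₃ : EuclideanSpace ℝ (Fin (n + 1)) →
            EuclideanSpace ℝ (Fin (n + 1)), Measurable T₂ ∧ Measurable T₃ ∧
          (measOfDensity ρ).map T₂ = measOfDensity ρ ∧ (measOfDensity ρ).map T₃ = measOfDensity ρ ∧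
          ∫⁻ x, tripleCost s (x, T₂ x, T₃ x) ∂(measOfDensity ρ) <
            ∫⁻ p, tripleCost s p ∂π₀ + ε) := by
  classical
  let i₀ : Fin (n + 1) := ⟨0, by omega⟩
  let i₁ : Fin (n + 1) := ⟨1, by omega⟩
  have hi : i₀ ≠ i₁ := by
    intro h
    have := congrArg Fin.val h
    simp [i₀, i₁] at this
  let b : EE n := EuclideanSpace.single i₀ 1
  let R : EE n ≃ₗᵢ[ℝ] EE n := LinearIsometryEquiv.piLpCongrLeft 2 ℝ ℝ (Equiv.swap i₀ i₁)
  have hR : ∀ x, R (R x) = x := swapIso_involutive i₀ i₁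
  have hb : ‖b‖ = 1 := by simp [b]
  have hRb : R b = EuclideanSpace.single i₁ 1 := by
    simp only [R, b]
    rw [EuclideanSpace.piLpCongrLeft_single, Equiv.swap_apply_left]
  have hbR : ⟪b, R b⟫ = 0 := by
    rw [hRb]
    simp only [b]
    rw [EuclideanSpace.inner_single_left]
    simp [hi.symm]
  obtain ⟨ρ₀, ε, r₁, Y, Z, e, D, he0, he1, he2, he3, hsrc, hder, hsym⟩ :=
    exists_local_data hs hb R hR hbR
  obtain ⟨f, hf, hf0, hfc, hfs, hmass, happ⟩ := exists_central_bump (n := n) trivial i₀ D.hr₁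
  choose φ hφm hφe using fun k => exists_measurable_ext (e k).open_source (e k).continuousOn
  choose ψ hψm hψe using fun k => exists_measurable_ext (e k).open_target (e k).continuousOn_symm
  have hball : IsOpen (Metric.ball (0 : EE n) r₁) := Metric.isOpen_ball
  have hYo : IsOpen (Y '' Metric.ball (0 : EE n) r₁) := by
    rw [← he0]
    exact (e 0).isOpen_image_of_subset_source hball (hsrc 0)
  have hZo : IsOpen (Z '' Metric.ball (0 : EE n) r₁) := by
    rw [← he1]
    exact (e 1).isOpen_image_of_subset_source hball (hsrc 1)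
  have H : Sheets D φ ψ := by
    refine ⟨hφm, hψm, ?_, ?_, ?_, ?_, ?_, (D.isOpen_outer hYo hZo).measurableSet⟩
    · intro x hx
      rw [hφe 0 x (hsrc 0 hx), he0]
    · intro x hx
      rw [hφe 1 x (hsrc 1 hx), he1]
    · intro x hx
      rw [hφe 2 x (hsrc 2 hx), he2]
    · intro x hx
      rw [hφe 3 x (hsrc 3 hx), he3]
    · intro k x hx
      have h1 := hsrc k hx
      rw [hφe k x h1, hψe k _ ((e k).map_source h1), (e k).left_inv h1]
  set ν := (volume : Measure (EE n)).withDensity (fun x => ENNReal.ofReal (f x ^ 2)) with hν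
  have hνfin : IsFiniteMeasure ν := ⟨by rw [hmass]; exact ENNReal.ofReal_lt_top⟩
  have hAo : IsOpen (Function.support f) := hf.continuous.isOpen_support
  have hA : Function.support f ⊆ Metric.ball (0 : EE n) r₁ :=
    (subset_tsupport f).trans hfs
  have hae : ∀ᵐ u ∂ν, u ∈ Function.support f := by
    have hm : Measurable (fun x => ENNReal.ofReal (f x ^ 2)) :=
      ENNReal.measurable_ofReal.comp (hf.continuous.measurable.pow_const 2)
    rw [hν, ae_withDensity_iff hm]
    refine Eventually.of_forall fun x hx => ?_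
    show f x ≠ 0
    intro h
    apply hx
    simp [h]
  obtain ⟨ρ, hρ0, hρs, hρc, hρr, hρν⟩ := density_package (volume : Measure (EE n)) hf hf0 hfc
    (φ := φ) D.BB_disj (fun x hx => D.ball_sub_BB (hA hx)) (by
      intro k
      obtain ⟨F, h1, h2, h3, h4, h5⟩ := exists_push_density (volume : Measure (EE n)) (e k)
        (hder k) (hsym k) hf hf0 hfc (hfs.trans (hsrc k)) (hφm k) (hφe k)
      refine ⟨F, h1, h2, h3, ?_, h5⟩
      intro y hy
      obtain ⟨x, hx, rfl⟩ := h4 (subset_tsupport F hy)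
      have hx' := hfs hx
      rw [← hφe k x (hsrc k hx')]
      exact H.maps_BB k hx')
  have hμ : measOfDensity ρ = totalMeasure ν φ := hρν
  refine ⟨ρ, hρ0, hρs, hρc, hρr, ?_, ?_⟩
  · rw [integral_eq_lintegral_of_nonneg_ae (Eventually.of_forall hρ0)
      hρs.continuous.aestronglyMeasurable]
    have e1 : ∫⁻ x, ENNReal.ofReal (ρ x) = measOfDensity ρ univ := by
      unfold measOfDensity
      rw [withDensity_apply _ MeasurableSet.univ, setLIntegral_univ]
    rw [e1, hμ, totalMeasure_univ hφm, hmass,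
      show (6 : ℝ≥0∞) = ENNReal.ofReal 6 by simp, ← ENNReal.ofReal_mul (by norm_num)]
    norm_num
  · rw [hμ]
    exact H.apply_abstract hmass hAo.measurableSet hA hae happ

end Crest.Agent.Lib.OTM
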