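import Crest.Agent.Lib.OTM.Doubling

/-!
Conjugating the doubling branches by the distribution function of a density `ψ²`.
-/

set_option autoImplicit false
set_option linter.unusedSectionVars false
set_option linter.unusedVariables false

namespace Crest.Agent.Lib.OTM

open MeasureTheory Set Filter Topology
open scoped ENNReal

/-- Extended distribution function. -/
noncomputable def cdfExt (ψ : ℝ → ℝ) (r t : ℝ) : ℝ :=
  (∫ u in (-r)..t, ψ u ^ 2) + max (t - r) 0 + min (t + r) 0

section

variable {ψ : ℝ → ℝ} {r : ℝ} (hψ : Continuous ψ) (hr : 0 < r)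
  (hpos : ∀ t ∈ Ioo (-r) r, ψ t ≠ 0) (hzero : ∀ t, t ∉ Ioo (-r) r → ψ t = 0)
  (hmass : ∫ u in (-r)..r, ψ u ^ 2 = 1)

include hψ in
theorem intervalIntegrable_sq (a b : ℝ) : IntervalIntegrable (fun u => ψ u ^ 2) volume a b :=
  (hψ.pow 2).intervalIntegrable a b

include hψ hr hpos in
theorem cdfExt_strictMono : StrictMono (cdfExt ψ r) := by
  intro s t hst
  have hg : Continuous fun u => ψ u ^ 2 := hψ.pow 2
  have hint := intervalIntegrable_sq hψ
  have hdiff : (∫ u in (-r)..t, ψ u ^ 2) - ∫ u in (-r)..s, ψ u ^ 2 = ∫ u in s..t, ψ u ^ 2 :=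
    intervalIntegral.integral_interval_sub_left (hint _ _) (hint _ _)
  have hnn : 0 ≤ ∫ u in s..t, ψ u ^ 2 :=
    intervalIntegral.integral_nonneg hst.le (fun u _ => by positivity)
  have hmax : max (s - r) 0 ≤ max (t - r) 0 := max_le_max (by linarith) le_rfl
  have hmin : min (s + r) 0 ≤ min (t + r) 0 := min_le_min (by linarith) le_rfl
  unfold cdfExt
  by_cases h1 : t ≤ -r
  · have e1 : min (t + r) 0 = t + r := min_eq_left (by linarith)
    have e2 : min (s + r) 0 = s + r := min_eq_left (by linarith)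
    rw [e1, e2]
    linarith
  by_cases h2 : r ≤ s
  · have e1 : max (t - r) 0 = t - r := max_eq_left (by linarith)
    have e2 : max (s - r) 0 = s - r := max_eq_left (by linarith)
    rw [e1, e2]
    linarith
  push Not at h1 h2
  have hI : 0 < ∫ u in s..t, ψ u ^ 2 := by
    set a := max s (-r) with ha
    set b := min t r with hb
    have hab : a < b := by
      rw [ha, hb]
      refine max_lt (lt_min hst h2) (lt_min h1 (by linarith))
    have hpos' : 0 < ∫ u in a..b, ψ u ^ 2 := by
      apply intervalIntegral.intervalIntegral_pos_of_pos_on (hint _ _) _ hab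
      intro u hu
      have h3 : -r < u := lt_of_le_of_lt (le_max_right _ _) hu.1
      have h4 : u < r := lt_of_lt_of_le hu.2 (min_le_right _ _)
      have := hpos u ⟨h3, h4⟩
      positivity
    have hmono : ∫ u in a..b, ψ u ^ 2 ≤ ∫ u in s..t, ψ u ^ 2 := by
      apply intervalIntegral.integral_mono_interval (le_max_left _ _) hab.le (min_le_left _ _)
      · exact Eventually.of_forall (fun u => by positivity)
      · exact hint _ _
    linarith
  linarith

include hψ in
theorem continuous_cdfExt : Continuous (cdfExt ψ r) := by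
  unfold cdfExt
  have h := intervalIntegral.continuous_primitive (intervalIntegrable_sq hψ) (-r)
  exact (h.add ((continuous_id.sub continuous_const).max continuous_const)).add
    ((continuous_id.add continuous_const).min continuous_const)

include hψ hr in
theorem cdfExt_surjective : Function.Surjective (cdfExt ψ r) := by
  apply (continuous_cdfExt hψ).surjective
  · apply tendsto_atTop_mono' atTop (f₁ := fun t => t - r)
    · filter_upwards [eventually_ge_atTop r] with t ht
      unfold cdfExt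
      have h1 : 0 ≤ ∫ u in (-r)..t, ψ u ^ 2 :=
        intervalIntegral.integral_nonneg (by linarith) (fun u _ => by positivity)
      have h2 : max (t - r) 0 = t - r := max_eq_left (by linarith)
      have h3 : min (t + r) 0 = 0 := min_eq_right (by linarith)
      rw [h2, h3]
      linarith
    · exact tendsto_atTop_add_const_right _ _ tendsto_id
  · apply tendsto_atBot_mono' atBot (f₁ := fun t => t + r)
    · filter_upwards [eventually_le_atBot (-r)] with t ht
      unfold cdfExt
      have h1 : ∫ u in (-r)..t, ψ u ^ 2 ≤ 0 := by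
        rw [intervalIntegral.integral_symm]
        have : 0 ≤ ∫ u in t..(-r), ψ u ^ 2 :=
          intervalIntegral.integral_nonneg ht (fun u _ => by positivity)
        linarith
      have h2 : max (t - r) 0 = 0 := max_eq_right (by linarith)
      have h3 : min (t + r) 0 = t + r := min_eq_left (by linarith)
      rw [h2, h3]
      linarith
    · exact tendsto_atBot_add_const_right _ _ tendsto_id

/-- The distribution function as a homeomorphism of the line. -/
noncomputable def cdfHomeo (hψ : Continuous ψ) (hr : 0 < r)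
    (hpos : ∀ t ∈ Ioo (-r) r, ψ t ≠ 0) : ℝ ≃ₜ ℝ :=
  ((cdfExt_strictMono hψ hr hpos).orderIsoOfSurjective _ (cdfExt_surjective hψ hr)).toHomeomorph

theorem cdfHomeo_apply (t : ℝ) : cdfHomeo hψ hr hpos t = cdfExt ψ r t := rfl

include hr in
theorem cdfExt_left : cdfExt ψ r (-r) = 0 := by
  unfold cdfExt
  have h2 : max (-r - r) 0 = 0 := max_eq_right (by linarith)
  have h3 : min (-r + r) 0 = 0 := by simp
  rw [h2, h3]
  simp

include hr hmass in
theorem cdfExt_right : cdfExt ψ r r = 1 := by
  unfold cdfExt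
  have h2 : max (r - r) 0 = 0 := by simp
  have h3 : min (r + r) 0 = 0 := min_eq_right (by linarith)
  rw [h2, h3, hmass]
  simp

include hψ hr hpos hmass in
theorem cdfHomeo_mem_iff (t : ℝ) : cdfHomeo hψ hr hpos t ∈ Ioo (0 : ℝ) 1 ↔ t ∈ Ioo (-r) r := by
  have hm := cdfExt_strictMono hψ hr hpos
  rw [cdfHomeo_apply]
  constructor
  · rintro ⟨h1, h2⟩
    constructor
    · rw [← cdfExt_left hr] at h1
      exact hm.lt_iff_lt.1 h1
    · rw [← cdfExt_right hr hmass] at h2
      exact hm.lt_iff_lt.1 h2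
  · rintro ⟨h1, h2⟩
    constructor
    · rw [← cdfExt_left (ψ := ψ) hr]
      exact hm h1
    · rw [← cdfExt_right (ψ := ψ) hr hmass]
      exact hm h2

include hψ hr in
theorem hasDerivAt_cdfExt {t : ℝ} (ht : t ∈ Ioo (-r) r) :
    HasDerivAt (cdfExt ψ r) (ψ t ^ 2) t := by
  have h1 : HasDerivAt (fun t => ∫ u in (-r)..t, ψ u ^ 2) (ψ t ^ 2) t :=
    intervalIntegral.integral_hasDerivAt_right (intervalIntegrable_sq hψ _ _)
      ((hψ.pow 2).stronglyMeasurableAtFilter _ _) (hψ.pow 2).continuousAt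
  apply h1.congr_of_eventuallyEq
  filter_upwards [Ioo_mem_nhds ht.1 ht.2] with x hx
  unfold cdfExt
  have h2 : max (x - r) 0 = 0 := max_eq_right (by linarith [hx.2])
  have h3 : min (x + r) 0 = 0 := min_eq_right (by linarith [hx.1])
  rw [h2, h3]
  simp

/-- The measure `ψ² dt`. -/
noncomputable def sqMeasure (ψ : ℝ → ℝ) : Measure ℝ :=
  volume.withDensity (fun t => ENNReal.ofReal (ψ t ^ 2))

include hψ hr hpos hzero hmass in
/-- The distribution function sends `ψ² dt` to the Lebesgue measure on the unit interval. -/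
theorem map_cdfHomeo :
    (sqMeasure ψ).map (cdfHomeo hψ hr hpos) = volume.restrict (Ioo (0 : ℝ) 1) := by
  set F := cdfHomeo hψ hr hpos with hF
  have hFm : Measurable F := F.continuous.measurable
  ext S hS
  rw [Measure.map_apply hFm hS, Measure.restrict_apply hS]
  unfold sqMeasure
  rw [withDensity_apply _ (hFm hS)]
  set s₁ : Set ℝ := F ⁻¹' S ∩ Ioo (-r) r with hs₁
  have hs₁m : MeasurableSet s₁ := (hFm hS).inter measurableSet_Ioo
  have hL : ∫⁻ t in F ⁻¹' S, ENNReal.ofReal (ψ t ^ 2) = ∫⁻ t in s₁, ENNReal.ofReal (ψ t ^ 2) := by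
    rw [← lintegral_inter_add_sdiff _ (F ⁻¹' S) measurableSet_Ioo]
    have h0 : ∫⁻ t in F ⁻¹' S \ Ioo (-r) r, ENNReal.ofReal (ψ t ^ 2) = 0 := by
      apply setLIntegral_eq_zero ((hFm hS).diff measurableSet_Ioo)
      intro t ht
      simp [hzero t ht.2]
    rw [h0, add_zero]
  have himg : F '' s₁ = S ∩ Ioo (0 : ℝ) 1 := by
    ext y
    constructor
    · rintro ⟨t, ⟨h1, h2⟩, rfl⟩
      exact ⟨h1, (cdfHomeo_mem_iff hψ hr hpos hmass t).2 h2⟩
    · rintro ⟨h1, h2⟩
      refine ⟨F.symm y, ⟨?_, ?_⟩, F.apply_symm_apply y⟩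
      · change F (F.symm y) ∈ S
        rw [F.apply_symm_apply]; exact h1
      · rw [← cdfHomeo_mem_iff hψ hr hpos hmass, ← hF, F.apply_symm_apply]; exact h2
  have hder : ∀ x ∈ s₁, HasDerivWithinAt F (ψ x ^ 2) s₁ x := fun x hx =>
    (hasDerivAt_cdfExt hψ hr hx.2).hasDerivWithinAt
  have hinj : InjOn F s₁ := F.injective.injOn
  have hcv := lintegral_image_eq_lintegral_abs_deriv_mul hs₁m hder hinj (fun _ => 1)
  simp only [mul_one, lintegral_one, Measure.restrict_apply MeasurableSet.univ, univ_inter] at hcv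
  rw [himg] at hcv
  rw [hL, hcv]
  apply setLIntegral_congr_fun hs₁m
  intro x hx
  simp only [abs_of_nonneg (sq_nonneg (ψ x))]

include hψ hr hpos hzero hmass in
/-- The 1D splitting theorem. -/
theorem oneDim_split {δ : ℝ} (hδ : 0 < δ) :
    ∃ (ιA ιB τA τB : ℝ → ℝ) (Q : Set ℝ), Measurable ιA ∧ Measurable ιB ∧ Measurable τA ∧
      Measurable τB ∧ MeasurableSet Q ∧
      (∀ t ∈ Ioo (-r) r, ιA t ∈ Ioo (-r) r ∧ ιA t ∈ Q) ∧
      (∀ t ∈ Ioo (-r) r, ιB t ∈ Ioo (-r) r ∧ ιB t ∉ Q) ∧
      (∀ t, τA (ιA t) = t) ∧ (∀ t, τB (ιB t) = t) ∧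
      (sqMeasure ψ).map ιA + (sqMeasure ψ).map ιB = (2 : ℝ≥0∞) • sqMeasure ψ ∧
      (∀ t ∈ Ioo (-r) r, |ιA t - t| ≤ δ ∧ |ιB t - t| ≤ δ) := by
  set F := cdfHomeo hψ hr hpos with hF
  set G := F.symm with hG
  have hFm : Measurable F := F.continuous.measurable
  have hGm : Measurable G := G.continuous.measurable
  -- uniform continuity of G on [0,1]
  have huc : UniformContinuousOn G (Icc (0 : ℝ) 1) :=
    isCompact_Icc.uniformContinuousOn_of_continuous G.continuous.continuousOn
  rw [Metric.uniformContinuousOn_iff] at huc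
  obtain ⟨η, hη, hGη⟩ := huc δ hδ
  obtain ⟨n, hn⟩ := exists_nat_gt (1 / η)
  have hn0 : (0 : ℝ) < n := lt_trans (by positivity) hn
  have hnpos : 0 < n := by exact_mod_cast hn0
  have hsmall : 1 / (2 * (n : ℝ)) < η := by
    rw [div_lt_iff₀ hη] at hn
    rw [div_lt_iff₀ (by positivity)]
    nlinarith
  let ιA : ℝ → ℝ := fun t => G (brA n (F t))
  let ιB : ℝ → ℝ := fun t => G (brB n (F t))
  let τA : ℝ → ℝ := fun t => G (invA n (F t))
  let τB : ℝ → ℝ := fun t => G (invB n (F t))
  let Q : Set ℝ := F ⁻¹' halfSet n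
  have hclose : ∀ (br : ℝ → ℝ), (∀ t ∈ Ioo (0 : ℝ) 1, br t ∈ Ioo (0 : ℝ) 1) →
      (∀ t, |br t - t| ≤ 1 / (2 * (n : ℝ))) → ∀ t ∈ Ioo (-r) r, |G (br (F t)) - t| ≤ δ := by
    intro br h1 h2 t ht
    have hFt : F t ∈ Ioo (0 : ℝ) 1 := (cdfHomeo_mem_iff hψ hr hpos hmass t).2 ht
    have h3 := h1 _ hFt
    have h4 : dist (br (F t)) (F t) < η := by
      rw [Real.dist_eq]
      exact lt_of_le_of_lt (h2 _) hsmall
    have h5 := hGη _ ⟨h3.1.le, h3.2.le⟩ _ ⟨hFt.1.le, hFt.2.le⟩ h4
    rw [Real.dist_eq] at h5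
    have h6 : G (F t) = t := F.symm_apply_apply t
    rw [h6] at h5
    exact h5.le
  refine ⟨ιA, ιB, τA, τB, Q, ?_, ?_, ?_, ?_, ?_, ?_, ?_, ?_, ?_, ?_, ?_⟩
  · exact hGm.comp ((measurable_brA n).comp hFm)
  · exact hGm.comp ((measurable_brB n).comp hFm)
  · exact hGm.comp ((measurable_invA n).comp hFm)
  · exact hGm.comp ((measurable_invB n).comp hFm)
  · exact hFm (measurableSet_halfSet n)
  · intro t ht
    have hFt : F t ∈ Ioo (0 : ℝ) 1 := (cdfHomeo_mem_iff hψ hr hpos hmass t).2 ht
    constructor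
    · rw [← cdfHomeo_mem_iff hψ hr hpos hmass, ← hF]
      change F (G (brA n (F t))) ∈ _
      rw [show F (G (brA n (F t))) = brA n (F t) from F.apply_symm_apply _]
      exact brA_mem_Ioo hnpos hFt
    · change F (G (brA n (F t))) ∈ halfSet n
      rw [show F (G (brA n (F t))) = brA n (F t) from F.apply_symm_apply _]
      exact brA_mem_halfSet hnpos _
  · intro t ht
    have hFt : F t ∈ Ioo (0 : ℝ) 1 := (cdfHomeo_mem_iff hψ hr hpos hmass t).2 ht
    constructor
    · rw [← cdfHomeo_mem_iff hψ hr hpos hmass, ← hF]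
      change F (G (brB n (F t))) ∈ _
      rw [show F (G (brB n (F t))) = brB n (F t) from F.apply_symm_apply _]
      exact brB_mem_Ioo hnpos hFt
    · change F (G (brB n (F t))) ∉ halfSet n
      rw [show F (G (brB n (F t))) = brB n (F t) from F.apply_symm_apply _]
      exact brB_notMem_halfSet hnpos _
  · intro t
    change G (invA n (F (G (brA n (F t))))) = t
    rw [show F (G (brA n (F t))) = brA n (F t) from F.apply_symm_apply _, invA_brA hnpos]
    exact F.symm_apply_apply t
  · intro t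
    change G (invB n (F (G (brB n (F t))))) = t
    rw [show F (G (brB n (F t))) = brB n (F t) from F.apply_symm_apply _, invB_brB hnpos]
    exact F.symm_apply_apply t
  · -- measure identity
    have hFm' := map_cdfHomeo hψ hr hpos hzero hmass
    rw [← hF] at hFm'
    have hGF : (volume.restrict (Ioo (0 : ℝ) 1)).map G = sqMeasure ψ := by
      rw [← hFm', Measure.map_map hGm hFm]
      have : G ∘ F = id := by
        funext t
        exact F.symm_apply_apply t
      rw [this, Measure.map_id]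
    have eA : (sqMeasure ψ).map ιA =
        ((volume.restrict (Ioo (0 : ℝ) 1)).map (brA n)).map G := by
      rw [← hFm', Measure.map_map (measurable_brA n) hFm,
        Measure.map_map hGm ((measurable_brA n).comp hFm)]
      rfl
    have eB : (sqMeasure ψ).map ιB =
        ((volume.restrict (Ioo (0 : ℝ) 1)).map (brB n)).map G := by
      rw [← hFm', Measure.map_map (measurable_brB n) hFm,
        Measure.map_map hGm ((measurable_brB n).comp hFm)]
      rfl
    rw [eA, eB, ← Measure.map_add _ _ hGm, branch_identity hnpos, Measure.map_smul, hGF]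
  · intro t ht
    exact ⟨hclose (brA n) (fun s hs => brA_mem_Ioo hnpos hs) (abs_brA_sub hnpos) t ht,
      hclose (brB n) (fun s hs => brB_mem_Ioo hnpos hs) (abs_brB_sub hnpos) t ht⟩

end

end Crest.Agent.Lib.OTM
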