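import Mathlib
import Crest.Prelude.Def_MultiMarginal

/-!
Real power interaction `gr s w = (‖w‖²)^(-s/2)`, its gradient `Dg`, the global one-sided second
order expansion (Bernoulli), and the relation with `pairCost`/`tripleCost`.
-/

set_option autoImplicit false
set_option linter.unusedSectionVars false
set_option linter.unusedVariables false

namespace Crest.Agent.Lib.OTM

open scoped ENNReal ContDiff RealInnerProductSpace
open Crest.AnalysisR.OT

section Power

variable {E : Type*} [NormedAddCommGroup E] [InnerProductSpace ℝ E]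

/-- The real interaction `‖w‖^(-s)`, as a power of the squared norm. -/
noncomputable def gr (s : ℝ) (w : E) : ℝ := (‖w‖ ^ 2) ^ (-s / 2)

/-- The gradient of `gr`. -/
noncomputable def Dg (s : ℝ) (w : E) : E := (-s * (‖w‖ ^ 2) ^ (-s / 2 - 1)) • w

/-- Bernoulli inequality for negative powers (tangent line of a convex function). -/
theorem rpow_neg_tangent {a t t' : ℝ} (ha : 0 ≤ a) (ht : 0 < t) (ht' : 0 < t') :
    t ^ (-a) - a * t ^ (-a - 1) * (t' - t) ≤ t' ^ (-a) := by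
  have hx : 0 < t' / t := div_pos ht' ht
  have h1 : 1 - a * (t' / t - 1) ≤ (t' / t) ^ (-a) := by
    rw [Real.rpow_def_of_pos hx]
    have h2 : Real.log (t' / t) ≤ t' / t - 1 := Real.log_le_sub_one_of_pos hx
    have h3 : Real.log (t' / t) * -a + 1 ≤ Real.exp (Real.log (t' / t) * -a) :=
      Real.add_one_le_exp _
    nlinarith [mul_le_mul_of_nonneg_left h2 ha]
  have h4 : t' ^ (-a) = t ^ (-a) * (t' / t) ^ (-a) := by
    rw [Real.div_rpow ht'.le ht.le, mul_div_cancel₀]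
    exact (Real.rpow_pos_of_pos ht _).ne'
  have h5 : t ^ (-a - 1) = t ^ (-a) / t := by
    rw [Real.rpow_sub_one ht.ne']
  rw [h4, h5]
  have h6 : 0 < t ^ (-a) := Real.rpow_pos_of_pos ht _
  have h7 : t ^ (-a) * (1 - a * (t' / t - 1)) ≤ t ^ (-a) * (t' / t) ^ (-a) :=
    mul_le_mul_of_nonneg_left h1 h6.le
  have h8 : t ^ (-a) * (1 - a * (t' / t - 1)) = t ^ (-a) - a * (t ^ (-a) / t) * (t' - t) := by
    field_simp
  linarith

/-- The global second-order lower bound for `gr`. -/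
theorem gr_ge {s : ℝ} (hs : 0 ≤ s) {w w' : E} (hw : w ≠ 0) (hw' : w' ≠ 0) :
    gr s w + ⟪Dg s w, w' - w⟫ - (s / 2) * (‖w‖ ^ 2) ^ (-s / 2 - 1) * ‖w' - w‖ ^ 2 ≤ gr s w' := by
  have ht : 0 < ‖w‖ ^ 2 := by positivity
  have ht' : 0 < ‖w'‖ ^ 2 := by positivity
  have h := rpow_neg_tangent (a := s / 2) (by positivity) ht ht'
  have e1 : -(s / 2) = -s / 2 := by ring
  rw [e1] at h
  have e2 : ‖w'‖ ^ 2 - ‖w‖ ^ 2 = 2 * ⟪w, w' - w⟫ + ‖w' - w‖ ^ 2 := by
    have : w' = w + (w' - w) := by abel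
    calc ‖w'‖ ^ 2 - ‖w‖ ^ 2 = ‖w + (w' - w)‖ ^ 2 - ‖w‖ ^ 2 := by rw [← this]
      _ = _ := by rw [norm_add_sq_real]; ring
  rw [e2] at h
  simp only [gr, Dg, inner_smul_left]
  simp only [conj_trivial]
  nlinarith [h]

theorem gr_pos (s : ℝ) {w : E} (hw : w ≠ 0) : 0 < gr s w := by
  have ht : 0 < ‖w‖ ^ 2 := by positivity
  exact Real.rpow_pos_of_pos ht _

theorem gr_nonneg (s : ℝ) (w : E) : 0 ≤ gr s w := Real.rpow_nonneg (by positivity) _

theorem gr_eq_norm_rpow (s : ℝ) {w : E} (hw : w ≠ 0) : gr s w = ‖w‖ ^ (-s) := by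
  have hn : 0 < ‖w‖ := norm_pos_iff.2 hw
  unfold gr
  rw [← Real.rpow_natCast ‖w‖ 2, ← Real.rpow_mul hn.le]
  congr 1
  push_cast
  ring

theorem gr_neg (s : ℝ) (w : E) : gr s (-w) = gr s w := by simp [gr]

theorem gr_sub_comm (s : ℝ) (x y : E) : gr s (x - y) = gr s (y - x) := by
  rw [← gr_neg, neg_sub]

theorem Dg_neg (s : ℝ) (w : E) : Dg s (-w) = - Dg s w := by simp [Dg, smul_neg]

theorem norm_Dg (s : ℝ) (hs : 0 ≤ s) (w : E) : ‖Dg s w‖ = s * (‖w‖ ^ 2) ^ (-s / 2 - 1) * ‖w‖ := by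
  have : 0 ≤ (‖w‖ ^ 2) ^ (-s / 2 - 1) := Real.rpow_nonneg (by positivity) _
  simp only [Dg, norm_smul, Real.norm_eq_abs]
  rw [abs_of_nonpos (by nlinarith)]
  ring

/-- `gr` is antitone in the norm: lower bound for a nonzero vector with bounded norm. -/
theorem rpow_le_gr {s : ℝ} (hs : 0 ≤ s) {w : E} (hw : w ≠ 0) {L : ℝ} (hL : ‖w‖ ≤ L) :
    L ^ (-s) ≤ gr s w := by
  have hn : 0 < ‖w‖ := norm_pos_iff.2 hw
  rw [gr_eq_norm_rpow s hw]
  exact Real.rpow_le_rpow_of_nonpos hn hL (by linarith)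

/-- Upper bound for the exponent-`q` term: if `‖w‖ ≥ 1/2` then `(‖w‖²)^(-s/2-1) ≤ 2^(s+2)`. -/
theorem q_le {s : ℝ} (hs : 0 ≤ s) {w : E} (hw : 1 / 2 ≤ ‖w‖) :
    (‖w‖ ^ 2) ^ (-s / 2 - 1) ≤ (2 : ℝ) ^ (s + 2) := by
  have h1 : (1 / 2 : ℝ) ^ 2 ≤ ‖w‖ ^ 2 := by
    apply pow_le_pow_left₀ (by norm_num) hw
  have h2 : (‖w‖ ^ 2) ^ (-s / 2 - 1) ≤ ((1 / 2 : ℝ) ^ 2) ^ (-s / 2 - 1) :=
    Real.rpow_le_rpow_of_nonpos (by norm_num) h1 (by linarith)
  have h3 : ((1 / 2 : ℝ) ^ 2) ^ (-s / 2 - 1) = (2 : ℝ) ^ (s + 2) := by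
    rw [← Real.rpow_natCast (1 / 2 : ℝ) 2, ← Real.rpow_mul (by norm_num)]
    rw [one_div, Real.inv_rpow (by norm_num), ← Real.rpow_neg (by norm_num)]
    congr 1
    push_cast
    ring
  linarith

/-- The real three-particle cost. -/
noncomputable def cr (s : ℝ) (x y z : E) : ℝ := gr s (x - y) + gr s (x - z) + gr s (y - z)

theorem cr_nonneg (s : ℝ) (x y z : E) : 0 ≤ cr s x y z := by
  unfold cr
  have := gr_nonneg s (x - y)
  have := gr_nonneg s (x - z)
  have := gr_nonneg s (y - z)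
  linarith

theorem cr_cyc (s : ℝ) (x y z : E) : cr s x y z = cr s y z x := by
  unfold cr
  rw [gr_sub_comm s x z, gr_sub_comm s x y]
  ring

theorem cr_swap (s : ℝ) (x y z : E) : cr s x y z = cr s x z y := by
  unfold cr
  rw [gr_sub_comm s y z]
  ring

theorem pairCost_eq {s : ℝ} {x y : E} (hxy : x ≠ y) :
    pairCost s x y = ENNReal.ofReal (gr s (x - y)) := by
  have hw : x - y ≠ 0 := sub_ne_zero.2 hxy
  have hn : 0 < ‖x - y‖ := norm_pos_iff.2 hw
  rw [gr_eq_norm_rpow s hw]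
  unfold pairCost
  rw [ENNReal.ofReal_rpow_of_pos hn]

theorem pairCost_self {s : ℝ} (hs : 0 < s) (x : E) : pairCost s x x = ⊤ := by
  unfold pairCost
  simp [hs]

theorem tripleCost_eq {s : ℝ} {x y z : E} (hxy : x ≠ y) (hxz : x ≠ z) (hyz : y ≠ z) :
    tripleCost s (x, y, z) = ENNReal.ofReal (cr s x y z) := by
  unfold tripleCost cr
  simp only
  rw [pairCost_eq hxy, pairCost_eq hxz, pairCost_eq hyz, ENNReal.ofReal_add, ENNReal.ofReal_add]
  · exact gr_nonneg _ _
  · exact gr_nonneg _ _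
  · exact add_nonneg (gr_nonneg _ _) (gr_nonneg _ _)
  · exact gr_nonneg _ _

theorem tripleCost_eq_top {s : ℝ} (hs : 0 < s) {x y z : E} (h : x = y ∨ x = z ∨ y = z) :
    tripleCost s (x, y, z) = ⊤ := by
  unfold tripleCost
  simp only
  rcases h with h | h | h
  · subst h; simp [pairCost_self hs]
  · subst h; simp [pairCost_self hs]
  · subst h; simp [pairCost_self hs]

theorem pairCost_comm (s : ℝ) (x y : E) : pairCost s x y = pairCost s y x := by
  unfold pairCost
  rw [norm_sub_rev]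

theorem tripleCost_cyc (s : ℝ) (x y z : E) :
    tripleCost s (x, y, z) = tripleCost s (y, z, x) := by
  unfold tripleCost
  simp only
  rw [pairCost_comm s x z, pairCost_comm s x y]
  ring

theorem tripleCost_swap (s : ℝ) (x y z : E) :
    tripleCost s (x, y, z) = tripleCost s (x, z, y) := by
  unfold tripleCost
  simp only
  rw [pairCost_comm s y z]
  ring

theorem measurable_tripleCost [MeasurableSpace E] [BorelSpace E] [SecondCountableTopology E]
    (s : ℝ) : Measurable (tripleCost (E := E) s) := by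
  have hp : ∀ (a b : E × E × E → E), Measurable a → Measurable b →
      Measurable (fun p => pairCost s (a p) (b p)) := by
    intro a b ha hb
    unfold pairCost
    exact ((ha.sub hb).norm.ennreal_ofReal).pow_const _
  unfold tripleCost
  have m1 : Measurable (fun p : E × E × E => p.1) := measurable_fst
  have m2 : Measurable (fun p : E × E × E => p.2.1) := measurable_fst.comp measurable_snd
  have m3 : Measurable (fun p : E × E × E => p.2.2) := measurable_snd.comp measurable_snd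
  exact ((hp _ _ m1 m2).add (hp _ _ m1 m3)).add (hp _ _ m2 m3)

theorem measurable_gr [MeasurableSpace E] [BorelSpace E] (s : ℝ) :
    Measurable (gr (E := E) s) := by
  unfold gr
  exact (measurable_norm.pow_const 2).pow_const _

theorem cr_eval_base {s : ℝ} {b : E} (hb : ‖b‖ = 1) :
    cr s (0 : E) b (-b) = 2 + (2 : ℝ) ^ (-s) := by
  have h1 : gr s ((0 : E) - b) = 1 := by simp [gr, hb]
  have h2 : gr s ((0 : E) - -b) = 1 := by simp [gr, hb]
  have h3 : gr s (b - -b) = (2 : ℝ) ^ (-s) := by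
    have hne : b - -b ≠ 0 := by
      intro h
      have : ‖b - -b‖ = 2 := by
        rw [sub_neg_eq_add, ← two_smul ℝ b, norm_smul, hb]; norm_num
      rw [h] at this
      norm_num at this
    rw [gr_eq_norm_rpow s hne]
    have : ‖b - -b‖ = 2 := by
      rw [sub_neg_eq_add, ← two_smul ℝ b, norm_smul, hb]; norm_num
    rw [this]
  unfold cr
  rw [h1, h2, h3]
  ring

end Power

end Crest.Agent.Lib.OTM
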