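import Crest.Agent.Lib.OTM.Power

/-!
The transform inequality: at a critical point of `cr - wPot - vPot` in `(x, y)` for fixed `z`,
the global lower bound with a quadratic gain, provided `K` is large.
-/

set_option autoImplicit false
set_option linter.unusedSectionVars false
set_option linter.unusedVariables false

namespace Crest.Agent.Lib.OTM

open scoped RealInnerProductSpace

variable {E : Type*} [NormedAddCommGroup E] [InnerProductSpace ℝ E]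

/-- Potential on the central bump. -/
noncomputable def wPot (α K : ℝ) (x : E) : ℝ := α - K / 2 * ‖x‖ ^ 2

/-- Potential on the `y`-bump. -/
noncomputable def vPot (K : ℝ) (b ℓ y : E) : ℝ := -(K / 2) * ‖y - b‖ ^ 2 + ⟪ℓ, y - b⟫

/-- First critical point equation. -/
noncomputable def eqOne (s K : ℝ) (x y z : E) : E := K • x + Dg s (x - y) + Dg s (x - z)

/-- Second critical point equation. -/
noncomputable def eqTwo (s K : ℝ) (b ℓ x y z : E) : E :=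
  K • (y - b) - ℓ - Dg s (x - y) + Dg s (y - z)

theorem transform_ineq {s K α A : ℝ} (hs : 0 ≤ s) {b ℓ x y z x' y' : E}
    (he1 : eqOne s K x y z = 0) (he2 : eqTwo s K b ℓ x y z = 0)
    (hA1 : (‖x - y‖ ^ 2) ^ (-s / 2 - 1) ≤ A) (hA2 : (‖x - z‖ ^ 2) ^ (-s / 2 - 1) ≤ A)
    (hA3 : (‖y - z‖ ^ 2) ^ (-s / 2 - 1) ≤ A)
    (hxy : x ≠ y) (hxz : x ≠ z) (hyz : y ≠ z)
    (h'xy : x' ≠ y') (h'xz : x' ≠ z) (h'yz : y' ≠ z) :
    cr s x y z - wPot α K x - vPot K b ℓ y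
        + ((K - 3 * s * A) / 2) * (‖x' - x‖ ^ 2 + ‖y' - y‖ ^ 2)
      ≤ cr s x' y' z - wPot α K x' - vPot K b ℓ y' := by
  set δx := x' - x with hδx
  set δy := y' - y with hδy
  have hx' : x' = x + δx := by rw [hδx]; abel
  have hy' : y' = y + δy := by rw [hδy]; abel
  have g1 := gr_ge hs (sub_ne_zero.2 hxy) (sub_ne_zero.2 h'xy)
  have g2 := gr_ge hs (sub_ne_zero.2 hxz) (sub_ne_zero.2 h'xz)
  have g3 := gr_ge hs (sub_ne_zero.2 hyz) (sub_ne_zero.2 h'yz)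
  have d1 : (x' - y') - (x - y) = δx - δy := by rw [hδx, hδy]; abel
  have d2 : (x' - z) - (x - z) = δx := by rw [hδx]; abel
  have d3 : (y' - z) - (y - z) = δy := by rw [hδy]; abel
  rw [d1] at g1
  rw [d2] at g2
  rw [d3] at g3
  set D1 := Dg s (x - y) with hD1
  set D2 := Dg s (x - z) with hD2
  set D3 := Dg s (y - z) with hD3
  have e1 : D1 + D2 = -(K • x) := by
    have : K • x + D1 + D2 = 0 := he1
    rw [eq_neg_iff_add_eq_zero, add_comm, ← add_assoc]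
    exact this
  have e2 : D3 - D1 = ℓ - K • (y - b) := by
    have : K • (y - b) - ℓ - D1 + D3 = 0 := he2
    have h : D3 - D1 = (K • (y - b) - ℓ - D1 + D3) + (ℓ - K • (y - b)) := by abel
    rw [h, this, zero_add]
  have i1 : ⟪D1, δx - δy⟫ + ⟪D2, δx⟫ + ⟪D3, δy⟫ =
      -K * ⟪x, δx⟫ + ⟪ℓ, δy⟫ - K * ⟪y - b, δy⟫ := by
    have : ⟪D1, δx - δy⟫ + ⟪D2, δx⟫ + ⟪D3, δy⟫ = ⟪D1 + D2, δx⟫ + ⟪D3 - D1, δy⟫ := by
      rw [inner_sub_right, inner_add_left, inner_sub_left]; ring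
    rw [this, e1, e2, inner_neg_left, inner_smul_left, inner_sub_left, inner_smul_left]
    simp only [conj_trivial]
    ring
  have w1 : wPot α K x' = wPot α K x - K * ⟪x, δx⟫ - K / 2 * ‖δx‖ ^ 2 := by
    unfold wPot
    rw [hx', norm_add_sq_real]
    ring
  have v1 : vPot K b ℓ y' = vPot K b ℓ y - K * ⟪y - b, δy⟫ - K / 2 * ‖δy‖ ^ 2 + ⟪ℓ, δy⟫ := by
    unfold vPot
    have h : y + δy - b = (y - b) + δy := by abel
    rw [hy', h, norm_add_sq_real, inner_add_right]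
    ring
  have para : ‖δx - δy‖ ^ 2 ≤ 2 * ‖δx‖ ^ 2 + 2 * ‖δy‖ ^ 2 := by
    have := parallelogram_law_with_norm ℝ δx δy
    nlinarith [sq_nonneg ‖δx + δy‖]
  have hsA : 0 ≤ s / 2 := by positivity
  have b1 : (s / 2) * (‖x - y‖ ^ 2) ^ (-s / 2 - 1) * ‖δx - δy‖ ^ 2 ≤
      (s / 2) * A * (2 * ‖δx‖ ^ 2 + 2 * ‖δy‖ ^ 2) := by
    apply mul_le_mul (mul_le_mul_of_nonneg_left hA1 hsA) para (by positivity)
    have : 0 ≤ (‖x - y‖ ^ 2) ^ (-s / 2 - 1) := Real.rpow_nonneg (by positivity) _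
    have : 0 ≤ A := le_trans this hA1
    positivity
  have b2 : (s / 2) * (‖x - z‖ ^ 2) ^ (-s / 2 - 1) * ‖δx‖ ^ 2 ≤ (s / 2) * A * ‖δx‖ ^ 2 :=
    mul_le_mul_of_nonneg_right (mul_le_mul_of_nonneg_left hA2 hsA) (by positivity)
  have b3 : (s / 2) * (‖y - z‖ ^ 2) ^ (-s / 2 - 1) * ‖δy‖ ^ 2 ≤ (s / 2) * A * ‖δy‖ ^ 2 :=
    mul_le_mul_of_nonneg_right (mul_le_mul_of_nonneg_left hA3 hsA) (by positivity)
  rw [w1, v1]
  unfold cr
  nlinarith [g1, g2, g3, i1, b1, b2, b3]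

end Crest.Agent.Lib.OTM
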